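import Vale.Agent.P032.H98.MRow
import Vale.Agent.P032.H987.ExcL
import Vale.Agent.P032.H815.CzMOf
import Vale.Agent.P032.H862.HarmM

/-!
# P032: harmless points on the circle of a point in the mode `e`: first part (helper594)

World `XC U T`, `Md98 T V a b c d e f`.

* `two_n3` : `NoThree` in the form `every neighbour of order at least four is y or y2`;
* `exc_md594` : the list theorem `exc_list` at `V`;
* `sides594` : at a point of order at least four of `S(V)` the letter `f` is on exactly one side;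
* `f_mem594` : the palette contains `f`;
* `e_mem594`, `harm_cases594` : a harmless point of `S(V)` has both colours `e` and `f`;
-/

open Set Filter Topology Metric

noncomputable section

namespace Vale.Agent.P032.H594

open Vale.Agent.P032.Six Vale.Agent.P032.S5.H767 Vale.Agent.P032.S5.H122 Vale.Agent.P032.Sweep
open Vale.Agent.P032.H383 Vale.Agent.P032.H800 Vale.Agent.P032.H98 Vale.Agent.P032.H987

variable {U : Fin 6 → Set ℂ} {T : ℂ → Set (Fin 6)} {V y : ℂ} {a b c d e f : Fin 6}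

/-- the neighbours of order at least four -/
theorem two_n3 (X : XC U T) {z y : ℂ} (hz : 4 ≤ (T z).ncard) (hy : dist y z = 1)
    (hy4 : 4 ≤ (T y).ncard) :
    ∃ y2, ∀ x, dist x z = 1 → 4 ≤ (T x).ncard → x = y ∨ x = y2 := by
  by_cases h : ∃ y2, dist y2 z = 1 ∧ 4 ≤ (T y2).ncard ∧ y2 ≠ y
  · obtain ⟨y2, h1, h2, h3⟩ := h
    refine ⟨y2, fun x hx hx4 => ?_⟩
    rcases X.n3 z y y2 x hz hy h1 hx hy4 h2 hx4 with h4 | h4 | h4
    · exact absurd h4.symm h3
    · exact Or.inl h4.symm
    · exact Or.inr h4.symm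
  · push Not at h
    exact ⟨y, fun x hx hx4 => Or.inl (h x hx hx4)⟩

/-- the list theorem at a point in the mode `e` -/
theorem exc_md594 (X : XC U T) (M : Md98 T V a b c d e f) {u : ℝ}
    (h4 : 4 ≤ (T (pt V u)).ncard) (l m : Fin 4)
    (hl : ∃ᶠ v in 𝓝[<] u, v ∈ Oc T V (lt98 a b e f) l)
    (hm : ∃ᶠ v in 𝓝[>] u, v ∈ Oc T V (lt98 a b e f) m) :
    (l = 1 ∧ m ≠ 1) ∨ (l ≠ 1 ∧ m = 1) := by
  obtain ⟨y2, h2⟩ := two_n3 X M.dpt.ncard.ge (dist_pt V u) h4
  obtain ⟨p, q, Z⟩ := H815.exists_zn815 X.df.irr M.dpt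
  have S := H815.czM_of_mode815 X.df M.dpt M.nd M.hA M.hC
  exact (exc_list S Z h2).2.2.2 u h4 l m hl hm

/-- some letter is frequent on the left -/
theorem ex_left (h : Irr U T) (V : ℂ) (u : ℝ) (a b e f : Fin 6) :
    ∃ l, ∃ᶠ v in 𝓝[<] u, v ∈ Oc T V (lt98 a b e f) l := by
  by_contra hcon
  push Not at hcon
  have h1 : ∀ᶠ v in 𝓝[<] u, ∀ l, v ∉ Oc T V (lt98 a b e f) l :=
    eventually_all.2 hcon
  obtain ⟨α, hα, hsub⟩ := mem_nhdsLT_iff_exists_Ioo_subset.1 h1
  obtain ⟨v, hv, hv2⟩ := (Lc_dense h V).exists_mem_open isOpen_Ioo (nonempty_Ioo.2 hα)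
  exact hsub hv2 _ ⟨hv, rfl⟩

/-- some letter is frequent on the right -/
theorem ex_right (h : Irr U T) (V : ℂ) (u : ℝ) (a b e f : Fin 6) :
    ∃ l, ∃ᶠ v in 𝓝[>] u, v ∈ Oc T V (lt98 a b e f) l := by
  by_contra hcon
  push Not at hcon
  have h1 : ∀ᶠ v in 𝓝[>] u, ∀ l, v ∉ Oc T V (lt98 a b e f) l :=
    eventually_all.2 hcon
  obtain ⟨α, hα, hsub⟩ := mem_nhdsGT_iff_exists_Ioo_subset.1 h1
  obtain ⟨v, hv, hv2⟩ := (Lc_dense h V).exists_mem_open isOpen_Ioo (nonempty_Ioo.2 hα)
  exact hsub hv2 _ ⟨hv, rfl⟩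

/-- the letter `f` on one side only -/
def Side (T : ℂ → Set (Fin 6)) (V : ℂ) (a b e f : Fin 6) (u : ℝ) : Prop :=
  ((∀ᶠ v in 𝓝[<] u, v ∈ Lc T V → lt98 a b e f (T (pt V v)) = 1) ∧
    ∀ᶠ v in 𝓝[>] u, v ∈ Lc T V → lt98 a b e f (T (pt V v)) ≠ 1) ∨
  ((∀ᶠ v in 𝓝[<] u, v ∈ Lc T V → lt98 a b e f (T (pt V v)) ≠ 1) ∧
    ∀ᶠ v in 𝓝[>] u, v ∈ Lc T V → lt98 a b e f (T (pt V v)) = 1)

/-- **the letter `f` is on exactly one side of a point of order at least four** -/
theorem sides594 (X : XC U T) (M : Md98 T V a b c d e f) {u : ℝ}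
    (h4 : 4 ≤ (T (pt V u)).ncard) : Side T V a b e f u := by
  obtain ⟨l0, hl0⟩ := ex_left X.df.irr V u a b e f
  obtain ⟨m0, hm0⟩ := ex_right X.df.irr V u a b e f
  have key := exc_md594 X M h4
  have nl : ∀ l, ¬ (∃ᶠ v in 𝓝[<] u, v ∈ Oc T V (lt98 a b e f) l) →
      ∀ᶠ v in 𝓝[<] u, v ∈ Lc T V → lt98 a b e f (T (pt V v)) ≠ l := by
    intro l hl
    rw [not_frequently] at hl
    filter_upwards [hl] with v hv h1 h2
    exact hv ⟨h1, h2⟩
  have nr : ∀ l, ¬ (∃ᶠ v in 𝓝[>] u, v ∈ Oc T V (lt98 a b e f) l) →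
      ∀ᶠ v in 𝓝[>] u, v ∈ Lc T V → lt98 a b e f (T (pt V v)) ≠ l := by
    intro l hl
    rw [not_frequently] at hl
    filter_upwards [hl] with v hv h1 h2
    exact hv ⟨h1, h2⟩
  rcases key l0 m0 hl0 hm0 with ⟨h1, h2⟩ | ⟨h1, h2⟩
  · subst h1
    refine Or.inl ⟨?_, nr 1 fun h => ?_⟩
    · have h3 : ∀ᶠ v in 𝓝[<] u, ∀ l : Fin 4, l ≠ 1 → v ∈ Lc T V → lt98 a b e f (T (pt V v)) ≠ l := by
        refine eventually_all.2 fun l => ?_
        by_cases hl : l = 1
        · exact Eventually.of_forall fun v h => absurd hl h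
        · have := nl l fun h => by
            rcases key l m0 h hm0 with ⟨h5, -⟩ | ⟨-, h5⟩
            · exact hl h5
            · exact h2 h5
          filter_upwards [this] with v hv _
          exact hv
      filter_upwards [h3] with v hv hvL
      by_contra hne
      exact hv _ hne hvL rfl
    · rcases key 1 1 hl0 h with ⟨-, h5⟩ | ⟨h5, -⟩ <;> exact h5 rfl
  · subst h2
    refine Or.inr ⟨nl 1 fun h => ?_, ?_⟩
    · rcases key 1 1 h hm0 with ⟨-, h5⟩ | ⟨h5, -⟩ <;> exact h5 rfl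
    · have h3 : ∀ᶠ v in 𝓝[>] u, ∀ l : Fin 4, l ≠ 1 → v ∈ Lc T V → lt98 a b e f (T (pt V v)) ≠ l := by
        refine eventually_all.2 fun l => ?_
        by_cases hl : l = 1
        · exact Eventually.of_forall fun v h => absurd hl h
        · have := nr l fun h => by
            rcases key l0 l hl0 h with ⟨h5, -⟩ | ⟨-, h5⟩
            · exact h1 h5
            · exact hl h5
          filter_upwards [this] with v hv _
          exact hv
      filter_upwards [h3] with v hv hvL
      by_contra hne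
      exact hv _ hne hvL rfl

theorem lt98_one {P : Set (Fin 6)} (h : lt98 a b e f P = 1) : e ∉ P ∧ f ∈ P := by
  unfold lt98 at h
  by_cases he : e ∈ P
  · rw [if_pos he] at h; exact absurd h (by decide)
  refine ⟨he, ?_⟩
  by_contra hf
  rw [if_neg he, if_neg hf] at h
  split_ifs at h <;> exact absurd h (by decide)

theorem tendsto_pt_left (V : ℂ) (u : ℝ) : Tendsto (pt V) (𝓝[<] u) (𝓝 (pt V u)) :=
  ((continuous_pt V).tendsto u).mono_left nhdsWithin_le_nhds

theorem tendsto_pt_right (V : ℂ) (u : ℝ) : Tendsto (pt V) (𝓝[>] u) (𝓝 (pt V u)) :=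
  ((continuous_pt V).tendsto u).mono_left nhdsWithin_le_nhds

theorem freq_Lc_left (h : Irr U T) (V : ℂ) (u : ℝ) : ∃ᶠ v in 𝓝[<] u, v ∈ Lc T V := by
  rw [frequently_iff]
  intro W hW
  obtain ⟨α, hα, hsub⟩ := mem_nhdsLT_iff_exists_Ioo_subset.1 hW
  obtain ⟨v, hv, hv2⟩ := (Lc_dense h V).exists_mem_open isOpen_Ioo (nonempty_Ioo.2 hα)
  exact ⟨v, hsub hv2, hv⟩

theorem freq_Lc_right (h : Irr U T) (V : ℂ) (u : ℝ) : ∃ᶠ v in 𝓝[>] u, v ∈ Lc T V := by
  rw [frequently_iff]
  intro W hW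
  obtain ⟨α, hα, hsub⟩ := mem_nhdsGT_iff_exists_Ioo_subset.1 hW
  obtain ⟨v, hv, hv2⟩ := (Lc_dense h V).exists_mem_open isOpen_Ioo (nonempty_Ioo.2 hα)
  exact ⟨v, hsub hv2, hv⟩

/-- **the palette contains `f`** -/
theorem f_mem594 (X : XC U T) (M : Md98 T V a b c d e f) (hy : dist y V = 1)
    (h4 : 4 ≤ (T y).ncard) : f ∈ T y := by
  obtain ⟨u, rfl⟩ := S5.H349.exists_pt hy
  have h := X.df.irr
  rcases sides594 X M h4 with ⟨h1, -⟩ | ⟨-, h1⟩
  · obtain ⟨v, hv, h2, h3⟩ := ((freq_Lc_left h V u).and_eventually (h1.and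
      ((tendsto_pt_left V u).eventually (h.nhd (pt V u))))).exists
    exact h3 (lt98_one (h2 hv)).2
  · obtain ⟨v, hv, h2, h3⟩ := ((freq_Lc_right h V u).and_eventually (h1.and
      ((tendsto_pt_right V u).eventually (h.nhd (pt V u))))).exists
    exact h3 (lt98_one (h2 hv)).2

/-- a set of four colours with three given ones -/
theorem ncard4 {w x y' z' : Fin 6} (h1 : w ≠ x) (h2 : w ≠ y') (h3 : w ≠ z') (h4 : x ≠ y')
    (h5 : x ≠ z') (h6 : y' ≠ z') : ({w, x, y', z'} : Set (Fin 6)).ncard = 4 := by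
  rw [Set.ncard_insert_of_notMem (by simp [h1, h2, h3]),
    Set.ncard_insert_of_notMem (by simp [h4, h5]), Set.ncard_pair h6]

theorem eq_four {S : Set (Fin 6)} (hS : S.ncard = 4) {w x y' z' : Fin 6} (h1 : w ≠ x) (h2 : w ≠ y')
    (h3 : w ≠ z') (h4 : x ≠ y') (h5 : x ≠ z') (h6 : y' ≠ z') (k1 : w ∈ S) (k2 : x ∈ S)
    (k3 : y' ∈ S) (k4 : z' ∈ S) : S = {w, x, y', z'} := by
  have hsub : ({w, x, y', z'} : Set (Fin 6)) ⊆ S := by
    rintro i (rfl | rfl | rfl | hi)
    · exact k1
    · exact k2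
    · exact k3
    · rw [mem_singleton_iff] at hi; rw [hi]; exact k4
  exact (Set.eq_of_subset_of_ncard_le hsub (by rw [hS, ncard4 h1 h2 h3 h4 h5 h6])
    (Set.toFinite _)).symm

/-- a set of four colours inside four given ones -/
theorem eq_four' {S : Set (Fin 6)} (hS : S.ncard = 4) {w x y' z' : Fin 6}
    (k : ∀ i ∈ S, i = w ∨ i = x ∨ i = y' ∨ i = z') : S = {w, x, y', z'} := by
  have hsub : S ⊆ ({w, x, y', z'} : Set (Fin 6)) := fun i hi => k i hi
  refine Set.eq_of_subset_of_ncard_le hsub ?_ (Set.toFinite _)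
  rw [hS]
  refine (Set.ncard_insert_le _ _).trans ?_
  have := Set.ncard_insert_le x ({y', z'} : Set (Fin 6))
  have h2 := Set.ncard_insert_le y' ({z'} : Set (Fin 6))
  rw [Set.ncard_singleton] at h2
  omega

/-- **no harmless point without the colour `e`** -/
theorem e_mem594 (X : XC U T) (M : Md98 T V a b c d e f) (hy : dist y V = 1)
    {A : Set (Fin 6)} (hA : Six.Harm T y A) : e ∈ T y := by
  by_contra he
  obtain ⟨⟨ab, ac, ad, ae, af⟩, ⟨bc, bd, be, bf⟩, ⟨cd, ce, cf⟩, ⟨de, df⟩, ef⟩ := nd_all353 M.nd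
  have all := H961.six_cases M.nd
  by_cases ha : a ∈ T y
  · by_cases hb : b ∈ T y
    · by_cases hc : c ∈ T y
      · by_cases hd : d ∈ T y
        · have h1 := eq_four hA.card ab ac ad bc bd cd ha hb hc hd
          have hf := f_mem594 X M hy hA.card.ge
          rw [h1] at hf
          rcases hf with h | h | h | h
          · exact af h.symm
          · exact bf h.symm
          · exact cf h.symm
          · exact df h.symm
        · refine H862.harmK862 X M hy hA (eq_four' hA.card fun i hi => ?_)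
          rcases all i with rfl | rfl | rfl | rfl | rfl | rfl
          · exact Or.inl rfl
          · exact Or.inr (Or.inl rfl)
          · exact Or.inr (Or.inr (Or.inl rfl))
          · exact absurd hi hd
          · exact absurd hi he
          · exact Or.inr (Or.inr (Or.inr rfl))
      · refine H862.harmK862 X M.swap34 hy hA (eq_four' hA.card fun i hi => ?_)
        rcases all i with rfl | rfl | rfl | rfl | rfl | rfl
        · exact Or.inl rfl
        · exact Or.inr (Or.inl rfl)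
        · exact absurd hi hc
        · exact Or.inr (Or.inr (Or.inl rfl))
        · exact absurd hi he
        · exact Or.inr (Or.inr (Or.inr rfl))
    · refine H862.harmK862 X M.swap hy hA (eq_four' hA.card fun i hi => ?_)
      rcases all i with rfl | rfl | rfl | rfl | rfl | rfl
      · exact Or.inr (Or.inr (Or.inl rfl))
      · exact absurd hi hb
      · exact Or.inl rfl
      · exact Or.inr (Or.inl rfl)
      · exact absurd hi he
      · exact Or.inr (Or.inr (Or.inr rfl))
  · refine H862.harmK862 X M.swap.swap34 hy hA (eq_four' hA.card fun i hi => ?_)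
    rcases all i with rfl | rfl | rfl | rfl | rfl | rfl
    · exact absurd hi ha
    · exact Or.inr (Or.inr (Or.inl rfl))
    · exact Or.inl rfl
    · exact Or.inr (Or.inl rfl)
    · exact absurd hi he
    · exact Or.inr (Or.inr (Or.inr rfl))

/-- **the palettes of harmless points** -/
theorem harm_cases594 (X : XC U T) (M : Md98 T V a b c d e f) (hy : dist y V = 1)
    {A : Set (Fin 6)} (hA : Six.Harm T y A) :
    (T y = {a, b, e, f} ∨ T y = {c, d, e, f}) ∨
      (T y = {a, c, e, f} ∨ T y = {a, d, e, f}) ∨ (T y = {b, c, e, f} ∨ T y = {b, d, e, f}) := by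
  obtain ⟨⟨ab, ac, ad, ae, af⟩, ⟨bc, bd, be, bf⟩, ⟨cd, ce, cf⟩, ⟨de, df⟩, ef⟩ := nd_all353 M.nd
  have he := e_mem594 X M hy hA
  have hf := f_mem594 X M hy hA.card.ge
  have all := H961.six_cases M.nd
  by_cases ha : a ∈ T y
  · by_cases hb : b ∈ T y
    · exact Or.inl (Or.inl (eq_four hA.card ab ae af be bf ef ha hb he hf))
    · by_cases hc : c ∈ T y
      · exact Or.inr (Or.inl (Or.inl (eq_four hA.card ac ae af ce cf ef ha hc he hf)))
      · refine Or.inr (Or.inl (Or.inr (eq_four' hA.card fun i hi => ?_)))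
        rcases all i with rfl | rfl | rfl | rfl | rfl | rfl
        · exact Or.inl rfl
        · exact absurd hi hb
        · exact absurd hi hc
        · exact Or.inr (Or.inl rfl)
        · exact Or.inr (Or.inr (Or.inl rfl))
        · exact Or.inr (Or.inr (Or.inr rfl))
  · by_cases hb : b ∈ T y
    · by_cases hc : c ∈ T y
      · exact Or.inr (Or.inr (Or.inl (eq_four hA.card bc be bf ce cf ef hb hc he hf)))
      · refine Or.inr (Or.inr (Or.inr (eq_four' hA.card fun i hi => ?_)))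
        rcases all i with rfl | rfl | rfl | rfl | rfl | rfl
        · exact absurd hi ha
        · exact Or.inl rfl
        · exact absurd hi hc
        · exact Or.inr (Or.inl rfl)
        · exact Or.inr (Or.inr (Or.inl rfl))
        · exact Or.inr (Or.inr (Or.inr rfl))
    · refine Or.inl (Or.inr (eq_four' hA.card fun i hi => ?_))
      rcases all i with rfl | rfl | rfl | rfl | rfl | rfl
      · exact absurd hi ha
      · exact absurd hi hb
      · exact Or.inl rfl
      · exact Or.inr (Or.inl rfl)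
      · exact Or.inr (Or.inr (Or.inl rfl))
      · exact Or.inr (Or.inr (Or.inr rfl))

end Vale.Agent.P032.H594
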