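import Vale.Agent.P032.H594.JZero
import Vale.Agent.P032.H416.Props
import Vale.Agent.P032.H492.TwoJ

/-!
# P032: the top of the block on complementary ends

World `NW U T`: `Irr U T`, `Mn U T`, `NoPair5 T`. A *comp centre* (`Comp T z`) is a two-pair
point with complementary ends, `Jp T z y`: `y` is a `J`-partner of `z`.

Inputs, each one literal definition:
* `Sec4B` : the second centre of a node of a four coloured centre has at most four colours;
* `OnlyJB` : the points of order at least four of the circle of a comp centre are `J`-partners;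
* `NoJ1B` : no comp centre has exactly one `J`-partner;
* `NoJ2B` : then, no comp centre has two `J`-partners.

`noCompB_of` : then `NoCompB`. The comp centres without `J`-partners need no input
(`no_comp_clean`).

`OnlyJT` : the points of order four of the circle of any two-pair point are `J`-partners.
`NoCompJ` : the block in this world; `noCompJ_of` : from `Sec4J`, `NoJ1J`, `NoJ2J`.
-/

open Set Filter Topology Metric

noncomputable section

namespace Vale.Agent.P032.H594

open Vale.Agent.P032.Six Vale.Agent.P032.S5.H450 Vale.Agent.P032.H471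

variable {U : Fin 6 → Set ℂ} {T : ℂ → Set (Fin 6)} {z : ℂ}

/-- `y` is a `J`-partner of `z` -/
def Jp (T : ℂ → Set (Fin 6)) (z y : ℂ) : Prop := dist y z = 1 ∧ T y = T z

theorem Jp.symm {y : ℂ} (h : Jp T z y) : Jp T y z := ⟨by rw [dist_comm]; exact h.1, h.2.symm⟩

/-- the world of the block `NoCompB` -/
structure NW (U : Fin 6 → Set ℂ) (T : ℂ → Set (Fin 6)) : Prop where
  irr : Irr U T
  mn : Mn U T
  np : NoPair5 T

/-- no comp centre with exactly one `J`-partner -/
def NoJ1 (T : ℂ → Set (Fin 6)) : Prop :=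
  ∀ z y, Comp T z → Jp T z y → (∀ y', Jp T z y' → y' = y) → False

/-- every comp centre with a `J`-partner has exactly two -/
def TwoJ (T : ℂ → Set (Fin 6)) : Prop := ∀ z y, Comp T z → Jp T z y →
  ∃ y', y' ≠ y ∧ Jp T z y' ∧ ∀ y'', Jp T z y'' → y'' = y ∨ y'' = y'

/-- no comp centre with two `J`-partners -/
def NoJ2 (T : ℂ → Set (Fin 6)) : Prop :=
  ∀ z y y', Comp T z → Jp T z y → Jp T z y' → y ≠ y' → False

/-- input: second centres -/
def Sec4B : Prop := ∀ (U : Fin 6 → Set ℂ) (T : ℂ → Set (Fin 6)), NW U T → Sec4 T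

/-- input W0: only `J`-partners -/
def OnlyJB : Prop := ∀ (U : Fin 6 → Set ℂ) (T : ℂ → Set (Fin 6)), NW U T → Sec4 T → OnlyJC T

/-- input: no comp centre with exactly one `J`-partner -/
def NoJ1B : Prop := ∀ (U : Fin 6 → Set ℂ) (T : ℂ → Set (Fin 6)), NW U T → Sec4 T → OnlyJC T →
  NoJ1 T

/-- input: no comp centre with two `J`-partners, if every comp centre with a `J`-partner has
exactly two of them -/
def NoJ2B : Prop := ∀ (U : Fin 6 → Set ℂ) (T : ℂ → Set (Fin 6)), NW U T → Sec4 T → OnlyJC T →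
  TwoJ T → NoJ2 T

theorem Comp.dpt (h : Irr U T) (hz : Comp T z) : ∃ a b c d, DPt T z a b c d := by
  obtain ⟨v, q, hv, -, -⟩ := hz
  obtain ⟨a, b, c, d, h1, h2⟩ := hv.names
  exact ⟨a, b, c, d, hv.dpt h h1 h2⟩

/-- at most two `J`-partners -/
theorem Comp.two (h : Irr U T) (hz : Comp T z) {y y' y'' : ℂ} (h1 : Jp T z y) (h2 : Jp T z y')
    (h3 : Jp T z y'') (hne : y' ≠ y) : y'' = y ∨ y'' = y' := by
  obtain ⟨a, b, c, d, hD⟩ := hz.dpt h
  by_contra hcon
  push Not at hcon
  exact h.no_three_J hD h1.1 h2.1 h3.1 h1.2 h2.2 h3.2 hne.symm hcon.1.symm hcon.2.symm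

/-- without comp centres with one `J`-partner, there are exactly two -/
theorem twoJ_of (h : Irr U T) (h1 : NoJ1 T) : TwoJ T := by
  intro z y hz hy
  by_contra hcon
  push Not at hcon
  refine h1 z y hz hy fun y' hy' => ?_
  by_contra hne
  obtain ⟨y'', h1, h2, h3⟩ := hcon y' hne hy'
  rcases hz.two h hy hy' h1 hne with h4 | h4
  · exact h2 h4
  · exact h3 h4

/-- a node of a four coloured centre gives a comp centre -/
theorem comp_of_nd (h : Irr U T) (hS : Sec4 T) {X : Set (Fin 6)} {v q : ℂ} (N : Nd T X z v q)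
    (h4 : (T z).ncard = 4) : Comp T z := by
  obtain ⟨h1, h2⟩ := ee_of_nd h hS N h4
  exact ⟨v, q, h1, h2, by rw [N.Tq, N.Tv]⟩

/-- **no comp centre at all means `NoComp`** -/
theorem noComp_of (h : Irr U T) (hS : Sec4 T) (hC : ∀ z, ¬ Comp T z) : NoComp T := by
  intro z h4 v q hv hq h3 hc
  by_contra hne
  exact hC z (comp_of_nd h hS (X := T v) (v := v) (q := q) ⟨h3, by rw [dist_comm]; exact hv,
    by rw [dist_comm]; exact hq, rfl, hc, hne⟩ h4)

/-- **comp centres have `J`-partners** -/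
theorem exists_Jp (h : Irr U T) (hS : Sec4 T) (hJ : OnlyJC T) (hz : Comp T z) :
    ∃ w y, Comp T w ∧ Jp T w y := by
  by_contra hcon
  push Not at hcon
  refine no_comp_clean h hS (fun w hw y hy => ?_) z hz
  obtain ⟨v, q, hv, hq, hc⟩ := hw
  rcases hJ w v q y hv hq hc hy with h1 | h1
  · exact h1
  · exact absurd ⟨hy, h1⟩ (hcon w y ⟨v, q, hv, hq, hc⟩)

/-- **no complementary ends**, in one frame -/
theorem noComp_of_J (h : Irr U T) (hS : Sec4 T) (hJ : OnlyJC T) (h1 : NoJ1 T)
    (h2 : TwoJ T → NoJ2 T) : NoComp T := by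
  refine noComp_of h hS fun z hz => ?_
  obtain ⟨w, y, hw, hy⟩ := exists_Jp h hS hJ hz
  have hT := twoJ_of h h1
  obtain ⟨y', hne, hy', -⟩ := hT w y hw hy
  exact h2 hT w y y' hw hy hy' hne.symm

/-- **the block `NoCompB`**, from the inputs -/
theorem noCompB_of (HS : Sec4B) (HJ : OnlyJB) (H1 : NoJ1B) (H2 : NoJ2B) : NoCompB := by
  intro U T h hmin h5
  have W : NW U T := ⟨h, hmin, h5⟩
  have hS := HS U T W
  have hJ := HJ U T W hS
  exact noComp_of_J h hS hJ (H1 U T W hS hJ) (H2 U T W hS hJ)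

/-! ### the world in which the circles of the two-pair points carry only `J`-partners -/

/-- the points of order four of the circle of a two-pair point are `J`-partners -/
def OnlyJT (T : ℂ → Set (Fin 6)) : Prop :=
  ∀ z v, (∃ a b c d, DPt T z a b c d) → dist v z = 1 → (T v).ncard = 4 → T v = T z

/-- the block without `W0` -/
def NoCompJ : Prop := ∀ (U : Fin 6 → Set ℂ) (T : ℂ → Set (Fin 6)), Irr U T → Mn U T →
  NoPair5 T → OnlyJT T → NoComp T

/-- W0 at every two-pair point -/
theorem OnlyJT.w0 (h5 : NoPair5 T) (hT : OnlyJT T) {z y : ℂ} (hz : ∃ a b c d, DPt T z a b c d)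
    (hy : dist y z = 1) : (T y).ncard ≤ 3 ∨ T y = T z := by
  obtain ⟨a, b, c, d, hD⟩ := hz
  have h4 : (T z).ncard = 4 := by
    rw [hD.pal, Set.ncard_insert_of_notMem, Set.ncard_insert_of_notMem, Set.ncard_pair hD.cd]
    · simp only [mem_insert_iff, mem_singleton_iff, not_or]
      exact ⟨hD.bc, hD.bd⟩
    · simp only [mem_insert_iff, mem_singleton_iff, not_or]
      exact ⟨hD.ab, hD.ac, hD.ad⟩
  rcases le_or_gt (T y).ncard 3 with h1 | h1
  · exact Or.inl h1
  rcases le_or_gt 5 (T y).ncard with h2 | h2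
  · exact (h5 y z hy h2 h4.ge).elim
  · exact Or.inr (hT z y ⟨a, b, c, d, hD⟩ hy (by omega))

/-- W0 -/
theorem OnlyJT.onlyJC (h : Irr U T) (h5 : NoPair5 T) (hT : OnlyJT T) : OnlyJC T :=
  fun z v q _ hv hq hc hy => hT.w0 h5 (Comp.dpt h (z := z) ⟨v, q, hv, hq, hc⟩) hy

/-- input: second centres -/
def Sec4J : Prop := ∀ (U : Fin 6 → Set ℂ) (T : ℂ → Set (Fin 6)), NW U T → OnlyJT T → Sec4 T

/-- input: no comp centre with exactly one `J`-partner -/
def NoJ1J : Prop := ∀ (U : Fin 6 → Set ℂ) (T : ℂ → Set (Fin 6)), NW U T → OnlyJT T → Sec4 T →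
  NoJ1 T

/-- input: no comp centre with two `J`-partners, if every comp centre with a `J`-partner has
exactly two of them -/
def NoJ2J : Prop := ∀ (U : Fin 6 → Set ℂ) (T : ℂ → Set (Fin 6)), NW U T → OnlyJT T → Sec4 T →
  TwoJ T → NoJ2 T

/-- **the block `NoCompJ`**, from the inputs -/
theorem noCompJ_of (HS : Sec4J) (H1 : NoJ1J) (H2 : NoJ2J) : NoCompJ := by
  intro U T h hmin h5 hT
  have W : NW U T := ⟨h, hmin, h5⟩
  have hS := HS U T W hT
  exact noComp_of_J h hS (hT.onlyJC h h5) (H1 U T W hT hS) (H2 U T W hT hS)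

end Vale.Agent.P032.H594
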