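import Vale.Agent.P032.H460.Inst11
import Vale.Agent.P032.H695.TwoSq3
import Vale.Agent.P032.H533.Two22
import Vale.Agent.P032.H471.Inst
import Vale.Agent.P032.H987.InstF
import Vale.Agent.P032.H987.Arcs

/-!
# P032: the numbers of the ends of a comp centre and the names of a `J`-partner

`cnt594` : complementary ends occur in the numbers `1, 2` or `2, 1`, if there is no (1,1)- and no
(2,2)-centre.
`nm594` : names such that a given `J`-partner is in the direction of the first zone line, the arc of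
the first pair after it.
`lab6_594` : its label is `6`.
-/

open Set Filter Topology Metric

noncomputable section

namespace Vale.Agent.P032.H594

open Vale.Agent.P032.Six Vale.Agent.P032.S5.H767 Vale.Agent.P032.S5.H122 Vale.Agent.P032.Sweep
  Vale.Agent.P032.S5.H349 Vale.Agent.P032.S5.H450 Vale.Agent.P032.H471 Vale.Agent.P032.H533
  Vale.Agent.P032.Net.H672
open Vale.Agent.P032.H987 (Cz CzE CzF Zn lb lbF czE_of zn_of bef_of ev_Ioo)

variable {U : Fin 6 → Set ℂ} {T : ℂ → Set (Fin 6)} {z v q : ℂ} {a b c d e f : Fin 6}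
  {p r φ : ℝ}

/-! ### Numbers -/

/-- no three points with the palette of an end -/
theorem le_two594 (h : Irr U T) (hS : Sec4 T) (hv : EE T z v) (hq : EE T z q)
    (hc : T q = (T v)ᶜ) {y1 y2 y3 : ℂ} (h1 : dist y1 z = 1) (h2 : dist y2 z = 1)
    (h3 : dist y3 z = 1) (t1 : T y1 = T v) (t2 : T y2 = T v) (t3 : T y3 = T v) :
    y1 = y2 ∨ y1 = y3 ∨ y2 = y3 := by
  have key : ∀ {y}, dist y z = 1 → T y = T v → Full T (EE T) (y + q - z) q ∧ z ≠ y + q - z := by
    intro y hy ht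
    have he := auto471 h hS hv hq hc hy ht
    have hc' : T q = (T y)ᶜ := by rw [ht]; exact hc
    refine ⟨⟨rh471' h hS he hq hc', y, rh471 h hS he hq hc', by rw [hc, ht, compl_compl]⟩,
      fun h5 => he.anti h hq hc' (by linear_combination -h5)⟩
  have f0 : Full T (EE T) z q := ⟨hq, v, hv, by rw [hc, compl_compl]⟩
  obtain ⟨f1, n1⟩ := key h1 t1
  obtain ⟨f2, n2⟩ := key h2 t2
  obtain ⟨f3, n3⟩ := key h3 t3
  rcases three471 h f0 f1 f2 f3 with k | k | k | k | k | k
  · exact absurd k n1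
  · exact absurd k n2
  · exact absurd k n3
  · exact Or.inl (by linear_combination k)
  · exact Or.inr (Or.inl (by linear_combination k))
  · exact Or.inr (Or.inr (by linear_combination k))

/-- one or two points -/
theorem one_two594 (h : Irr U T) (hS : Sec4 T) (hv : EE T z v) (hq : EE T z q)
    (hc : T q = (T v)ᶜ) : {y | dist y z = 1 ∧ T y = T v} = {v} ∨
      ∃ v', v ≠ v' ∧ EE T z v' ∧ T v' = T v ∧ {y | dist y z = 1 ∧ T y = T v} = {v, v'} := by
  by_cases hx : ∃ v', v ≠ v' ∧ dist v' z = 1 ∧ T v' = T v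
  · obtain ⟨v', hne, hd, ht⟩ := hx
    refine Or.inr ⟨v', hne, auto471 h hS hv hq hc hd ht, ht, ?_⟩
    ext y
    constructor
    · rintro ⟨hy, hyt⟩
      rcases le_two594 h hS hv hq hc hv.dist hd hy rfl ht hyt with k | k | k
      · exact absurd k hne
      · exact Or.inl k.symm
      · exact Or.inr k.symm
    · rintro (rfl | rfl)
      · exact ⟨hv.dist, rfl⟩
      · exact ⟨hd, ht⟩
  · left
    push Not at hx
    ext y
    constructor
    · rintro ⟨hy, hyt⟩
      by_contra hne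
      exact hx y (fun k => hne k.symm) hy hyt
    · rintro rfl
      exact ⟨hv.dist, rfl⟩

/-- **the numbers of complementary ends are `1, 2` or `2, 1`** -/
theorem cnt594 (h : Irr U T) (hS : Sec4 T) (h11 : ∀ w v q, ¬ Is11 T w v q)
    (h22 : ∀ z v v' q q', ¬ Is22 T z v v' q q') (hv : EE T z v) (hq : EE T z q)
    (hc : T q = (T v)ᶜ) :
    ({y | dist y z = 1 ∧ T y = T v}.ncard = 1 ∧ {y | dist y z = 1 ∧ T y = T q}.ncard = 2) ∨
      ({y | dist y z = 1 ∧ T y = T v}.ncard = 2 ∧ {y | dist y z = 1 ∧ T y = T q}.ncard = 1) := by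
  have hc' : T v = (T q)ᶜ := by rw [hc, compl_compl]
  rcases one_two594 h hS hv hq hc with k1 | ⟨v', n1, e1, t1, k1⟩ <;>
    rcases one_two594 h hS hq hv hc' with k2 | ⟨q', n2, e2, t2, k2⟩
  · exfalso
    refine h11 z v q ⟨hv, hq, hc, fun x hx ht => ?_, fun x hx ht => ?_⟩
    · have : x ∈ {y | dist y z = 1 ∧ T y = T v} := ⟨hx, ht⟩
      rw [k1] at this
      exact this
    · have : x ∈ {y | dist y z = 1 ∧ T y = T q} := ⟨hx, ht⟩
      rw [k2] at this
      exact this
  · left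
    rw [k1, k2, Set.ncard_singleton, Set.ncard_pair n2]
    exact ⟨rfl, rfl⟩
  · right
    rw [k1, k2, Set.ncard_singleton, Set.ncard_pair n1]
    exact ⟨rfl, rfl⟩
  · exact absurd ⟨hv, e1, hq, e2, t1, t2, hc, n1, n2⟩ (h22 z v v' q q')

/-! ### Zones -/

theorem zn_shift594 (Z : Zn T z a b c d p r) (n : ℤ) : Zn T z a b c d (p + 3 * n) (r + 3 * n) := by
  refine ⟨by linarith [Z.lt], by linarith [Z.lt'], fun u hu => ?_, fun u hu => ?_⟩
  · obtain ⟨m, h1, h2⟩ := Z.zA u hu
    exact ⟨m + n, by push_cast; linarith, by push_cast; linarith⟩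
  · obtain ⟨m, h1, h2⟩ := Z.zC u hu
    exact ⟨m + n, by push_cast; linarith, by push_cast; linarith⟩

theorem zn_swap594 (Z : Zn T z a b c d p r) : Zn T z c d a b r (p + 3) := by
  refine ⟨Z.lt', by linarith [Z.lt], fun u hu => ?_, fun u hu => ?_⟩
  · obtain ⟨m, h1, h2⟩ := Z.zC u hu
    exact ⟨m, h1, h2⟩
  · obtain ⟨m, h1, h2⟩ := Z.zA u hu
    exact ⟨m + 1, by push_cast; linarith, by push_cast; linarith⟩

/-- before the first zone line there is no arc of the first pair -/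
theorem lab6_594 (h : Irr U T) (hD : DPt T z a b c d) (Z : Zn T z a b c d φ r) :
    ¬ ∀ᶠ t in 𝓝[>] (0 : ℝ), T (hb z (pt z φ) (-1) t) = {a, b} := by
  intro h5
  obtain ⟨α, hα, k⟩ := bef_of (P := fun y => T y = {a, b}) (z := z) (u := φ)
    (by have := ev_Ioo h5; simpa only [hb, neg_one_mul] using this)
  have h6 := Z.lt'
  obtain ⟨w, hw1, hw2⟩ := exists_between (show max α (r - 3) < φ from max_lt hα (by linarith))
  have hw3 := k w ⟨lt_of_le_of_lt (le_max_left _ _) hw1, hw2⟩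
  have hw4 : r - 3 < w := lt_of_le_of_lt (le_max_right _ _) hw1
  obtain ⟨n, h7, h8⟩ := Z.zA w (subset_closure (H695.ex_pair h hD (dist_pt z w) hw3))
  have h9 : (0 : ℝ) < n := by linarith
  have h10 : (n : ℝ) < 1 := by linarith
  have h11 : (0 : ℤ) < n := by exact_mod_cast h9
  have h12 : n < (1 : ℤ) := by exact_mod_cast h10
  omega

theorem lbF6_594 {g1 g2 : Bool} (h : Irr U T) (hD : DPt T z a b c d) (Z : Zn T z a b c d φ r)
    (hJ : T (pt z φ) = T z) : lbF g1 g2 T z a b c d e f (pt z φ) = 6 := by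
  unfold lbF
  rw [if_pos hJ, if_neg (lab6_594 h hD Z)]

/-- **names with the `J`-partner on the first zone line** -/
theorem nm594 (h : Irr U T) (w0 : ∀ y, dist y z = 1 → (T y).ncard ≤ 3 ∨ T y = T z)
    (h5 : ∀ x y, dist x y = 1 → 5 ≤ (T x).ncard → 4 ≤ (T y).ncard → False)
    (ev : EE T z v) (eq : EE T z q) (hc : T q = (T v)ᶜ) (hJ : T (pt z φ) = T z) :
    ∃ a b c d e f r v' q', CzE U T z a b c d e f ∧ Zn T z a b c d φ r ∧
      {y | dist y z = 1 ∧ lb T z a b c d e f y ≠ 0}.Finite ∧ EE T z v' ∧ EE T z q' ∧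
      T v' = {a, b, e} ∧ T q' = {c, d, f} ∧ T q' = (T v')ᶜ := by
  obtain ⟨a, b, c, d, e, f, p, p', r, r', P, Z, S, hfin, Tv, Tq⟩ := H460.inst460 h w0 h5 ev eq hc
  have hD := P.dpt
  -- the partner is in both closures
  obtain ⟨τ, hτ, g1, g2⟩ := h.j_sides hD (dist_pt z φ) hJ
  have c1 : pt z φ ∈ closure (Ex T z {a, b}) := H695.cl_branch h hD (dist_pt z φ) g1
  have c2 : pt z φ ∈ closure (Ex T z {c, d}) := by
    have := H695.cl_branch h hD.swap (dist_pt z φ) g2
    exact this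
  obtain ⟨n, n1, n2⟩ := P.A φ c1
  obtain ⟨m, m1, m2⟩ := P.C φ c2
  have pq := P.pq
  have qp := P.qp
  have i1 : (n : ℝ) ≤ m := by linarith
  have i2 : (m : ℝ) ≤ n + 1 := by linarith
  have i3 : n ≤ m := by exact_mod_cast i1
  have i4 : m ≤ n + 1 := by exact_mod_cast i2
  rcases (show m = n ∨ m = n + 1 by omega) with rfl | rfl
  · -- the second zone line
    have e1 : r + 3 * ((-m : ℤ) : ℝ) = φ := by push_cast; linarith
    have Z' := zn_shift594 (zn_swap594 Z) (-m)
    rw [e1] at Z'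
    refine ⟨c, d, a, b, f, e, _, q, v, S.swap460, Z', ?_, eq, ev, Tq, Tv, by rw [hc, compl_compl]⟩
    refine hfin.subset ?_
    rintro y ⟨hy, hl⟩
    refine ⟨hy, fun h0 => hl ?_⟩
    rw [H460.lb_swap460 S hy, h0]
    rfl
  · -- the first zone line
    have e1 : p + 3 * ((-n : ℤ) : ℝ) = φ := by push_cast at m1 m2 ⊢; linarith
    have Z' := zn_shift594 Z (-n)
    rw [e1] at Z'
    exact ⟨a, b, c, d, e, f, _, v, q, S, Z', hfin, ev, eq, Tv, Tq, hc⟩

end Vale.Agent.P032.H594
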