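import Vale.Agent.P032.H594.CntA
import Vale.Agent.P032.H594.CntB
import Vale.Agent.P032.H594.NCTop

/-!
# P032: the centres with complementary ends and a `J`-partner, names and numbers of the ends

`cntJ2_594` : two `J`-partners: for each of them there are names with all ends labelled, `1, 1, 2, 2`
or `2, 2, 1, 1` of them, and the partner on the first zone line (label `6`).
`cntJ1_594` : exactly one `J`-partner: all ends labelled and `1, 2, 1, 2` of them, or only one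
network (`1, 2` without `{a, b, f}`, or `2, 1` without `{c, d, e}`).
-/

open Set Filter Topology Metric

noncomputable section

namespace Vale.Agent.P032.H594

open Vale.Agent.P032.Six Vale.Agent.P032.S5.H767 Vale.Agent.P032.S5.H122 Vale.Agent.P032.Sweep
  Vale.Agent.P032.S5.H349 Vale.Agent.P032.S5.H450 Vale.Agent.P032.H471 Vale.Agent.P032.H533
  Vale.Agent.P032.Net.H672
open Vale.Agent.P032.H987 (Cz CzE CzF Zn lb lbF czE_of finite_lbF compl987)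
open Vale.Agent.P032.H546 (Cnt)

variable {U : Fin 6 → Set ℂ} {T : ℂ → Set (Fin 6)} {z v q : ℂ} {a b c d e f g : Fin 6}
  {p r φ : ℝ}

/-- all points with the palette of an end are in the closure of the exact arcs -/
theorem cl_set594 (h : Irr U T) (hS : Sec4 T) (hD : DPt T z a b c d) (hg : g ∉ T z)
    (hv : EE T z v) (hq : EE T z q) (hc : T q = (T v)ᶜ) (Tv : T v = {a, b, g}) :
    {y | dist y z = 1 ∧ T y = {a, b, g} ∧ y ∈ closure (Ex T z {a, b})} =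
      {y | dist y z = 1 ∧ T y = T v} := by
  ext y
  constructor
  · rintro ⟨hy, hT, -⟩
    exact ⟨hy, hT.trans Tv.symm⟩
  · rintro ⟨hy, hT⟩
    have hT' : T y = {a, b, g} := hT.trans Tv
    exact ⟨hy, hT', H695.cl_ee h hD (auto471 h hS hv hq hc hy hT) (H695.inter_arc hD hg hT')⟩

theorem free594 (S : Cz U T z a b c d e f) : e ∉ T z ∧ f ∉ T z := by
  obtain ⟨⟨ab, ac, ad, ae, af⟩, ⟨bc, bd, be, bf⟩, ⟨cd, ce, cf⟩, ⟨de, df⟩, ef⟩ :=
    S5.H349.nd_ne S.nd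
  rw [S.dpt.pal]
  simp only [mem_insert_iff, mem_singleton_iff, not_or]
  exact ⟨⟨ae.symm, be.symm, ce.symm, de.symm⟩, ⟨af.symm, bf.symm, cf.symm, df.symm⟩⟩

/-- the numbers of one network -/
theorem nw594 (h : Irr U T) (hS : Sec4 T) (h11 : ∀ w v q, ¬ Is11 T w v q)
    (h22 : ∀ z v v' q q', ¬ Is22 T z v v' q q') (S : Cz U T z a b c d e f) (hv : EE T z v)
    (hq : EE T z q) (hc : T q = (T v)ᶜ) (Tv : T v = {a, b, e}) (Tq : T q = {c, d, f}) :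
    ∃ n m : ℕ, ((n = 1 ∧ m = 2) ∨ (n = 2 ∧ m = 1)) ∧
      {y | dist y z = 1 ∧ T y = {a, b, e}}.ncard = n ∧
      {y | dist y z = 1 ∧ T y = {a, b, e} ∧ y ∈ closure (Ex T z {a, b})}.ncard = n ∧
      {y | dist y z = 1 ∧ T y = {c, d, f}}.ncard = m ∧
      {y | dist y z = 1 ∧ T y = {c, d, f} ∧ y ∈ closure (Ex T z {c, d})}.ncard = m := by
  obtain ⟨he, hf⟩ := free594 S
  rw [cl_set594 h hS S.dpt he hv hq hc Tv,
    cl_set594 h hS S.dpt.swap hf hq hv (by rw [hc, compl_compl]) Tq, ← Tv, ← Tq]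
  rcases cnt594 h hS h11 h22 hv hq hc with ⟨k1, k2⟩ | ⟨k1, k2⟩
  · exact ⟨1, 2, Or.inl ⟨rfl, rfl⟩, k1, k1, k2, k2⟩
  · exact ⟨2, 1, Or.inr ⟨rfl, rfl⟩, k1, k1, k2, k2⟩

/-- **the cases** -/
theorem cases594 (h : Irr U T) (hS : Sec4 T)
    (h5 : ∀ x y, dist x y = 1 → 5 ≤ (T x).ncard → 4 ≤ (T y).ncard → False)
    (h11 : ∀ w v q, ¬ Is11 T w v q) (h22 : ∀ z v v' q q', ¬ Is22 T z v v' q q')
    (S : CzE U T z a b c d e f)
    (hfin : {y | dist y z = 1 ∧ lb T z a b c d e f y ≠ 0}.Finite) (hv : EE T z v)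
    (hq : EE T z q) (hc : T q = (T v)ᶜ) (Tv : T v = {a, b, e}) (Tq : T q = {c, d, f}) {N : ℕ}
    (nJ : {y | dist y z = 1 ∧ T y = T z}.ncard = N) :
    ∃ n0 n3 : ℕ, ((n0 = 1 ∧ n3 = 2) ∨ (n0 = 2 ∧ n3 = 1)) ∧
      {y | dist y z = 1 ∧ T y = {a, b, e}}.ncard = n0 ∧
      {y | dist y z = 1 ∧ T y = {c, d, f}}.ncard = n3 ∧
      ((CzF true true U T z a b c d e f ∧
          {y | dist y z = 1 ∧ lbF true true T z a b c d e f y ≠ 0}.Finite ∧
          ∃ n1 n2 : ℕ, Cnt T z a b c d e f n0 n1 n2 n3 N ∧ ((n1 = 0 ∧ n2 = 0) ∨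
            (((n1 = 1 ∧ n2 = 2) ∨ (n1 = 2 ∧ n2 = 1)) ∧ CzF true true U T z a b c d f e ∧
              {y | dist y z = 1 ∧ lbF true true T z a b c d f e y ≠ 0}.Finite ∧
              Cnt T z a b c d f e n1 n0 n3 n2 N))) ∨
        (CzF true false U T z a b c d e f ∧
          {y | dist y z = 1 ∧ lbF true false T z a b c d e f y ≠ 0}.Finite ∧
          ∀ y, dist y z = 1 → T y ≠ {a, b, f}) ∨
        (CzF false true U T z a b c d e f ∧
          {y | dist y z = 1 ∧ lbF false true T z a b c d e f y ≠ 0}.Finite ∧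
          ∀ y, dist y z = 1 → T y ≠ {c, d, e})) := by
  obtain ⟨n0, n3, hn, k0, k0', k3, k3'⟩ := nw594 h hS h11 h22 S.toCz hv hq hc Tv Tq
  have z0 : n0 ≠ 0 ∧ n3 ≠ 0 := by
    rcases hn with ⟨h1, h2⟩ | ⟨h1, h2⟩
    · rw [h1, h2]; exact ⟨one_ne_zero, two_ne_zero⟩
    · rw [h1, h2]; exact ⟨two_ne_zero, one_ne_zero⟩
  refine ⟨n0, n3, hn, k0, k3, ?_⟩
  rcases S.full h5 hfin with ⟨F, fin, alt⟩ | k | k
  · left
    refine ⟨F, fin, ?_⟩
    rcases alt with ⟨v', q', hv', hq', Tv', Tq', hop, S', hfin'⟩ | hno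
    · have S0 : Cz U T z a b c d f e := S'.toCz
      have cX : ({a, b, f} : Set (Fin 6))ᶜ = {c, d, e} := compl987 S0
      obtain ⟨⟨ab, ac, ad, ae, af⟩, ⟨bc, bd, be, bf⟩, ⟨cd, ce, cf⟩, ⟨de, df⟩, ef⟩ :=
        S5.H349.nd_ne S.nd
      have N' : Nd T {a, b, f} z v' q' :=
        ⟨H987.ncard_three ab af bf, by rw [dist_comm]; exact hv', by rw [dist_comm]; exact hq',
          Tv', by rw [Tq', cX], hop⟩
      obtain ⟨e1, e2⟩ := ee_of_nd h hS N' S.four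
      have hc' : T q' = (T v')ᶜ := by rw [Tv', Tq', cX]
      obtain ⟨n1, n2, hm, m1, m1', m2, m2'⟩ := nw594 h hS h11 h22 S0 e1 e2 hc' Tv' Tq'
      have F' : CzF true true U T z a b c d f e :=
        ⟨S', fun _ y hy hT _ => S.cln y hy (Or.inl hT), fun _ y hy hT _ => S.cln y hy (Or.inr hT)⟩
      have C1 : Cnt T z a b c d e f n0 n1 n2 n3 N := ⟨k0, m1', m2', k3, nJ⟩
      have C2 : Cnt T z a b c d f e n1 n0 n3 n2 N := ⟨m1, k0', k3', m2, nJ⟩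
      have fin1 : {y | dist y z = 1 ∧ T y = {a, b, e}}.Finite :=
        Set.finite_of_ncard_ne_zero (by rw [k0]; exact z0.1)
      have fin2 : {y | dist y z = 1 ∧ T y = {c, d, f}}.Finite :=
        Set.finite_of_ncard_ne_zero (by rw [k3]; exact z0.2)
      have fin' : {y | dist y z = 1 ∧ lbF true true T z a b c d f e y ≠ 0}.Finite :=
        finite_lbF hfin' (fin1.subset fun y hy => ⟨hy.1, hy.2.2.1⟩)
          (fin2.subset fun y hy => ⟨hy.1, hy.2.2.1⟩)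
      exact ⟨n1, n2, C1, Or.inr ⟨hm, F', fin', C2⟩⟩
    · refine ⟨0, 0, ⟨k0, ?_, ?_, k3, nJ⟩, Or.inl ⟨rfl, rfl⟩⟩
      · rw [show {y | dist y z = 1 ∧ T y = {a, b, f} ∧ y ∈ closure (Ex T z {a, b})} = ∅ from
          Set.eq_empty_iff_forall_notMem.2 fun y hy => (hno y hy.1).1 hy.2.1 hy.2.2]
        exact Set.ncard_empty _
      · rw [show {y | dist y z = 1 ∧ T y = {c, d, e} ∧ y ∈ closure (Ex T z {c, d})} = ∅ from
          Set.eq_empty_iff_forall_notMem.2 fun y hy => (hno y hy.1).2 hy.2.1 hy.2.2]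
        exact Set.ncard_empty _
  · exact Or.inr (Or.inl k)
  · exact Or.inr (Or.inr k)

/-- the world -/
theorem w0_594 (h : Irr U T) (h5 : NoPair5 T) (hT : OnlyJT T) (hv : EE T z v) :
    ∀ y, dist y z = 1 → (T y).ncard ≤ 3 ∨ T y = T z := by
  obtain ⟨a, b, c, d, h1, h2⟩ := hv.names
  exact fun y hy => hT.w0 h5 ⟨a, b, c, d, hv.dpt h h1 h2⟩ hy

/-- **two `J`-partners** -/
theorem cntJ2_594 (h : Irr U T) (h5 : NoPair5 T) (hT : OnlyJT T) (hS : Sec4 T)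
    (h11 : ∀ w v q, ¬ Is11 T w v q) (h22 : ∀ z v v' q q', ¬ Is22 T z v v' q q')
    (hz : Comp T z) {y' : ℂ} (hJ : T (pt z φ) = T z) (hy' : dist y' z = 1) (hJ' : T y' = T z)
    (hne : pt z φ ≠ y') :
    ∃ a b c d e f r, CzF true true U T z a b c d e f ∧ Zn T z a b c d φ r ∧
      {y | dist y z = 1 ∧ lbF true true T z a b c d e f y ≠ 0}.Finite ∧
      (Cnt T z a b c d e f 1 1 2 2 2 ∨ Cnt T z a b c d e f 2 2 1 1 2) ∧
      lbF true true T z a b c d e f (pt z φ) = 6 := by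
  obtain ⟨v, q, ev, eq, hc⟩ := hz
  have w0 := w0_594 h h5 hT ev
  obtain ⟨a, b, c, d, e, f, r, v', q', S, Z, hfin, ev', eq', Tv', Tq', hc'⟩ :=
    nm594 h w0 (fun x y hd hx hy => h5 x y hd hx hy) ev eq hc hJ
  have hD := S.dpt
  have nJ : {y | dist y z = 1 ∧ T y = T z}.ncard = 2 := by
    have e1 : {y | dist y z = 1 ∧ T y = T z} = {pt z φ, y'} := by
      ext y
      constructor
      · rintro ⟨hy, hTy⟩
        by_contra hcon
        simp only [mem_insert_iff, mem_singleton_iff, not_or] at hcon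
        exact h.no_three_J hD (dist_pt z φ) hy' hy hJ hJ' hTy hne (Ne.symm hcon.1)
          (Ne.symm hcon.2)
      · rintro (rfl | rfl)
        · exact ⟨dist_pt z φ, hJ⟩
        · exact ⟨hy', hJ'⟩
    rw [e1, Set.ncard_pair hne]
  have l6 : ∀ g1 g2 : Bool, lbF g1 g2 T z a b c d e f (pt z φ) = 6 := fun g1 g2 =>
    lbF6_594 h hD Z hJ
  obtain ⟨n0, n3, hn, k0, k3, ⟨F, fin, n1, n2, C, hm⟩ | ⟨F, fin, hno⟩ | ⟨F, fin, hno⟩⟩ :=
    cases594 h hS (fun x y hd hx hy => h5 x y hd hx hy) h11 h22 S hfin ev' eq' hc' Tv' Tq' nJ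
  · rcases hn with ⟨rfl, rfl⟩ | ⟨rfl, rfl⟩
    · rcases hm with ⟨rfl, rfl⟩ | ⟨⟨rfl, rfl⟩ | ⟨rfl, rfl⟩, -⟩
      · exact (no_F594 sysF00aJ2 (fun _ => rfl) F Z fin C (l6 _ _)).elim
      · exact ⟨a, b, c, d, e, f, r, F, Z, fin, Or.inl C, l6 _ _⟩
      · exact (no_F594 sysF12J2 (fun _ => rfl) F Z fin C (l6 _ _)).elim
    · rcases hm with ⟨rfl, rfl⟩ | ⟨⟨rfl, rfl⟩ | ⟨rfl, rfl⟩, -⟩
      · exact (no_F594 sysF00bJ2 (fun _ => rfl) F Z fin C (l6 _ _)).elim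
      · exact (no_F594 sysF21J2 (fun _ => rfl) F Z fin C (l6 _ _)).elim
      · exact ⟨a, b, c, d, e, f, r, F, Z, fin, Or.inr C, l6 _ _⟩
  · rcases hn with ⟨rfl, rfl⟩ | ⟨rfl, rfl⟩
    · exact (no_S594 sysS12J2 (fun _ => rfl) F Z fin k0 k3 nJ rfl rfl hno (l6 _ _)).elim
    · exact (no_S594 sysS21J2 (fun _ => rfl) F Z fin k0 k3 nJ rfl rfl hno (l6 _ _)).elim
  · rcases hn with ⟨rfl, rfl⟩ | ⟨rfl, rfl⟩
    · exact (no_R594 sysR12J2 (fun _ => rfl) F Z fin k0 k3 nJ rfl rfl hno (l6 _ _)).elim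
    · exact (no_R594 sysR21J2 (fun _ => rfl) F Z fin k0 k3 nJ rfl rfl hno (l6 _ _)).elim

/-- **exactly one `J`-partner**, with the ends -/
theorem cntJ1E_594 (h : Irr U T) (h5 : NoPair5 T) (hT : OnlyJT T) (hS : Sec4 T)
    (h11 : ∀ w v q, ¬ Is11 T w v q) (h22 : ∀ z v v' q q', ¬ Is22 T z v v' q q')
    (hz : Comp T z) (hJ : T (pt z φ) = T z)
    (huniq : ∀ y', dist y' z = 1 → T y' = T z → y' = pt z φ) :
    ∃ a b c d e f r v q, Zn T z a b c d φ r ∧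
      {y | dist y z = 1 ∧ T y = T z}.ncard = 1 ∧
      (∀ g1 g2 : Bool, lbF g1 g2 T z a b c d e f (pt z φ) = 6) ∧
      ((CzF true true U T z a b c d e f ∧
          {y | dist y z = 1 ∧ lbF true true T z a b c d e f y ≠ 0}.Finite ∧
          Cnt T z a b c d e f 1 2 1 2 1) ∨
        ((EE T z v ∧ EE T z q ∧ T v = {a, b, e} ∧ T q = {c, d, f} ∧ T q = (T v)ᶜ) ∧
          CzF true false U T z a b c d e f ∧
          {y | dist y z = 1 ∧ lbF true false T z a b c d e f y ≠ 0}.Finite ∧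
          {y | dist y z = 1 ∧ T y = {a, b, e}}.ncard = 1 ∧
          {y | dist y z = 1 ∧ T y = {c, d, f}}.ncard = 2 ∧
          ∀ y, dist y z = 1 → T y ≠ {a, b, f}) ∨
        ((EE T z v ∧ EE T z q ∧ T v = {a, b, e} ∧ T q = {c, d, f} ∧ T q = (T v)ᶜ) ∧
          CzF false true U T z a b c d e f ∧
          {y | dist y z = 1 ∧ lbF false true T z a b c d e f y ≠ 0}.Finite ∧
          {y | dist y z = 1 ∧ T y = {a, b, e}}.ncard = 2 ∧
          {y | dist y z = 1 ∧ T y = {c, d, f}}.ncard = 1 ∧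
          ∀ y, dist y z = 1 → T y ≠ {c, d, e})) := by
  obtain ⟨v, q, ev, eq, hc⟩ := hz
  have w0 := w0_594 h h5 hT ev
  obtain ⟨a, b, c, d, e, f, r, v', q', S, Z, hfin, ev', eq', Tv', Tq', hc'⟩ :=
    nm594 h w0 (fun x y hd hx hy => h5 x y hd hx hy) ev eq hc hJ
  have hD := S.dpt
  have nJ : {y | dist y z = 1 ∧ T y = T z}.ncard = 1 := by
    have e1 : {y | dist y z = 1 ∧ T y = T z} = {pt z φ} := by
      ext y
      constructor
      · rintro ⟨hy, hTy⟩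
        exact huniq y hy hTy
      · rintro rfl
        exact ⟨dist_pt z φ, hJ⟩
    rw [e1, Set.ncard_singleton]
  have l6 : ∀ g1 g2 : Bool, lbF g1 g2 T z a b c d e f (pt z φ) = 6 := fun g1 g2 =>
    lbF6_594 h hD Z hJ
  obtain ⟨n0, n3, hn, k0, k3, ⟨F, fin, n1, n2, C, hm⟩ | ⟨F, fin, hno⟩ | ⟨F, fin, hno⟩⟩ :=
    cases594 h hS (fun x y hd hx hy => h5 x y hd hx hy) h11 h22 S hfin ev' eq' hc' Tv' Tq' nJ
  · rcases hn with ⟨rfl, rfl⟩ | ⟨rfl, rfl⟩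
    · rcases hm with ⟨rfl, rfl⟩ | ⟨⟨rfl, rfl⟩ | ⟨rfl, rfl⟩, -⟩
      · exact (no_F594 sysF00aJ1 (fun _ => rfl) F Z fin C (l6 _ _)).elim
      · exact (no_F594 sysF1122J1 (fun _ => rfl) F Z fin C (l6 _ _)).elim
      · exact ⟨a, b, c, d, e, f, r, v', q', Z, nJ, l6, Or.inl ⟨F, fin, C⟩⟩
    · rcases hm with ⟨rfl, rfl⟩ | ⟨⟨rfl, rfl⟩ | ⟨rfl, rfl⟩, F', fin', C'⟩
      · exact (no_F594 sysF00bJ1 (fun _ => rfl) F Z fin C (l6 _ _)).elim
      · exact ⟨a, b, c, d, f, e, r, v', q', Z, nJ, fun g1 g2 => lbF6_594 h hD Z hJ,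
          Or.inl ⟨F', fin', C'⟩⟩
      · exact (no_F594 sysF2211J1 (fun _ => rfl) F Z fin C (l6 _ _)).elim
  · rcases hn with ⟨rfl, rfl⟩ | ⟨rfl, rfl⟩
    · exact ⟨a, b, c, d, e, f, r, v', q', Z, nJ, l6,
        Or.inr (Or.inl ⟨⟨ev', eq', Tv', Tq', hc'⟩, F, fin, k0, k3, hno⟩)⟩
    · exact (no_S594 sysS21J1 (fun _ => rfl) F Z fin k0 k3 nJ rfl rfl hno (l6 _ _)).elim
  · rcases hn with ⟨rfl, rfl⟩ | ⟨rfl, rfl⟩
    · exact (no_R594 sysR12J1 (fun _ => rfl) F Z fin k0 k3 nJ rfl rfl hno (l6 _ _)).elim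
    · exact ⟨a, b, c, d, e, f, r, v', q', Z, nJ, l6,
        Or.inr (Or.inr ⟨⟨ev', eq', Tv', Tq', hc'⟩, F, fin, k0, k3, hno⟩)⟩

/-- **exactly one `J`-partner** -/
theorem cntJ1_594 (h : Irr U T) (h5 : NoPair5 T) (hT : OnlyJT T) (hS : Sec4 T)
    (h11 : ∀ w v q, ¬ Is11 T w v q) (h22 : ∀ z v v' q q', ¬ Is22 T z v v' q q')
    (hz : Comp T z) (hJ : T (pt z φ) = T z)
    (huniq : ∀ y', dist y' z = 1 → T y' = T z → y' = pt z φ) :
    ∃ a b c d e f r, Zn T z a b c d φ r ∧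
      {y | dist y z = 1 ∧ T y = T z}.ncard = 1 ∧
      (∀ g1 g2 : Bool, lbF g1 g2 T z a b c d e f (pt z φ) = 6) ∧
      ((CzF true true U T z a b c d e f ∧
          {y | dist y z = 1 ∧ lbF true true T z a b c d e f y ≠ 0}.Finite ∧
          Cnt T z a b c d e f 1 2 1 2 1) ∨
        (CzF true false U T z a b c d e f ∧
          {y | dist y z = 1 ∧ lbF true false T z a b c d e f y ≠ 0}.Finite ∧
          {y | dist y z = 1 ∧ T y = {a, b, e}}.ncard = 1 ∧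
          {y | dist y z = 1 ∧ T y = {c, d, f}}.ncard = 2 ∧
          ∀ y, dist y z = 1 → T y ≠ {a, b, f}) ∨
        (CzF false true U T z a b c d e f ∧
          {y | dist y z = 1 ∧ lbF false true T z a b c d e f y ≠ 0}.Finite ∧
          {y | dist y z = 1 ∧ T y = {a, b, e}}.ncard = 2 ∧
          {y | dist y z = 1 ∧ T y = {c, d, f}}.ncard = 1 ∧
          ∀ y, dist y z = 1 → T y ≠ {c, d, e})) := by
  obtain ⟨a, b, c, d, e, f, r, v, q, Z, nJ, l6, k | ⟨-, k⟩ | ⟨-, k⟩⟩ :=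
    cntJ1E_594 h h5 hT hS h11 h22 hz hJ huniq
  · exact ⟨a, b, c, d, e, f, r, Z, nJ, l6, Or.inl k⟩
  · exact ⟨a, b, c, d, e, f, r, Z, nJ, l6, Or.inr (Or.inl k)⟩
  · exact ⟨a, b, c, d, e, f, r, Z, nJ, l6, Or.inr (Or.inr k)⟩

end Vale.Agent.P032.H594
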