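import Vale.Agent.P032.H987.Exc

/-!
# P032: one circle in the mode `e`, the frame with prescribed columns (helper594)

`Wk k cl l h h'` : walk through the events `l` (flags, column before, column after) in the zone phase
`k`, with the same class between consecutive events.

* `phase594` : prescribed limit columns `G u` (left) and `G' u` (right) at all flagged times;
* `zturn594` : the full turn with the zone time `s`;
* `Tab594 cl Gd` : the finite tables (classes and closed walks with at most two flags);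
* `exc594` : from the tables: exactly two points of order at least four, and `Gd` for all pairs of
  limit columns at their times;
* `exc_list594` : the letters on both sides of the points of order at least four.
-/

open Set Filter Topology Metric

noncomputable section

namespace Vale.Agent.P032.H594

open Vale.Agent.P032.Six Vale.Agent.P032.S5.H767 Vale.Agent.P032.S5.H122 Vale.Agent.P032.Sweep
open Vale.Agent.P032.H987

variable {U : Fin 6 → Set ℂ} {T : ℂ → Set (Fin 6)} {z : ℂ} {a b c d e f : Fin 6} {p q : ℝ}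

/-- flags, column before, column after -/
abbrev EvtM := (Fin 6 → Bool) × (Fin 6 → Fin 4) × (Fin 6 → Fin 4)

/-- walk through the events `l`, between them the same class in the phase `k` -/
def Wk {σ : Type} (k : ℕ) (cl : (Fin 6 → Fin 4) → σ) :
    List EvtM → (Fin 6 → Fin 4) → (Fin 6 → Fin 4) → Prop
  | [], h, h' => Zok k h ∧ Zok k h' ∧ cl h = cl h'
  | E :: l, h, h' => (Zok k h ∧ Zok k E.2.1 ∧ cl h = cl E.2.1) ∧ EvM E.1 E.2.1 E.2.2 ∧
      Wk k cl l E.2.2 h'

/-- number of flags -/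
def cnf594 (x : Fin 6 → Bool) : ℕ := (Finset.univ.filter fun j => x j = true).card

/-- number of flags of a list of events -/
def cnts594 (l : List EvtM) : ℕ := (l.map fun E => cnf594 E.1).sum

/-- the event of a time with prescribed limit columns -/
def evt (T : ℂ → Set (Fin 6)) (z : ℂ) (p : ℝ) (G G' : ℝ → Unit × Fin 6 → Fin 4) (u : ℝ) : EvtM :=
  (CzM.fl T z p u, (fun j => G u ((), j)), (fun j => G' u ((), j)))

/-- **one phase with prescribed columns** -/
theorem phase594 (S : CzM U T z a b c d e f) (Z : Zn T z a b c d p q) {σ : Type} {k : ℕ}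
    {cl : (Fin 6 → Fin 4) → σ}
    (hcl : ∀ h h', Zok k h → Zok k h' → EvM (fun _ => false) h h' → cl h = cl h')
    {G G' : ℝ → Unit × Fin 6 → Fin 4} (hG : ∀ u, G u ∈ LC (XX T z a b e f p) u)
    (hG' : ∀ u, G' u ∈ RC (XX T z a b e f p) u) {β : ℝ} :
    ∀ (l : List ℝ) (α : ℝ), α < β → l.Pairwise (· < ·) →
    (∀ u, u ∈ l ↔ u ∈ Ioo α β ∧ ∃ j, CzM.fl T z p u j = true) →
    (∀ v ∈ Ioo α β, Ph (q - p) k v) →
    ∀ h ∈ RC (XX T z a b e f p) α, ∀ h' ∈ LC (XX T z a b e f p) β,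
    Wk k cl (l.map (evt T z p G G')) (fun j => h ((), j)) (fun j => h' ((), j)) := by
  have w := S.sw p
  have sweep1 : ∀ (α γ : ℝ), α < γ → (∀ v ∈ Ioo α γ, Ph (q - p) k v) →
      (∀ u ∈ Ioo α γ, ∀ j, CzM.fl T z p u j = false) →
      ∀ h ∈ RC (XX T z a b e f p) α, ∀ h' ∈ LC (XX T z a b e f p) γ,
      Zok k (fun j => h ((), j)) ∧ Zok k (fun j => h' ((), j)) ∧
        cl (fun j => h ((), j)) = cl (fun j => h' ((), j)) := by
    intro α γ hαγ hp hfl
    refine w.sweep (R := fun g g' => Zok k (fun j => g ((), j)) ∧ Zok k (fun j => g' ((), j)) ∧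
        cl (fun j => g ((), j)) = cl (fun j => g' ((), j)))
      (fun _ _ _ h1 h2 => ⟨h1.1, h2.2.1, h1.2.2.trans h2.2.2⟩) hαγ ?_
    intro u hu h hh h' hh'
    have hz : ∀ g ∈ LC (XX T z a b e f p) u ∪ RC (XX T z a b e f p) u,
        Zok k (fun j => g ((), j)) := by
      rintro g (hg | hg)
      · exact CzM.zok_LC Z S hu.1 (fun v hv => hp v ⟨hv.1, hv.2.trans hu.2⟩) hg
      · exact CzM.zok_RC Z S hu.2 (fun v hv => hp v ⟨hu.1.trans hv.1, hv.2⟩) hg
    have h2 := S.ev hh hh'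
    have h3 : CzM.fl T z p u = fun _ => false := by
      funext j; exact hfl u hu j
    rw [h3] at h2
    exact ⟨hz _ hh, hz _ hh', hcl _ _ (hz _ hh) (hz _ hh') h2⟩
  intro l
  induction l with
  | nil =>
    intro α hαβ _ hmem hp h hh h' hh'
    exact sweep1 α β hαβ hp (fun u hu j => by
      by_contra hne
      rw [Bool.not_eq_false] at hne
      exact absurd ((hmem u).2 ⟨hu, j, hne⟩) List.not_mem_nil) h hh h' hh'
  | cons s l ih =>
    intro α hαβ hs hmem hp h hh h' hh'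
    have hs2 := List.pairwise_cons.1 hs
    have hsI := ((hmem s).1 List.mem_cons_self).1
    refine ⟨sweep1 α s hsI.1 (fun v hv => hp v ⟨hv.1, hv.2.trans hsI.2⟩) (fun u hu j => ?_) h hh
      (G s) (hG s), S.ev (Or.inl (hG s)) (Or.inr (hG' s)), ?_⟩
    · by_contra hne
      rw [Bool.not_eq_false] at hne
      have h5 := (hmem u).2 ⟨⟨hu.1, hu.2.trans hsI.2⟩, j, hne⟩
      rcases List.mem_cons.1 h5 with h6 | h6
      · exact absurd hu.2 (by rw [h6]; exact lt_irrefl _)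
      · exact absurd (hs2.1 u h6) (not_lt.2 hu.2.le)
    · refine ih s hsI.2 hs2.2 (fun u => ?_) (fun v hv => hp v ⟨hsI.1.trans hv.1, hv.2⟩) (G' s)
        (hG' s) h' hh'
      constructor
      · intro hu
        have h7 := (hmem u).1 (List.mem_cons_of_mem _ hu)
        exact ⟨⟨hs2.1 u hu, h7.1.2⟩, h7.2⟩
      · rintro ⟨hu, hj⟩
        rcases List.mem_cons.1 ((hmem u).2 ⟨⟨hsI.1.trans hu.1, hu.2⟩, hj⟩) with h6 | h6
        · exact absurd hu.1 (by rw [h6]; exact lt_irrefl _)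
        · exact h6

/-- the slots in one turn are different points -/
theorem qj_inj {u u' : ℝ} (hu : u ∈ Ico (0 : ℝ) 1) (hu' : u' ∈ Ico (0 : ℝ) 1) {j j' : Fin 6}
    (h : qj z p u j = qj z p u' j') : u = u' ∧ j = j' := by
  obtain ⟨n, hn⟩ := pt_eq_iff (show pt z (p + u + (j.val : ℝ)) = pt z (p + u' + (j'.val : ℝ)) from h)
  have hj := j.isLt
  have hj' := j'.isLt
  have e1 : u - u' = (((j'.val : ℤ) - (j.val : ℤ) + 6 * n : ℤ) : ℝ) := by
    push_cast; linarith
  have h1 : (((j'.val : ℤ) - (j.val : ℤ) + 6 * n : ℤ) : ℝ) < 1 := by rw [← e1]; linarith [hu.2, hu'.1]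
  have h2 : (-1 : ℝ) < (((j'.val : ℤ) - (j.val : ℤ) + 6 * n : ℤ) : ℝ) := by
    rw [← e1]; linarith [hu.1, hu'.2]
  have h1' : (j'.val : ℤ) - (j.val : ℤ) + 6 * n < 1 := by exact_mod_cast h1
  have h2' : -1 < (j'.val : ℤ) - (j.val : ℤ) + 6 * n := by exact_mod_cast h2
  have h3 : (j'.val : ℤ) - (j.val : ℤ) + 6 * n = 0 := by omega
  refine ⟨?_, Fin.ext (by omega)⟩
  rw [h3] at e1
  push_cast at e1
  linarith

/-- the flagged times are finite in number -/
theorem finite_fl (hfin : {y | dist y z = 1 ∧ 4 ≤ (T y).ncard}.Finite) (p : ℝ) :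
    {u | u ∈ Ico (0 : ℝ) 1 ∧ ∃ j, CzM.fl T z p u j = true}.Finite := by
  have h1 : {u | u ∈ Ico (0 : ℝ) 1 ∧ ∃ j, CzM.fl T z p u j = true} ⊆
      ⋃ j : Fin 6, ⋃ y ∈ {y | dist y z = 1 ∧ 4 ≤ (T y).ncard},
        {u | u ∈ Ico (0 : ℝ) 1 ∧ qj z p u j = y} := by
    rintro u ⟨hu, j, hj⟩
    exact mem_iUnion.2 ⟨j, mem_iUnion₂.2 ⟨qj z p u j, ⟨dist_qj z p u j, of_decide_eq_true hj⟩, hu,
      rfl⟩⟩
  refine Finite.subset (finite_iUnion fun j => hfin.biUnion fun y _ => ?_) h1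
  refine Set.Subsingleton.finite ?_
  rintro u ⟨hu, h1⟩ u' ⟨hu', h2⟩
  exact (qj_inj hu hu' (h1.trans h2.symm)).1

/-- **the flags are points of order at least four** -/
theorem cnt_le594 {F : Finset ℂ} (hF : ∀ y, dist y z = 1 → 4 ≤ (T y).ncard → y ∈ F) {p : ℝ}
    (L : List ℝ) (hnd : L.Nodup) (hI : ∀ u ∈ L, u ∈ Ico (0 : ℝ) 1) :
    (L.map fun u => cnf594 (CzM.fl T z p u)).sum ≤ F.card := by
  classical
  rw [← List.sum_toFinset _ hnd]
  unfold cnf594
  rw [← Finset.card_sigma]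
  refine Finset.card_le_card_of_injOn (fun x => qj z p x.1 x.2) ?_ ?_
  · rintro ⟨u, j⟩ hx
    have hx := (Finset.mem_sigma.1 hx).2
    simp only [Finset.mem_filter, Finset.mem_univ, true_and] at hx
    exact hF _ (dist_qj z p u j) (of_decide_eq_true hx)
  · rintro ⟨u, j⟩ hx ⟨u', j'⟩ hx' h
    have h1 := hI u (List.mem_toFinset.1 (Finset.mem_sigma.1 hx).1)
    have h2 := hI u' (List.mem_toFinset.1 (Finset.mem_sigma.1 hx').1)
    obtain ⟨rfl, rfl⟩ := qj_inj h1 h2 h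
    rfl

/-- the finite tables: classes `cl` constant under events without flags; closed walks with at most two
flags have exactly two flags, and all their events are good -/
structure Tab594 {σ : Type} (cl : ℕ → (Fin 6 → Fin 4) → σ)
    (Gd : (Fin 6 → Bool) → (Fin 6 → Fin 4) → (Fin 6 → Fin 4) → Prop) : Prop where
  free : ∀ k ≤ 3, ∀ h h', Zok k h → Zok k h' → EvM (fun _ => false) h h' → cl k h = cl k h'
  one : ∀ j0 : ℕ, 0 < j0 → j0 < 3 → ∀ x0 h h' l, EvM x0 h h' →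
    Wk j0 (cl j0) l h' (fun j => h (j + 1)) → cnf594 x0 + cnts594 l ≤ 2 →
    cnf594 x0 + cnts594 l = 2 ∧ Gd x0 h h' ∧ ∀ E ∈ l, Gd E.1 E.2.1 E.2.2
  two : ∀ j0 < 3, ∀ x0 h h' l g xs g' l', EvM x0 h h' → Wk (j0 + 1) (cl (j0 + 1)) l h' g →
    EvM xs g g' → Wk j0 (cl j0) l' g' (fun j => h (j + 1)) →
    cnf594 x0 + cnf594 xs + cnts594 l + cnts594 l' ≤ 2 →
    cnf594 x0 + cnf594 xs + cnts594 l + cnts594 l' = 2 ∧ Gd x0 h h' ∧ Gd xs g g' ∧
      (∀ E ∈ l, Gd E.1 E.2.1 E.2.2) ∧ ∀ E ∈ l', Gd E.1 E.2.1 E.2.2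

theorem cnts_map (G G' : ℝ → Unit × Fin 6 → Fin 4) (l : List ℝ) :
    cnts594 (l.map (evt T z p G G')) = (l.map fun u => cnf594 (CzM.fl T z p u)).sum := by
  unfold cnts594
  rw [List.map_map]
  rfl

/-- **the turn**: with prescribed columns -/
theorem turn594 {σ : Type} {cl : ℕ → (Fin 6 → Fin 4) → σ}
    {Gd : (Fin 6 → Bool) → (Fin 6 → Fin 4) → (Fin 6 → Fin 4) → Prop} (B : Tab594 cl Gd)
    (S : CzM U T z a b c d e f) (Z : Zn T z a b c d p q) {F : Finset ℂ}
    (hF : ∀ y, dist y z = 1 → 4 ≤ (T y).ncard → y ∈ F) (hF2 : F.card ≤ 2)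
    {G G' : ℝ → Unit × Fin 6 → Fin 4} (hG : ∀ u, G u ∈ LC (XX T z a b e f p) u)
    (hG' : ∀ u, G' u ∈ RC (XX T z a b e f p) u) :
    F.card = 2 ∧ ∀ u ∈ Ico (0 : ℝ) 1, (∃ j, CzM.fl T z p u j = true) →
      Gd (CzM.fl T z p u) (fun j => G u ((), j)) (fun j => G' u ((), j)) := by
  have w := S.sw p
  have hlt := Z.lt
  have hlt' := Z.lt'
  have hfin : {y | dist y z = 1 ∧ 4 ≤ (T y).ncard}.Finite :=
    F.finite_toSet.subset fun y hy => hF y hy.1 hy.2
  obtain ⟨j0, s, hj0, hs0, hs1, hq⟩ : ∃ (j0 : ℕ) (s : ℝ), j0 < 3 ∧ 0 ≤ s ∧ s < 1 ∧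
      q = p + j0 + s := by
    refine ⟨⌊q - p⌋₊, Int.fract (q - p), ?_, Int.fract_nonneg _, Int.fract_lt_one _, ?_⟩
    · rw [Nat.floor_lt (by linarith)]
      push_cast; linarith
    · have h1 := Int.floor_add_fract (q - p)
      have h2 : ((⌊q - p⌋₊ : ℕ) : ℝ) = ((⌊q - p⌋ : ℤ) : ℝ) := by
        rw [← natCast_floor_eq_intCast_floor (by linarith)]
      rw [h2]; linarith
  have hQ : q - p = j0 + s := by rw [hq]; ring
  -- the phases
  have ph2 : ∀ v ∈ Ioo s 1, Ph (q - p) j0 v := by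
    intro v hv
    refine ⟨lt_of_le_of_lt hs0 hv.1, hv.2, fun i _ h2 => ?_, fun i _ h2 => ?_⟩
    · have h3 : (i : ℝ) + 1 ≤ (j0 : ℝ) := by exact_mod_cast h2
      rw [hQ]; linarith [hv.2]
    · have h3 : (j0 : ℝ) ≤ (i : ℝ) := by exact_mod_cast h2
      rw [hQ]; linarith [hv.1]
  have ph1 : ∀ v ∈ Ioo 0 s, Ph (q - p) (j0 + 1) v := by
    intro v hv
    refine ⟨hv.1, hv.2.trans hs1, fun i _ h2 => ?_, fun i _ h2 => ?_⟩
    · have h3 : (i : ℝ) ≤ (j0 : ℝ) := by exact_mod_cast (by omega : i ≤ j0)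
      rw [hQ]; linarith [hv.2]
    · have h3 : (j0 : ℝ) + 1 ≤ (i : ℝ) := by exact_mod_cast h2
      rw [hQ]; linarith [hv.1]
  have hrot : G 0 ∘ rt Unit ∈ LC (XX T z a b e f p) 1 := by
    have := LC_shift (X := XX T z a b e f p) (σ := rt Unit) (fun s l u => Xl_per s l u) (hG 0)
    rwa [zero_add] at this
  -- sorted lists of flagged times
  have lst : ∀ α β : ℝ, 0 ≤ α → β ≤ 1 → ∃ l : List ℝ, l.Pairwise (· < ·) ∧
      ∀ u, u ∈ l ↔ u ∈ Ioo α β ∧ ∃ j, CzM.fl T z p u j = true := by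
    intro α β hα hβ
    have hf : {u | u ∈ Ioo α β ∧ ∃ j, CzM.fl T z p u j = true}.Finite :=
      (finite_fl hfin p).subset fun u hu =>
        ⟨⟨hα.trans hu.1.1.le, lt_of_lt_of_le hu.1.2 hβ⟩, hu.2⟩
    refine ⟨hf.toFinset.sort (· ≤ ·), (Finset.sortedLT_sort _).pairwise, fun u => ?_⟩
    rw [Finset.mem_sort, Set.Finite.mem_toFinset]
    exact Iff.rfl
  have hev : ∀ u, EvM (CzM.fl T z p u) (fun j => G u ((), j)) (fun j => G' u ((), j)) := fun u =>
    S.ev (Or.inl (hG u)) (Or.inr (hG' u))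
  rcases hs0.eq_or_lt with hs | hs
  · subst hs
    have hj : 0 < j0 := by
      rcases Nat.eq_zero_or_pos j0 with h0 | h0
      · subst h0; push_cast at hQ; linarith
      · exact h0
    obtain ⟨l, hl, hm⟩ := lst 0 1 le_rfl le_rfl
    have h3 := phase594 S Z (B.free j0 (by omega)) hG hG' l 0 one_pos hl hm ph2 (G' 0) (hG' 0) _ hrot
    have hnd : (0 :: l).Nodup := by
      refine List.nodup_cons.2 ⟨fun h => ?_, hl.imp fun h => ne_of_lt h⟩
      exact lt_irrefl _ ((hm 0).1 h).1.1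
    have hIc : ∀ u ∈ (0 : ℝ) :: l, u ∈ Ico (0 : ℝ) 1 := by
      intro u hu
      rcases List.mem_cons.1 hu with h | h
      · rw [h]; exact ⟨le_rfl, one_pos⟩
      · have := ((hm u).1 h).1; exact ⟨this.1.le, this.2⟩
    have hc := cnt_le594 (p := p) hF _ hnd hIc
    rw [List.map_cons, List.sum_cons] at hc
    have hsum : cnf594 (CzM.fl T z p 0) + cnts594 (l.map (evt T z p G G')) ≤ F.card := by
      rw [cnts_map]; exact hc
    obtain ⟨r1, r2, r3⟩ := B.one j0 hj hj0 _ _ _ _ (hev 0) h3 (hsum.trans hF2)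
    refine ⟨le_antisymm hF2 (r1 ▸ hsum), fun u hu hj => ?_⟩
    rcases hu.1.eq_or_lt with h0 | h0
    · rw [← h0]; exact r2
    · exact r3 _ (List.mem_map.2 ⟨u, (hm u).2 ⟨⟨h0, hu.2⟩, hj⟩, rfl⟩)
  · obtain ⟨l, hl, hm⟩ := lst 0 s le_rfl hs1.le
    obtain ⟨l', hl', hm'⟩ := lst s 1 hs0 le_rfl
    have h3 := phase594 S Z (B.free (j0 + 1) (by omega)) hG hG' l 0 hs hl hm ph1 (G' 0) (hG' 0)
      (G s) (hG s)
    have h3' := phase594 S Z (B.free j0 (by omega)) hG hG' l' s hs1 hl' hm' ph2 (G' s) (hG' s)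
      _ hrot
    have hnd : (0 :: (l ++ s :: l')).Nodup := by
      refine List.nodup_cons.2 ⟨fun h => ?_, ?_⟩
      · rcases List.mem_append.1 h with h | h
        · exact lt_irrefl _ ((hm 0).1 h).1.1
        · rcases List.mem_cons.1 h with h | h
          · exact absurd hs (by rw [← h]; exact lt_irrefl _)
          · exact absurd ((hm' 0).1 h).1.1 (not_lt.2 hs.le)
      · rw [List.nodup_append]
        refine ⟨hl.imp fun h => ne_of_lt h, List.nodup_cons.2 ⟨fun h => ?_,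
          hl'.imp fun h => ne_of_lt h⟩, fun x hx y hy => ?_⟩
        · exact lt_irrefl _ ((hm' s).1 h).1.1
        · have h1 := ((hm x).1 hx).1.2
          rcases List.mem_cons.1 hy with h | h
          · rw [h]; exact ne_of_lt h1
          · exact ne_of_lt (h1.trans ((hm' y).1 h).1.1)
    have hIc : ∀ u ∈ (0 : ℝ) :: (l ++ s :: l'), u ∈ Ico (0 : ℝ) 1 := by
      intro u hu
      rcases List.mem_cons.1 hu with h | h
      · rw [h]; exact ⟨le_rfl, one_pos⟩
      rcases List.mem_append.1 h with h | h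
      · have := ((hm u).1 h).1; exact ⟨this.1.le, this.2.trans hs1⟩
      rcases List.mem_cons.1 h with h | h
      · rw [h]; exact ⟨hs.le, hs1⟩
      · have := ((hm' u).1 h).1; exact ⟨(hs.trans this.1).le, this.2⟩
    have hc := cnt_le594 (p := p) hF _ hnd hIc
    rw [List.map_cons, List.sum_cons, List.map_append, List.sum_append, List.map_cons,
      List.sum_cons] at hc
    have hsum : cnf594 (CzM.fl T z p 0) + cnf594 (CzM.fl T z p s) +
        cnts594 (l.map (evt T z p G G')) + cnts594 (l'.map (evt T z p G G')) ≤ F.card := by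
      rw [cnts_map, cnts_map]; omega
    obtain ⟨r1, r2, r3, r4, r5⟩ := B.two j0 hj0 _ _ _ _ _ _ _ _ (hev 0) h3 (hev s) h3'
      (hsum.trans hF2)
    refine ⟨le_antisymm hF2 (r1 ▸ hsum), fun u hu hj => ?_⟩
    rcases hu.1.eq_or_lt with h0 | h0
    · rw [← h0]; exact r2
    rcases lt_trichotomy u s with h5 | h5 | h5
    · exact r4 _ (List.mem_map.2 ⟨u, (hm u).2 ⟨⟨h0, h5⟩, hj⟩, rfl⟩)
    · rw [h5]; exact r3
    · exact r5 _ (List.mem_map.2 ⟨u, (hm' u).2 ⟨⟨h5, hu.2⟩, hj⟩, rfl⟩)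

end Vale.Agent.P032.H594
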