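import Vale.Agent.P032.H594.ExcFr
import Vale.Agent.P032.H987.ExcL

/-!
# P032: one circle in the mode `e`, virtual columns (helper594)

* `closed2`, `closed1` : closed walks with at most two flags have exactly two flags (from the tables
  of helper987).
* `Vir p q u g k` : the column `k` is a free change of the column `g` (with the letter `C` only
  strictly inside the zone `C`).
* `redu594` : an event of the turn cannot be replaced by an event between virtual columns with fewer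
  flags.
-/

open Set Filter Topology Metric

noncomputable section

namespace Vale.Agent.P032.H594

open Vale.Agent.P032.Six Vale.Agent.P032.S5.H767 Vale.Agent.P032.S5.H122 Vale.Agent.P032.Sweep
open Vale.Agent.P032.H987

variable {U : Fin 6 → Set ℂ} {T : ℂ → Set (Fin 6)} {z : ℂ} {a b c d e f : Fin 6} {p q : ℝ}

/-- number of flags of a list of events -/
def cE (l : List EvtM) : ℕ := (l.map fun E => nX E.1).sum

theorem cE_cons (E : EvtM) (l : List EvtM) : cE (E :: l) = nX E.1 + cE l := by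
  unfold cE; rw [List.map_cons, List.sum_cons]

theorem nX_cnt (x : Fin 6 → Bool) : cnf594 x = nX x := by
  unfold cnf594 nX
  rw [Finset.card_filter, Fin.sum_univ_six]
  have h : ∀ t : Bool, (if t = true then 1 else 0) = t.toNat := by decide
  simp only [h]

theorem Wk.zl {σ : Type} {k : ℕ} {cl : (Fin 6 → Fin 4) → σ} {l : List EvtM}
    {h h' : Fin 6 → Fin 4} (w : Wk k cl l h h') : Zok k h := by
  cases l with
  | nil => exact w.1
  | cons E l => exact w.1.1

theorem Wk.zr {σ : Type} {k : ℕ} {cl : (Fin 6 → Fin 4) → σ} :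
    ∀ {l : List EvtM} {h h' : Fin 6 → Fin 4}, Wk k cl l h h' → Zok k h' := by
  intro l
  induction l with
  | nil => intro h h' w; exact w.2.1
  | cons E l ih => intro h h' w; exact ih w.2.2

/-- the states along a walk -/
theorem walkE {C TR P k : ℕ} (hT : ckM (zn k) (zn k) (lfT C C TR) = true)
    (hP : compB P TR P = true) {E0 : ℕ} (hE : E0 < 32) :
    ∀ (l : List EvtM) (h h' : Fin 6 → Fin 4) (n : ℕ) (b : Bool),
    Wk k (ck C) l h h' → (b = true → 1 ≤ n) → n + cE l ≤ 2 → rl P (ri n b) E0 (ck C h) = true →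
    ∃ b' : Bool, rl P (ri (n + cE l) b') E0 (ck C h') = true ∧ (b' = true → 1 ≤ n + cE l) := by
  intro l
  induction l with
  | nil =>
    intro h h' n b w hb hn hr
    refine ⟨b, ?_, fun h1 => by have := hb h1; omega⟩
    show rl P (ri (n + 0) b) E0 _ = true
    rw [add_zero, ← w.2.2]; exact hr
  | cons E l ih =>
    rintro h h' n b ⟨⟨-, hz, hcl⟩, he, hw⟩ hb hn hr
    rw [cE_cons] at hn ⊢
    have hns : nX E.1 ≤ 2 := by omega
    have hck := lfT_iff hns (ckM_sound hT (fun j => zl_of_zok hz j)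
      (fun j => zl_of_zok hw.zl j) he hns)
    rw [hcl] at hr
    have hcomp := comp_sound hP (n := n) (n' := nX E.1) (b := b) (b' := bX E.1 E.2.1 E.2.2)
      (by omega) hb (fun h => bX_nX h) hE (ck_lt _ _) (ck_lt _ _) hr hck
    obtain ⟨b', k1, k2⟩ := ih E.2.2 h' (n + nX E.1) (b || bX E.1 E.2.1 E.2.2) hw (fun h3 => by
        rcases Bool.or_eq_true _ _ ▸ h3 with h4 | h4
        · have := hb h4; omega
        · have := bX_nX h4; omega) (by omega) hcomp
    refine ⟨b', by rw [← add_assoc]; exact k1, fun h3 => by have := k2 h3; omega⟩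

/-- **closed walks, zone time inside** -/
theorem closed2 {k C0 C1 T0 T1 M SR P Q : ℕ} (t : TabS k C0 C1 T0 T1 M SR P Q)
    {x0 xs : Fin 6 → Bool} {h h' g g' : Fin 6 → Fin 4} {l l' : List EvtM} (e0 : EvM x0 h h')
    (w1 : Wk (k + 1) (ck C1) l h' g) (es : EvM xs g g')
    (w2 : Wk k (ck C0) l' g' (fun j => h (j + 1)))
    (hn : nX x0 + nX xs + cE l + cE l' ≤ 2) : nX x0 + nX xs + cE l + cE l' = 2 := by
  have hn0 : nX x0 ≤ 2 := by omega
  have hns : nX xs ≤ 2 := by omega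
  have k1 := lfS_iff hn0 (ckM_sound t.s (fun j => zl_of_rot w2.zr j) (fun j => zl_of_zok w1.zl j)
    e0 hn0)
  have k2 := sub_sound t.sp k1
  obtain ⟨b1', k3, k4⟩ := walkE t.t1 t.pp (ck_lt C0 _) l h' g (nX x0) _ w1 (fun h => bX_nX h)
    (by omega) k2
  have m1 := lfT_iff hns (ckM_sound t.m (fun j => zl_of_zok w1.zr j) (fun j => zl_of_zok w2.zl j)
    es hns)
  have m2 := comp_sound t.pq (by omega) k4 (fun h => bX_nX h) (ck_lt C0 _) (ck_lt _ _)
    (ck_lt _ _) k3 m1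
  obtain ⟨b2', k5, k6⟩ := walkE t.t0 t.qq (ck_lt C0 _) l' g' (fun j => h (j + 1))
    (nX x0 + cE l + nX xs) (b1' || bX xs g g') w2 (fun h6 => by
      rcases Bool.or_eq_true _ _ ▸ h6 with h7 | h7
      · have := k4 h7; omega
      · have := bX_nX h7; omega) (by omega) m2
  have := (fin_sound t.f (by omega) k6 (ck_lt _ _) k5).1
  omega

/-- **closed walks, zone time `0`** -/
theorem closed1 {k C TR ZR W : ℕ} (t : TabZ k C TR ZR W) {x0 : Fin 6 → Bool}
    {h h' : Fin 6 → Fin 4} {l : List EvtM} (e0 : EvM x0 h h')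
    (w1 : Wk k (ck C) l h' (fun j => h (j + 1))) (hn : nX x0 + cE l ≤ 2) : nX x0 + cE l = 2 := by
  have hn0 : nX x0 ≤ 2 := by omega
  have k1 := lfS_iff hn0 (ckM_sound t.z (fun j => zl_of_rot w1.zr j) (fun j => zl_of_zok w1.zl j)
    e0 hn0)
  have k2 := sub_sound t.sw k1
  obtain ⟨b1', k3, k4⟩ := walkE t.t t.ww (ck_lt C _) l h' (fun j => h (j + 1)) (nX x0) _ w1
    (fun h => bX_nX h) (by omega) k2
  exact (fin_sound t.f (by omega) k4 (ck_lt _ _) k3).1

/-- free changes do not change the class -/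
theorem free_of {C TR k : ℕ} (hT : ckM (zn k) (zn k) (lfT C C TR) = true) (hid : idB TR = true)
    {h h' : Fin 6 → Fin 4} (hz : Zok k h) (hz' : Zok k h') (t : EvM (fun _ => false) h h') :
    ck C h = ck C h' := by
  have hn : nX (fun _ => false) ≤ 2 := by decide
  have h5 := lfT_iff hn (ckM_sound hT (fun j => zl_of_zok hz j) (fun j => zl_of_zok hz' j) t hn)
  have h6 : ri (nX fun _ => false) (bX (fun _ => false) h h') = 0 := by
    have : bX (fun _ => false) h h' = false := by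
      unfold bX
      rw [decide_eq_false_iff_not]
      rintro ⟨j, hj, -⟩
      exact Bool.noConfusion hj
    rw [this]; rfl
  rw [h6] at h5
  exact id_sound hid (ck_lt _ _) (ck_lt _ _) h5

/-- the class tables -/
def CLn (k : ℕ) : ℕ := match k with
  | 0 => CL0
  | 1 => CL1
  | 2 => CL2
  | _ => CL3

/-- the class in the phase `k` -/
def cl594 (k : ℕ) : (Fin 6 → Fin 4) → ℕ := ck (CLn k)

theorem cl_free594 {k : ℕ} (hk : k ≤ 3) {h h' : Fin 6 → Fin 4} (hz : Zok k h) (hz' : Zok k h')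
    (t : EvM (fun _ => false) h h') : cl594 k h = cl594 k h' := by
  interval_cases k
  · exact free_of tr0 id0 hz hz' t
  · exact free_of tr1 id1 hz hz' t
  · exact free_of tr2 id2 hz hz' t
  · exact free_of tr3 id3 hz hz' t

theorem closed2' {k : ℕ} (hk : k < 3) {x0 xs : Fin 6 → Bool} {h h' g g' : Fin 6 → Fin 4}
    {l l' : List EvtM} (e0 : EvM x0 h h') (w1 : Wk (k + 1) (cl594 (k + 1)) l h' g)
    (es : EvM xs g g') (w2 : Wk k (cl594 k) l' g' (fun j => h (j + 1)))
    (hn : nX x0 + nX xs + cE l + cE l' ≤ 2) : nX x0 + nX xs + cE l + cE l' = 2 := by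
  interval_cases k
  · exact closed2 (C0 := CL0) (C1 := CL1)
      ⟨tr0, tr1, mr0, sr0, id0, id1, sp0, pp0, pq0, qq0, fq0⟩ e0 w1 es w2 hn
  · exact closed2 (C0 := CL1) (C1 := CL2)
      ⟨tr1, tr2, mr1, sr1, id1, id2, sp1, pp1, pq1, qq1, fq1⟩ e0 w1 es w2 hn
  · exact closed2 (C0 := CL2) (C1 := CL3)
      ⟨tr2, tr3, mr2, sr2, id2, id3, sp2, pp2, pq2, qq2, fq2⟩ e0 w1 es w2 hn

theorem closed1' {k : ℕ} (hk : k < 3) (hk0 : 0 < k) {x0 : Fin 6 → Bool}
    {h h' : Fin 6 → Fin 4} {l : List EvtM} (e0 : EvM x0 h h')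
    (w1 : Wk k (cl594 k) l h' (fun j => h (j + 1))) (hn : nX x0 + cE l ≤ 2) :
    nX x0 + cE l = 2 := by
  interval_cases k
  · exact closed1 (C := CL1) ⟨tr1, zr1, id1, sw1, ww1, fw1⟩ e0 w1 hn
  · exact closed1 (C := CL2) ⟨tr2, zr2, id2, sw2, ww2, fw2⟩ e0 w1 hn

/-! ### Virtual columns -/

/-- strictly inside the zone `C` -/
def SC (p q t : ℝ) : Prop := ∃ n : ℤ, q < t + 3 * (n : ℝ) ∧ t + 3 * (n : ℝ) < p + 3

/-- a free change of the column `g` at the time `u` -/
structure Vir (p q u : ℝ) (g k : Fin 6 → Fin 4) : Prop where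
  ev : EvM (fun _ => false) g k
  zn : ∀ j, k j = g j ∨ (k j ≠ 2 ∧ (k j = 3 → SC p q (p + u + (j.val : ℝ))))

theorem sc_aux {u : ℝ} {j : Fin 6} (hS : SC p q (p + u + (j.val : ℝ))) (h0 : 0 ≤ u) :
    q - p < u + ((j.val % 3 : ℕ) : ℝ) := by
  obtain ⟨n, hn1, hn2⟩ := hS
  have hj6 := j.isLt
  set i := j.val % 3 with hi
  set m := j.val / 3 with hm
  have hjm : j.val = 3 * m + i := by omega
  have hjr : (j.val : ℝ) = 3 * (m : ℝ) + (i : ℝ) := by rw [hjm]; push_cast; ring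
  have hi0 : (0 : ℝ) ≤ (i : ℝ) := Nat.cast_nonneg _
  set N : ℤ := n + m with hN
  have e1 : p + u + (j.val : ℝ) + 3 * (n : ℝ) = p + (u + i + 3 * (N : ℝ)) := by
    rw [hjr, hN]; push_cast; ring
  rw [e1] at hn1 hn2
  have h3 : N ≤ 0 := by
    by_contra hcon
    have h5 : (1 : ℝ) ≤ (N : ℝ) := by exact_mod_cast (by omega : 1 ≤ N)
    linarith
  have h4 : (N : ℝ) ≤ 0 := by exact_mod_cast h3
  linarith

theorem Vir.zok_left {k : ℕ} {α u : ℝ} (hα : α < u) (h0 : 0 ≤ α)
    (hp : ∀ v ∈ Ioo α u, Ph (q - p) k v) {g h : Fin 6 → Fin 4} (V : Vir p q u g h)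
    (hz : Zok k g) : Zok k h := by
  intro j
  rcases V.zn j with h1 | ⟨h1, h2⟩
  · rw [h1]; exact hz j
  refine ⟨fun hk h3 => ?_, fun _ => h1⟩
  have h4 := sc_aux (h2 h3) (h0.trans hα.le)
  -- a time near `u`
  have h5 : max α (u - (u + ((j.val % 3 : ℕ) : ℝ) - (q - p))) < u := max_lt hα (by linarith)
  obtain ⟨v, hv1, hv2⟩ := exists_between h5
  have h6 := (hp v ⟨(le_max_left _ _).trans_lt hv1, hv2⟩).inA _ (Nat.mod_lt _ (by norm_num)) hk
  have h7 := (le_max_right _ _).trans_lt hv1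
  linarith

theorem Vir.zok_right {k : ℕ} {β u : ℝ} (hβ : u < β) (h0 : 0 ≤ u)
    (hp : ∀ v ∈ Ioo u β, Ph (q - p) k v) {g h : Fin 6 → Fin 4} (V : Vir p q u g h)
    (hz : Zok k g) : Zok k h := by
  intro j
  rcases V.zn j with h1 | ⟨h1, h2⟩
  · rw [h1]; exact hz j
  refine ⟨fun hk h3 => ?_, fun _ => h1⟩
  have h4 := sc_aux (h2 h3) h0
  obtain ⟨v, hv1, hv2⟩ := exists_between hβ
  have h6 := (hp v ⟨hv1, hv2⟩).inA _ (Nat.mod_lt _ (by norm_num)) hk
  linarith

theorem EvM.shift {x : Fin 6 → Bool} {h g : Fin 6 → Fin 4} (t : EvM x h g) :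
    EvM (fun j => x (j + 1)) (fun j => h (j + 1)) (fun j => g (j + 1)) where
  pl := fun j hj => t.pl (j + 1) hj
  adj := fun j => t.adj (j + 1)
  adj' := fun j => t.adj' (j + 1)
  sw := fun j h1 h2 h3 => t.sw (j + 1) h1 h2 h3
  opp := fun j h1 h2 => t.opp (j + 1) h1 (by
    have e : j + 1 + 3 = j + 3 + 1 := by
      rw [add_assoc, add_assoc]; rfl
    rw [e]; exact h2)

theorem Vir.shift {g k : Fin 6 → Fin 4} (V : Vir p q 0 g k) :
    Vir p q 1 (fun j => g (j + 1)) (fun j => k (j + 1)) where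
  ev := EvM.shift V.ev
  zn := fun j => by
    rcases V.zn (j + 1) with h1 | ⟨h1, h2⟩
    · exact Or.inl h1
    · refine Or.inr ⟨h1, fun h3 => ?_⟩
      obtain ⟨n, hn1, hn2⟩ := h2 h3
      by_cases hj : j.val < 5
      · have h4 : (j + 1 : Fin 6).val = j.val + 1 := by
          have : ∀ j : Fin 6, j.val < 5 → (j + 1 : Fin 6).val = j.val + 1 := by decide
          exact this j hj
        rw [h4] at hn1 hn2
        push_cast at hn1 hn2
        exact ⟨n, by linarith, by linarith⟩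
      · have h4 : (j + 1 : Fin 6).val = 0 ∧ j.val = 5 := by
          have : ∀ j : Fin 6, ¬ j.val < 5 → (j + 1 : Fin 6).val = 0 ∧ j.val = 5 := by decide
          exact this j hj
        rw [h4.1] at hn1 hn2
        refine ⟨n - 2, ?_, ?_⟩
        · rw [h4.2]; push_cast at hn1 ⊢; linarith
        · rw [h4.2]; push_cast at hn2 ⊢; linarith

/-- **one phase with virtual columns** -/
theorem phaseV (S : CzM U T z a b c d e f) (Z : Zn T z a b c d p q) {k : ℕ} (hk : k ≤ 3)
    {G G' : ℝ → Unit × Fin 6 → Fin 4} (hG : ∀ u, G u ∈ LC (XX T z a b e f p) u)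
    (hG' : ∀ u, G' u ∈ RC (XX T z a b e f p) u) {Ev : ℝ → EvtM}
    (ev : ∀ u, EvM (Ev u).1 (Ev u).2.1 (Ev u).2.2)
    (vl : ∀ u, Vir p q u (co (G u)) (Ev u).2.1) (vr : ∀ u, Vir p q u (co (G' u)) (Ev u).2.2)
    {β : ℝ} :
    ∀ (l : List ℝ) (α : ℝ), 0 ≤ α → α < β → l.Pairwise (· < ·) →
    (∀ u, u ∈ l ↔ u ∈ Ioo α β ∧ ∃ j, CzM.fl T z p u j = true) →
    (∀ v ∈ Ioo α β, Ph (q - p) k v) →
    ∀ h ∈ RC (XX T z a b e f p) α, ∀ h' ∈ LC (XX T z a b e f p) β,
    ∀ hv hv', Vir p q α (co h) hv → Vir p q β (co h') hv' →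
    Wk k (cl594 k) (l.map Ev) hv hv' := by
  have w := S.sw p
  have step : ∀ (α γ : ℝ), 0 ≤ α → α < γ → (∀ v ∈ Ioo α γ, Ph (q - p) k v) →
      (∀ u ∈ Ioo α γ, ∀ j, CzM.fl T z p u j = false) →
      ∀ h ∈ RC (XX T z a b e f p) α, ∀ h' ∈ LC (XX T z a b e f p) γ,
      ∀ hv hv', Vir p q α (co h) hv → Vir p q γ (co h') hv' →
      Zok k hv ∧ Zok k hv' ∧ cl594 k hv = cl594 k hv' := by
    intro α γ h0 hαγ hp hfl h hh h' hh' hv hv' V V'
    have key := w.sweep (R := fun g g' => Zok k (co g) ∧ Zok k (co g') ∧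
        cl594 k (co g) = cl594 k (co g'))
      (fun _ _ _ h1 h2 => ⟨h1.1, h2.2.1, h1.2.2.trans h2.2.2⟩) hαγ (fun u hu g hg g' hg' => by
        have hz : ∀ g ∈ LC (XX T z a b e f p) u ∪ RC (XX T z a b e f p) u, Zok k (co g) := by
          rintro g (hg | hg)
          · exact CzM.zok_LC Z S hu.1 (fun v hv => hp v ⟨hv.1, hv.2.trans hu.2⟩) hg
          · exact CzM.zok_RC Z S hu.2 (fun v hv => hp v ⟨hu.1.trans hv.1, hv.2⟩) hg
        have h2 := S.ev hg hg'
        have h3 : CzM.fl T z p u = fun _ => false := by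
          funext j; exact hfl u hu j
        rw [h3] at h2
        exact ⟨hz _ hg, hz _ hg', cl_free594 hk (hz _ hg) (hz _ hg') h2⟩) h hh h' hh'
    obtain ⟨k1, k2, k3⟩ := key
    have z1 := V.zok_right hαγ h0 hp k1
    have z2 := V'.zok_left hαγ h0 hp k2
    exact ⟨z1, z2, (cl_free594 hk k1 z1 V.ev).symm.trans (k3.trans (cl_free594 hk k2 z2 V'.ev))⟩
  intro l
  induction l with
  | nil =>
    intro α h0 hαβ _ hmem hp h hh h' hh' hv hv' V V'
    exact step α β h0 hαβ hp (fun u hu j => by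
      by_contra hne
      rw [Bool.not_eq_false] at hne
      exact absurd ((hmem u).2 ⟨hu, j, hne⟩) List.not_mem_nil) h hh h' hh' hv hv' V V'
  | cons s l ih =>
    intro α h0 hαβ hs hmem hp h hh h' hh' hv hv' V V'
    have hs2 := List.pairwise_cons.1 hs
    have hsI := ((hmem s).1 List.mem_cons_self).1
    refine ⟨step α s h0 hsI.1 (fun v hv => hp v ⟨hv.1, hv.2.trans hsI.2⟩) (fun u hu j => ?_) h hh
      (G s) (hG s) hv _ V (vl s), ev s, ?_⟩
    · by_contra hne
      rw [Bool.not_eq_false] at hne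
      have h5 := (hmem u).2 ⟨⟨hu.1, hu.2.trans hsI.2⟩, j, hne⟩
      rcases List.mem_cons.1 h5 with h6 | h6
      · exact absurd hu.2 (by rw [h6]; exact lt_irrefl _)
      · exact absurd (hs2.1 u h6) (not_lt.2 hu.2.le)
    · refine ih s (h0.trans hsI.1.le) hsI.2 hs2.2 (fun u => ?_)
        (fun v hv => hp v ⟨hsI.1.trans hv.1, hv.2⟩) (G' s) (hG' s) h' hh' _ hv' (vr s) V'
      constructor
      · intro hu
        have h7 := (hmem u).1 (List.mem_cons_of_mem _ hu)
        exact ⟨⟨hs2.1 u hu, h7.1.2⟩, h7.2⟩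
      · rintro ⟨hu, hj⟩
        rcases List.mem_cons.1 ((hmem u).2 ⟨⟨hsI.1.trans hu.1, hu.2⟩, hj⟩) with h6 | h6
        · exact absurd hu.1 (by rw [h6]; exact lt_irrefl _)
        · exact h6

theorem cE_map (Ev : ℝ → EvtM) (l : List ℝ) : cE (l.map Ev) = (l.map fun u => nX (Ev u).1).sum := by
  unfold cE
  rw [List.map_map]
  rfl

theorem sum_lt594 {A B : ℝ → ℕ} (le : ∀ u, A u ≤ B u) {u0 : ℝ} (lt : A u0 < B u0) :
    ∀ L : List ℝ, u0 ∈ L → (L.map A).sum < (L.map B).sum := by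
  have h0 : ∀ L : List ℝ, (L.map A).sum ≤ (L.map B).sum := by
    intro L
    induction L with
    | nil => exact le_rfl
    | cons s l ih =>
      rw [List.map_cons, List.map_cons, List.sum_cons, List.sum_cons]
      exact add_le_add (le s) ih
  intro L
  induction L with
  | nil => intro h; exact absurd h List.not_mem_nil
  | cons s l ih =>
    intro h
    rw [List.map_cons, List.map_cons, List.sum_cons, List.sum_cons]
    rcases List.mem_cons.1 h with h1 | h1
    · rw [← h1]; have := h0 l; omega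
    · have := ih h1; have := le s; omega

/-- **the turn with virtual columns and fewer flags is impossible** -/
theorem reduV (S : CzM U T z a b c d e f) (Z : Zn T z a b c d p q) {F : Finset ℂ}
    (hF : ∀ y, dist y z = 1 → 4 ≤ (T y).ncard → y ∈ F) (hF2 : F.card ≤ 2)
    {G G' : ℝ → Unit × Fin 6 → Fin 4} (hG : ∀ u, G u ∈ LC (XX T z a b e f p) u)
    (hG' : ∀ u, G' u ∈ RC (XX T z a b e f p) u) {Ev : ℝ → EvtM}
    (ev : ∀ u, EvM (Ev u).1 (Ev u).2.1 (Ev u).2.2)
    (vl : ∀ u, Vir p q u (co (G u)) (Ev u).2.1) (vr : ∀ u, Vir p q u (co (G' u)) (Ev u).2.2)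
    (le : ∀ u, nX (Ev u).1 ≤ nX (CzM.fl T z p u)) {u0 : ℝ} (hu0 : u0 ∈ Ico (0 : ℝ) 1)
    (lt : nX (Ev u0).1 < nX (CzM.fl T z p u0)) : False := by
  have w := S.sw p
  have hlt := Z.lt
  have hlt' := Z.lt'
  have hfin : {y | dist y z = 1 ∧ 4 ≤ (T y).ncard}.Finite :=
    F.finite_toSet.subset fun y hy => hF y hy.1 hy.2
  have hj00 : ∃ j, CzM.fl T z p u0 j = true := by
    by_contra hcon
    push Not at hcon
    rw [nX_zero _ hcon] at lt
    omega
  obtain ⟨j0, s, hj0, hs0, hs1, hq⟩ : ∃ (j0 : ℕ) (s : ℝ), j0 < 3 ∧ 0 ≤ s ∧ s < 1 ∧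
      q = p + j0 + s := by
    refine ⟨⌊q - p⌋₊, Int.fract (q - p), ?_, Int.fract_nonneg _, Int.fract_lt_one _, ?_⟩
    · rw [Nat.floor_lt (by linarith)]
      push_cast; linarith
    · have h1 := Int.floor_add_fract (q - p)
      have h2 : ((⌊q - p⌋₊ : ℕ) : ℝ) = ((⌊q - p⌋ : ℤ) : ℝ) := by
        rw [← natCast_floor_eq_intCast_floor (by linarith)]
      rw [h2]; linarith
  have hQ : q - p = j0 + s := by rw [hq]; ring
  have ph2 : ∀ v ∈ Ioo s 1, Ph (q - p) j0 v := by
    intro v hv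
    refine ⟨lt_of_le_of_lt hs0 hv.1, hv.2, fun i _ h2 => ?_, fun i _ h2 => ?_⟩
    · have h3 : (i : ℝ) + 1 ≤ (j0 : ℝ) := by exact_mod_cast h2
      rw [hQ]; linarith [hv.2]
    · have h3 : (j0 : ℝ) ≤ (i : ℝ) := by exact_mod_cast h2
      rw [hQ]; linarith [hv.1]
  have ph1 : ∀ v ∈ Ioo 0 s, Ph (q - p) (j0 + 1) v := by
    intro v hv
    refine ⟨hv.1, hv.2.trans hs1, fun i _ h2 => ?_, fun i _ h2 => ?_⟩
    · have h3 : (i : ℝ) ≤ (j0 : ℝ) := by exact_mod_cast (by omega : i ≤ j0)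
      rw [hQ]; linarith [hv.2]
    · have h3 : (j0 : ℝ) + 1 ≤ (i : ℝ) := by exact_mod_cast h2
      rw [hQ]; linarith [hv.1]
  have hrot : G 0 ∘ rt Unit ∈ LC (XX T z a b e f p) 1 := by
    have := LC_shift (X := XX T z a b e f p) (σ := rt Unit) (fun s l u => Xl_per s l u) (hG 0)
    rwa [zero_add] at this
  have vrot : Vir p q 1 (co (G 0 ∘ rt Unit)) (fun j => (Ev 0).2.1 (j + 1)) := (vl 0).shift
  have lst : ∀ α β : ℝ, 0 ≤ α → β ≤ 1 → ∃ l : List ℝ, l.Pairwise (· < ·) ∧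
      ∀ u, u ∈ l ↔ u ∈ Ioo α β ∧ ∃ j, CzM.fl T z p u j = true := by
    intro α β hα hβ
    have hf : {u | u ∈ Ioo α β ∧ ∃ j, CzM.fl T z p u j = true}.Finite :=
      (finite_fl hfin p).subset fun u hu =>
        ⟨⟨hα.trans hu.1.1.le, lt_of_lt_of_le hu.1.2 hβ⟩, hu.2⟩
    refine ⟨hf.toFinset.sort (· ≤ ·), (Finset.sortedLT_sort _).pairwise, fun u => ?_⟩
    rw [Finset.mem_sort, Set.Finite.mem_toFinset]
    exact Iff.rfl
  have cc : ∀ L : List ℝ, L.Nodup → (∀ u ∈ L, u ∈ Ico (0 : ℝ) 1) →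
      (L.map fun u => nX (CzM.fl T z p u)).sum ≤ 2 := by
    intro L hnd hI
    have := cnt_le594 (p := p) hF L hnd hI
    simp only [nX_cnt] at this
    exact this.trans hF2
  rcases hs0.eq_or_lt with hs | hs
  · subst hs
    have hj : 0 < j0 := by
      rcases Nat.eq_zero_or_pos j0 with h0 | h0
      · subst h0; push_cast at hQ; linarith
      · exact h0
    obtain ⟨l, hl, hm⟩ := lst 0 1 le_rfl le_rfl
    have h3 := phaseV S Z (k := j0) (by omega) hG hG' ev vl vr l 0 le_rfl one_pos hl hm ph2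
      (G' 0) (hG' 0) _ hrot _ _ (vr 0) vrot
    have hnd : (0 :: l).Nodup := by
      refine List.nodup_cons.2 ⟨fun h => ?_, hl.imp fun h => ne_of_lt h⟩
      exact lt_irrefl _ ((hm 0).1 h).1.1
    have hIc : ∀ u ∈ (0 : ℝ) :: l, u ∈ Ico (0 : ℝ) 1 := by
      intro u hu
      rcases List.mem_cons.1 hu with h | h
      · rw [h]; exact ⟨le_rfl, one_pos⟩
      · have := ((hm u).1 h).1; exact ⟨this.1.le, this.2⟩
    have hmem : u0 ∈ (0 : ℝ) :: l := by
      rcases hu0.1.eq_or_lt with h | h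
      · rw [← h]; exact List.mem_cons_self
      · exact List.mem_cons_of_mem _ ((hm u0).2 ⟨⟨h, hu0.2⟩, hj00⟩)
    have h4 := sum_lt594 le lt _ hmem
    have h5 := cc _ hnd hIc
    rw [List.map_cons, List.sum_cons] at h4
    have h6 := closed1' hj0 hj (ev 0) h3 (by rw [cE_map]; omega)
    rw [cE_map] at h6
    omega
  · obtain ⟨l, hl, hm⟩ := lst 0 s le_rfl hs1.le
    obtain ⟨l', hl', hm'⟩ := lst s 1 hs0 le_rfl
    have h3 := phaseV S Z (k := j0 + 1) (by omega) hG hG' ev vl vr l 0 le_rfl hs hl hm ph1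
      (G' 0) (hG' 0) (G s) (hG s) _ _ (vr 0) (vl s)
    have h3' := phaseV S Z (k := j0) (by omega) hG hG' ev vl vr l' s hs0 hs1 hl' hm' ph2
      (G' s) (hG' s) _ hrot _ _ (vr s) vrot
    have hnd : (0 :: (l ++ s :: l')).Nodup := by
      refine List.nodup_cons.2 ⟨fun h => ?_, ?_⟩
      · rcases List.mem_append.1 h with h | h
        · exact lt_irrefl _ ((hm 0).1 h).1.1
        · rcases List.mem_cons.1 h with h | h
          · exact absurd hs (by rw [← h]; exact lt_irrefl _)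
          · exact absurd ((hm' 0).1 h).1.1 (not_lt.2 hs.le)
      · rw [List.nodup_append]
        refine ⟨hl.imp fun h => ne_of_lt h, List.nodup_cons.2 ⟨fun h => ?_,
          hl'.imp fun h => ne_of_lt h⟩, fun x hx y hy => ?_⟩
        · exact lt_irrefl _ ((hm' s).1 h).1.1
        · have h1 := ((hm x).1 hx).1.2
          rcases List.mem_cons.1 hy with h | h
          · rw [h]; exact ne_of_lt h1
          · exact ne_of_lt (h1.trans ((hm' y).1 h).1.1)
    have hIc : ∀ u ∈ (0 : ℝ) :: (l ++ s :: l'), u ∈ Ico (0 : ℝ) 1 := by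
      intro u hu
      rcases List.mem_cons.1 hu with h | h
      · rw [h]; exact ⟨le_rfl, one_pos⟩
      rcases List.mem_append.1 h with h | h
      · have := ((hm u).1 h).1; exact ⟨this.1.le, this.2.trans hs1⟩
      rcases List.mem_cons.1 h with h | h
      · rw [h]; exact ⟨hs.le, hs1⟩
      · have := ((hm' u).1 h).1; exact ⟨(hs.trans this.1).le, this.2⟩
    have hmem : u0 ∈ (0 : ℝ) :: (l ++ s :: l') := by
      rcases hu0.1.eq_or_lt with h | h
      · rw [← h]; exact List.mem_cons_self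
      refine List.mem_cons_of_mem _ (List.mem_append.2 ?_)
      rcases lt_trichotomy u0 s with h5 | h5 | h5
      · exact Or.inl ((hm u0).2 ⟨⟨h, h5⟩, hj00⟩)
      · rw [h5]; exact Or.inr List.mem_cons_self
      · exact Or.inr (List.mem_cons_of_mem _ ((hm' u0).2 ⟨⟨h5, hu0.2⟩, hj00⟩))
    have h4 := sum_lt594 le lt _ hmem
    have h5 := cc _ hnd hIc
    rw [List.map_cons, List.sum_cons, List.map_append, List.sum_append, List.map_cons,
      List.sum_cons] at h4
    have h6 := closed2' hj0 (ev 0) h3 (ev s) h3' (by rw [cE_map, cE_map]; omega)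
    rw [cE_map, cE_map] at h6
    omega

/-- **no replacement with fewer flags** -/
theorem redu594 (S : CzM U T z a b c d e f) (Z : Zn T z a b c d p q) {F : Finset ℂ}
    (hF : ∀ y, dist y z = 1 → 4 ≤ (T y).ncard → y ∈ F) (hF2 : F.card ≤ 2) {u0 : ℝ}
    (hu0 : u0 ∈ Ico (0 : ℝ) 1) {h g : Unit × Fin 6 → Fin 4}
    (hh : h ∈ LC (XX T z a b e f p) u0) (hg : g ∈ RC (XX T z a b e f p) u0)
    {h0 g0 : Fin 6 → Fin 4} {x : Fin 6 → Bool} (V1 : Vir p q u0 (co h) h0)
    (V2 : Vir p q u0 (co g) g0) (he : EvM x h0 g0) (hlt : nX x < nX (CzM.fl T z p u0)) :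
    False := by
  classical
  have w := S.sw p
  choose G0 hG0 using fun u => w.LC_ne u
  choose G0' hG0' using fun u => w.RC_ne u
  have refl : ∀ {u : ℝ} {g : Unit × Fin 6 → Fin 4},
      g ∈ LC (XX T z a b e f p) u ∪ RC (XX T z a b e f p) u → Vir p q u (co g) (co g) := by
    intro u g hg
    have h1 := S.ev hg hg
    exact ⟨⟨fun j _ => Or.inl rfl, h1.adj, h1.adj', fun j h2 => absurd rfl h2, h1.opp⟩,
      fun j => Or.inl rfl⟩
  set G : ℝ → Unit × Fin 6 → Fin 4 := fun u => if u = u0 then h else G0 u with hGd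
  set G' : ℝ → Unit × Fin 6 → Fin 4 := fun u => if u = u0 then g else G0' u with hGd'
  have hG : ∀ u, G u ∈ LC (XX T z a b e f p) u := by
    intro u
    by_cases h1 : u = u0
    · rw [hGd]; simp only [h1, if_true]; exact hh
    · rw [hGd]; simp only [h1, if_false]; exact hG0 u
  have hG' : ∀ u, G' u ∈ RC (XX T z a b e f p) u := by
    intro u
    by_cases h1 : u = u0
    · rw [hGd']; simp only [h1, if_true]; exact hg
    · rw [hGd']; simp only [h1, if_false]; exact hG0' u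
  set Ev : ℝ → EvtM := fun u => if u = u0 then (x, h0, g0) else
    (CzM.fl T z p u, co (G u), co (G' u)) with hEv
  have e0 : Ev u0 = (x, h0, g0) := by rw [hEv]; simp
  have e1 : ∀ u, u ≠ u0 → Ev u = (CzM.fl T z p u, co (G u), co (G' u)) := fun u hu => by
    rw [hEv]; simp [hu]
  have g1 : G u0 = h := by rw [hGd]; simp
  have g1' : G' u0 = g := by rw [hGd']; simp
  refine reduV S Z hF hF2 hG hG' (Ev := Ev) (fun u => ?_) (fun u => ?_) (fun u => ?_)
    (fun u => ?_) hu0 (by rw [e0]; exact hlt)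
  · by_cases h1 : u = u0
    · rw [h1, e0]; exact he
    · rw [e1 u h1]; exact S.ev (Or.inl (hG u)) (Or.inr (hG' u))
  · by_cases h1 : u = u0
    · rw [h1, e0, g1]; exact V1
    · rw [e1 u h1]; exact refl (Or.inl (hG u))
  · by_cases h1 : u = u0
    · rw [h1, e0, g1']; exact V2
    · rw [e1 u h1]; exact refl (Or.inr (hG' u))
  · by_cases h1 : u = u0
    · rw [h1, e0]; exact hlt.le
    · rw [e1 u h1]

end Vale.Agent.P032.H594
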