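import Vale.Agent.P032.H594.JOrder

/-!
# P032: the old word, abstract part

`SG.gap_len` : a gap of `Z` with different signs at its two ends has length at most two.
`SG.mir` : the mirror image of the sign rules.
`SG.cone` : in the old word (three blocks, the sign `-` before each of them and `+` after each of
them) the starts of the first two blocks are at most three apart.
-/

open Set Filter Topology Metric

namespace Vale.Agent.P032.H594

variable {P N Z Y : Set ℝ}

namespace SG

/-- a flip inside a gap of `Z` -/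
theorem gap_flip (S : SG P N Z Y) {x x' : ℝ} (hx : x < x') (h1 : Af N x) (h2 : Bf P x')
    (hZ : ∀ t, x < t → t < x' → t ∉ Z) : ∃ t, x < t ∧ t < x' ∧ t - 1 ∈ Z ∧ t + 1 ∈ Z := by
  obtain ⟨δ, hδ, k1⟩ := h1.exists
  obtain ⟨ε, hε, k2⟩ := h2.exists
  set r := min (min δ ε) (x' - x) / 3 with hr
  have r0 : 0 < r := by
    have := lt_min (lt_min hδ hε) (sub_pos.2 hx)
    rw [hr]; linarith
  have r1 : r < δ := by
    have a1 := min_le_left (min δ ε) (x' - x)
    have a2 := min_le_left δ ε
    rw [hr] at r0 ⊢; linarith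
  have r2 : r < ε := by
    have a1 := min_le_left (min δ ε) (x' - x)
    have a2 := min_le_right δ ε
    rw [hr] at r0 ⊢; linarith
  have r3 : 3 * r ≤ x' - x := by
    have a1 := min_le_right (min δ ε) (x' - x)
    rw [hr]; linarith
  obtain ⟨t, ht, j1, j2⟩ := S.flip (x := x + r) (x' := x' - r) (by linarith)
    (k1 _ (by linarith) (by linarith)) (k2 _ (by linarith) (by linarith))
  have ht1 : x < t := by linarith [ht.1]
  have ht2 : t < x' := by linarith [ht.2]
  refine ⟨t, ht1, ht2, ?_⟩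
  rcases S.s3 t j1 j2 with k | k
  · exact absurd k.1 (hZ t ht1 ht2)
  · exact k.2.2

/-- **a gap with different signs at its ends has length at most two** -/
theorem gap_len (S : SG P N Z Y) {x x' : ℝ} (hx : x < x') (h1 : Af N x) (h2 : Bf P x')
    (hZ : ∀ t, x < t → t < x' → t ∉ Z) : x' - x ≤ 2 := by
  obtain ⟨t, k1, k2, k3, k4⟩ := S.gap_flip hx h1 h2 hZ
  have a1 : t - 1 ≤ x := by
    by_contra hcon
    push Not at hcon
    exact hZ _ hcon (by linarith) k3
  have a2 : x' ≤ t + 1 := by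
    by_contra hcon
    push Not at hcon
    exact hZ _ (by linarith) hcon k4
  linarith

/-- **mirror image** -/
theorem mir (S : SG P N Z Y) (c : ℝ) :
    SG {t | c - t ∈ P} {t | c - t ∈ N} {t | c - t ∈ Z} {t | c - t ∈ Y} := by
  have hc : Continuous fun t : ℝ => c - t := by fun_prop
  have hint : ∀ {A : Set ℝ} {t : ℝ}, t ∈ interior {t | c - t ∈ A} → c - t ∈ interior A := by
    intro A t ht
    obtain ⟨B, hB, oB, tB⟩ := mem_interior.1 ht
    refine mem_interior.2 ⟨{x | c - x ∈ B}, fun x hx => ?_, oB.preimage hc, by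
      show c - (c - t) ∈ B; rwa [sub_sub_cancel]⟩
    have := hB hx
    rwa [mem_ofPred_eq, sub_sub_cancel] at this
  have hper : ∀ {A : Set ℝ}, (∀ t, t + 6 ∈ A ↔ t ∈ A) → ∀ t, c - (t + 6) ∈ A ↔ c - t ∈ A := by
    intro A h t
    rw [← h (c - (t + 6))]
    ring_nf
  refine ⟨S.cP.preimage hc, S.cN.preimage hc, S.cZ.preimage hc, S.cY.preimage hc,
    fun t => S.cov _, fun t h1 h2 => S.s1 _ h1 (hint h2), fun t h1 h2 => S.s1' _ h1 (hint h2),
    fun t h1 h2 => ?_, fun t h1 h2 => ?_, hper S.pP, hper S.pN, hper S.pZ, hper S.pY⟩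
  · have e1 : c - t = c - (t + 1) + 1 := by ring
    have := S.s2 (c - (t + 1)) (by rw [← e1]; exact h2.symm) (by rw [← e1]; exact h1.symm)
    rw [← e1] at this
    exact ⟨this.2.symm, this.1.symm⟩
  · have e1 : c - (t - 1) = c - t + 1 := by ring
    have e2 : c - (t + 1) = c - t - 1 := by ring
    show (c - t ∈ Z ∧ c - t ∉ Y ∧ c - (t - 1) ∈ Y ∧ c - (t + 1) ∈ Y) ∨
      (c - t ∈ Y ∧ c - t ∉ Z ∧ c - (t - 1) ∈ Z ∧ c - (t + 1) ∈ Z)
    rw [e1, e2]
    rcases S.s3 (c - t) h1 h2 with k | k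
    · exact Or.inl ⟨k.1, k.2.1, k.2.2.2, k.2.2.1⟩
    · exact Or.inr ⟨k.1, k.2.1, k.2.2.2, k.2.2.1⟩

end SG

theorem Af.mir {A : Set ℝ} {x : ℝ} (c : ℝ) (h : Af A x) : Bf {t | c - t ∈ A} (c - x) := by
  obtain ⟨δ, hδ, h1⟩ := h.exists
  exact bf_of hδ fun t h2 h3 => h1 _ (by linarith) (by linarith)

theorem Bf.mir {A : Set ℝ} {x : ℝ} (c : ℝ) (h : Bf A x) : Af {t | c - t ∈ A} (c - x) := by
  obtain ⟨δ, hδ, h1⟩ := h.exists
  exact af_of hδ fun t h2 h3 => h1 _ (by linarith) (by linarith)

namespace SG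

/-- opposite signs at distance one, outside `Z` -/
theorem alt (S : SG P N Z Y) {t : ℝ} (h1 : t ∉ Z) (h2 : t + 1 ∉ Z) :
    (t ∈ P ↔ t + 1 ∈ N) ∧ (t ∈ N ↔ t + 1 ∈ P) := S.s2 t (Or.inl h1) (Or.inr h2)

/-- **the cone, up to equality** -/
theorem cone (S : SG P N Z Y) {s t u u' w w' : ℝ} (_ : 0 < s) (s1 : s < 1) (t0 : 0 < t)
    (t1 : t < 1) (_ : t < u) (uu : u < u') (u3 : u' < 3) (w3 : 3 < w) (ww : w < w')
    (gap : w' + s ≤ 5)
    (cl : ∀ x, -s ≤ x → x < 6 - s → x ∈ Z → x ≤ t ∨ (u ≤ x ∧ x ≤ u') ∨ (w ≤ x ∧ x ≤ w'))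
    (b0 : Bf P (-s)) (b1 : Bf P u) (b2 : Bf P w) (a1 : Af N u') (a2 : Af N w') :
    u + s ≤ 3 := by
  by_contra hcon
  push Not at hcon
  have out : ∀ x, -s ≤ x → t < x → x < 6 - s → (x < u ∨ u' < x) → (x < w ∨ w' < x) → x ∉ Z := by
    intro x h1 h2 h3 h4 h5 h6
    rcases cl x h1 h3 h6 with k | k | k
    · linarith
    · rcases h4 with h4 | h4 <;> linarith [k.1, k.2]
    · rcases h5 with h5 | h5 <;> linarith [k.1, k.2]
  -- the flip in the second gap
  obtain ⟨n, n1, n2, n3, -⟩ := S.gap_flip (x := u') (x' := w) (by linarith) a1 b2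
    (fun x h1 h2 => out x (by linarith) (by linarith) (by linarith) (Or.inr h1) (Or.inl h2))
  have hn : u ≤ n - 1 := by
    rcases cl (n - 1) (by linarith) (by linarith) n3 with k | k | k
    · linarith
    · exact k.1
    · linarith [k.1]
  -- the sign `-` before the second block
  have minus : ∀ x, t + 1 < x → x < u → x ∉ P := by
    intro x h1 h2
    obtain ⟨ε, hε, k⟩ := b1.exists
    set y := max x (u - ε / 2) with hy
    have y1 : x ≤ y := le_max_left _ _
    have y2 : u - ε / 2 ≤ y := le_max_right _ _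
    have y3 : y < u := max_lt h2 (by linarith)
    refine S.neg.const' (x' := y) y1 (k _ (by linarith) y3) ?_
    intro r hr k1 k2
    have r1 : t + 1 < r := by linarith [hr.1]
    have r2 : r < u := by linarith [hr.2]
    rcases S.s3 r k2 k1 with k3 | k3
    · exact out r (by linarith) (by linarith) (by linarith) (Or.inl r2) (Or.inl (by linarith)) k3.1
    · exact out (r - 1) (by linarith) (by linarith) (by linarith) (Or.inl (by linarith))
        (Or.inl (by linarith)) k3.2.2.1
  obtain ⟨δ, hδ, k0⟩ := b0.exists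
  obtain ⟨δ', hδ', k2⟩ := a2.exists
  obtain ⟨ρ, ρ0, ρ1, ρ2, ρ3, ρ4⟩ : ∃ ρ : ℝ, 0 < ρ ∧ 3 - s + ρ < u ∧ ρ < 1 - s ∧ ρ < δ ∧ ρ < δ' := by
    obtain ⟨ρ, h1, h2⟩ := exists_between (show (0 : ℝ) <
      min (min (u - (3 - s)) (1 - s)) (min δ δ') from
      lt_min (lt_min (by linarith) (by linarith)) (lt_min hδ hδ'))
    have h3 := lt_of_lt_of_le h2 (min_le_left _ _)
    have h4 := lt_of_lt_of_le h2 (min_le_right _ _)
    exact ⟨ρ, h1, by linarith [lt_of_lt_of_le h3 (min_le_left _ _)],
      lt_of_lt_of_le h3 (min_le_right _ _), lt_of_lt_of_le h4 (min_le_left _ _),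
      lt_of_lt_of_le h4 (min_le_right _ _)⟩
  -- the sign `+` one further
  have nz : ∀ x, 4 - s - ρ < x → x < 4 - s + ρ → x ∉ Z := fun x h1 h2 =>
    out x (by linarith) (by linarith) (by linarith) (Or.inr (by linarith)) (Or.inl (by linarith))
  have plus : ∀ x, 4 - s - ρ < x → x < 4 - s + ρ → x ∉ N := by
    intro x h1 h2 h3
    have h4 := S.alt (t := x - 1)
      (out (x - 1) (by linarith) (by linarith) (by linarith) (Or.inl (by linarith))
        (Or.inl (by linarith))) (by rw [sub_add_cancel]; exact nz x h1 h2)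
    rw [sub_add_cancel] at h4
    exact minus (x - 1) (by linarith) (by linarith) (h4.1.2 h3)
  -- the last block ends at `5 - s`
  have hw' : 5 - s ≤ w' := by
    by_contra hc
    push Not at hc
    obtain ⟨x, h1, h2⟩ := exists_between (show max w' (5 - s - ρ) < 5 - s from
      max_lt hc (by linarith))
    have h3 := lt_of_le_of_lt (le_max_left _ _) h1
    have h4 := lt_of_le_of_lt (le_max_right _ _) h1
    have hx : x ∉ Z := out x (by linarith) (by linarith) (by linarith) (Or.inr (by linarith))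
      (Or.inr h3)
    have hx1 : x + 1 ∉ Z := out (x + 1) (by linarith) (by linarith) (by linarith)
      (Or.inr (by linarith)) (Or.inr (by linarith))
    have hp : x + 1 ∉ P := by
      have := k0 (x - 5) (by linarith) (by linarith)
      rwa [← S.pP, show x - 5 + 6 = x + 1 by ring] at this
    have e1 := S.alt hx hx1
    have e2 := S.alt (t := x - 1) (nz _ (by linarith) (by linarith))
      (by rw [sub_add_cancel]; exact hx)
    rw [sub_add_cancel] at e2
    rcases S.cov x with k | k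
    · exact plus (x - 1) (by linarith) (by linarith) (e2.2.2 k)
    · exact hp (e1.2.1 k)
  have hw : w' = 5 - s := by linarith
  have hx : 5 - s + ρ / 2 ∉ Z := out _ (by linarith) (by linarith) (by linarith)
    (Or.inr (by linarith)) (Or.inr (by linarith))
  have e2 := S.alt (t := 4 - s + ρ / 2) (nz _ (by linarith) (by linarith))
    (by rw [show 4 - s + ρ / 2 + 1 = 5 - s + ρ / 2 by ring]; exact hx)
  rw [show 4 - s + ρ / 2 + 1 = 5 - s + ρ / 2 by ring] at e2
  rcases S.cov (5 - s + ρ / 2) with k | k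
  · exact plus _ (by linarith) (by linarith) (e2.2.2 k)
  · exact k2 _ (by linarith) (by linarith) k

/-- the cone of the other network: the mirror image at the other `J`-partner -/
theorem cone' (S : SG P N Z Y) {s t u u' w m w' : ℝ} (s0 : 0 < s) (t0 : 0 < t)
    (tu : t < u) (uu : u < u') (gap : w' + s ≤ 5) (wm : w < m) (mw : m < w')
    (j0 : w' - m < 1) (j0' : m - w < 1) (j1 : u' + 1 ≤ m) (j3 : m < u + 3) (j4 : t + 3 < m)
    (cl : ∀ x, -s ≤ x → x < 6 - s → x ∈ Z → x ≤ t ∨ (u ≤ x ∧ x ≤ u') ∨ (w ≤ x ∧ x ≤ w'))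
    (b0 : Bf P (-s)) (b1 : Bf P u) (a0 : Af N t) (a1 : Af N u') (a2 : Af N w') :
    w' - u' ≤ 3 := by
  have e0 : -(w' - m) = m - w' := by ring
  have e1 : m + s = m - -s := by ring
  have := (S.mir m).neg.cone (s := w' - m) (t := m - w) (u := m - u') (u' := m - u) (w := m - t)
    (w' := m + s) (by linarith) j0 (by linarith) j0' (by linarith) (by linarith) (by linarith)
    (by linarith) (by linarith) (by linarith) (fun x h1 h2 h3 => ?_)
    (by rw [e0]; exact a2.mir m) (a1.mir m) (a0.mir m) (b1.mir m) (by rw [e1]; exact b0.mir m)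
  · linarith
  · have h3 : m - x ∈ Z := h3
    by_cases h4 : -s ≤ m - x
    · rcases cl (m - x) h4 (by linarith) h3 with k | k | k
      · exact Or.inr (Or.inr ⟨by linarith, by linarith⟩)
      · exact Or.inr (Or.inl ⟨by linarith [k.2], by linarith [k.1]⟩)
      · exact Or.inl (by linarith [k.1])
    · exfalso
      push Not at h4
      rcases cl (m - x + 6) (by linarith) (by linarith) ((S.pZ _).2 h3) with k | k | k
      · linarith
      · linarith [k.2]
      · linarith [k.2]

end SG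

end Vale.Agent.P032.H594
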