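import Vale.Agent.P032.H471.Inst
import Vale.Agent.P032.S5.H358.NoSpec

/-!
# P032: no complementary ends, if the circles of the centres with complementary ends are good

No bound on `|T x|` besides `Sec4` (the second centre of a node of a four coloured centre has at
most four colours); `Good` only at the centres with complementary ends.

`no_comp_good` : then there are no complementary ends.
`no_comp_clean` : the same if the circles of these centres are clean.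
-/

open Set Filter Topology Metric

noncomputable section

namespace Vale.Agent.P032.H594

open Vale.Agent.P032.Six Vale.Agent.P032.Words Vale.Agent.P032.S5.H767 Vale.Agent.P032.S5.H349
  Vale.Agent.P032.S5.H450 Vale.Agent.P032.S5.H358 Vale.Agent.P032.H471
  Vale.Agent.P032.Net.H672

variable {U : Fin 6 → Set ℂ} {T : ℂ → Set (Fin 6)} {X : Set (Fin 6)} {z v q q' m v' v'' : ℂ}
  {o o' : ℝ}

/-- a centre with complementary ends -/
def Comp (T : ℂ → Set (Fin 6)) (z : ℂ) : Prop := ∃ v q, EE T z v ∧ EE T z q ∧ T q = (T v)ᶜ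

theorem comp_of (hv : EE T z v) (hq : EE T z q) (hc : T q = (T v)ᶜ) : Comp T z := ⟨v, q, hv, hq, hc⟩

theorem comp_of_full (hv : Full T (EE T) z v) : Comp T z := by
  obtain ⟨hv, q, hq, hc⟩ := hv
  exact ⟨v, q, hv, hq, hc⟩

/-- points with the palette of an end are clean ends -/
theorem cln594 (h : Irr U T) (hS : Sec4 T) (hv : EE T z v) (hq : EE T z q) (hc : T q = (T v)ᶜ)
    (hm : dist m z = 1) (hTm : T m = T v) : Cln T z m := by
  have N := nd_of_ee h hv hq hc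
  obtain ⟨-, s, hs, hsz⟩ := light_of_four h N hv.card_z
  have N' := N.node_x h hs hsz hm hTm
  obtain ⟨a, b, c, d, e, f, C, -, -⟩ := exists_ncfg h hv hm hTm hq.dist hc
    (hS _ _ _ _ N' hv.card_z)
  obtain ⟨o, hE, -⟩ := C.lp1 h
  have hP := C.inter
  have h1 := hE.arc.and (hE.after.mono fun t ht => ht.2)
  obtain ⟨ε, hε, hs⟩ := mem_nhdsGT_iff_exists_Ioo_subset.1 h1
  refine ⟨o, ε, hE.o1, hε, fun t ht => ?_, fun t ht => ?_⟩
  · have := (hs ht).1
    rw [neg_mul] at this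
    rw [hP]; exact this
  · rw [hP]; exact (hs ht).2

/-- the sign of an end is unique -/
theorem sgn594 (h : Irr U T) (hS : Sec4 T) (hv : EE T z v) (hq : EE T z q)
    (hc : T q = (T v)ᶜ) (h1 : OEnd T z v o) (h2 : OEnd T z v o') : o = o' := by
  refine h1.unique h h2 hq.dist hq.card_v.le (fun i => ?_) ?_ (hv.anti813 h hq hc)
    (hv.four813 h hq hc (w4 h hS hv hq hc))
  · rw [hc]; exact em _
  · rw [hc]; exact disjoint_compl_right

theorem sgn594' (h : Irr U T) (hS : Sec4 T) (hv : EE T z v) (hq : EE T z q)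
    (hc : T q = (T v)ᶜ) (h1 : OEnd T z v o) : o = ore T z v :=
  sgn594 h hS hv hq hc h1 hv.ore813

/-- the network -/
theorem net594 (h : Irr U T) (hS : Sec4 T) (hK : ∀ z, Comp T z → OkC U T z) (X : Set (Fin 6)) :
    Net (fun z v => EE T z v ∧ T v = X) (fun z q => EE T z q ∧ T q = Xᶜ) := by
  have hX3 : ∀ {z v}, EE T z v ∧ T v = X → X.ncard = 3 := by
    rintro z v ⟨h1, rfl⟩; exact h1.card_v
  have hX3' : ∀ {z v}, EE T z v ∧ T v = Xᶜ → X.ncard = 3 := by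
    rintro z v ⟨h1, h2⟩
    have h3 := h1.card_v
    rw [h2] at h3
    have := Set.ncard_add_ncard_compl X
    rw [Nat.card_eq_fintype_card, Fintype.card_fin] at this
    omega
  have hc : ∀ {z v z' q}, EE T z v ∧ T v = X → EE T z' q ∧ T q = Xᶜ → T q = (T v)ᶜ := by
    rintro z v z' q ⟨-, h1⟩ ⟨-, h2⟩
    rw [h1, h2]
  have hc' : ∀ {z v z' q}, EE T z v ∧ T v = X → EE T z' q ∧ T q = Xᶜ → T v = (T q)ᶜ := by
    rintro z v z' q ⟨-, h1⟩ ⟨-, h2⟩
    rw [h1, h2, compl_compl]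
  have back : ∀ {z v q v'}, EE T z v ∧ T v = X → EE T z q ∧ T q = Xᶜ → En T X z v' →
      EE T z v' ∧ T v' = X := fun hv hq hv' =>
    ⟨hv'.ee (hX3 hv) (hv.1.arc_compl hv.2), hv'.1⟩
  have back' : ∀ {z v q v'}, EE T z v ∧ T v = X → EE T z q ∧ T q = Xᶜ → En T Xᶜ z v' →
      EE T z v' ∧ T v' = Xᶜ := fun hv hq hv' =>
    ⟨hv'.ee (ncard_compl_three (hX3 hv)) (hq.1.arc_compl hq.2), hv'.1⟩
  have h3 : ∀ {z v q}, EE T z v ∧ T v = X → EE T z q ∧ T q = Xᶜ → OkC U T z := fun hv hq =>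
    hK _ ⟨_, _, hv.1, hq.1, hc hv hq⟩
  have hcl : ∀ {z v q}, EE T z v ∧ T v = X → EE T z q ∧ T q = Xᶜ → ∀ m, dist m z = 1 →
      T m = X ∨ T m = Xᶜ → Cln T z m := by
    rintro z v q hv hq m hm (h5 | h5)
    · exact cln594 h hS hv.1 hq.1 (hc hv hq) hm (h5.trans hv.2.symm)
    · exact cln594 h hS hq.1 hv.1 (hc' hv hq) hm (h5.trans hq.2.symm)
  refine
    { dist_t := fun hv => hv.1.dist
      dist_c := fun hq => hq.1.dist
      ne := fun {z z' v} hv hq => ?_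
      rh := fun {z v q} hv hq => ⟨⟨rh471 h hS hv.1 hq.1 (hc hv hq), hv.2⟩,
        ⟨rh471' h hS hv.1 hq.1 (hc hv hq), hq.2⟩⟩
      three_t := ?_
      three_c := ?_
      sep := ?_
      L2 := ?_
      L3 := ?_
      L3' := ?_ }
  · have h5 := (hv.1.en hv.2).ne (hX3 hv) (hq.1.en hq.2)
    exact h5 rfl
  · rintro v z₁ z₂ z₃ z₄ ⟨a1, q1, b1⟩ ⟨a2, q2, b2⟩ ⟨a3, q3, b3⟩ ⟨a4, q4, b4⟩
    exact h.en_three (hX3 a1) ⟨a1.1.en a1.2, q1, b1.1.en b1.2⟩ ⟨a2.1.en a2.2, q2, b2.1.en b2.2⟩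
      ⟨a3.1.en a3.2, q3, b3.1.en b3.2⟩ ⟨a4.1.en a4.2, q4, b4.1.en b4.2⟩
  · rintro q z₁ z₂ z₃ z₄ ⟨a1, q1, b1⟩ ⟨a2, q2, b2⟩ ⟨a3, q3, b3⟩ ⟨a4, q4, b4⟩
    have e : ∀ {z v}, EE T z v ∧ T v = X → En T Xᶜᶜ z v := fun hv =>
      hv.1.en (by rw [compl_compl]; exact hv.2)
    exact h.en_three (X := Xᶜ) (ncard_compl_three (hX3' a1))
      ⟨a1.1.en a1.2, q1, e b1⟩ ⟨a2.1.en a2.2, q2, e b2⟩
      ⟨a3.1.en a3.2, q3, e b3⟩ ⟨a4.1.en a4.2, q4, e b4⟩
  · rintro z v₁ v₂ q₁ q₂ hv₁ hv₂ hq₁ hq₂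
    exact sep471 h hv₁.1 hv₂.1 hq₁.1 hq₂.1 (hv₂.2.trans hv₁.2.symm) (hc hv₁ hq₁) (hc hv₁ hq₂)
  · intro z v q hv hq
    rcases L2_ok h (hX3 hv) (h3 hv hq) (hv.1.pairs h hv.2) (hcl hv hq) (hv.1.en hv.2)
      (hq.1.en hq.2) with ⟨v', h5, h6⟩ | ⟨q', h5, h6⟩
    · exact Or.inl ⟨v', h5, back hv hq h6⟩
    · exact Or.inr ⟨q', h5, back' hv hq h6⟩
  · intro z v q q' hv hq hq' hne hu1 hu2
    exact L3_ok h (hX3 hv) (h3 hv hq) (hv.1.pairs h hv.2) (hcl hv hq) (hv.1.en hv.2)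
      (hq.1.en hq.2) (hq'.1.en hq'.2) hne (fun v' h5 => hu1 v' (back hv hq h5))
      (fun p h5 => hu2 p (back' hv hq h5))
  · intro z q v v' hq hv hv' hne hu1 hu2
    have e : ∀ {z v}, EE T z v ∧ T v = X → T v = Xᶜᶜ := fun hv => by
      rw [compl_compl]; exact hv.2
    refine L3_ok (X := Xᶜ) h (ncard_compl_three (hX3 hv)) (h3 hv hq) (hq.1.pairs h hq.2) ?_
      (hq.1.en hq.2) (hv.1.en (e hv)) (hv'.1.en (e hv')) hne
      (fun v' h5 => hu1 v' (back' hv hq h5))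
      (fun p h5 => hu2 p (back hv hq (by rw [compl_compl] at h5; exact h5)))
    intro m hm h5
    refine hcl hv hq m hm ?_
    rw [compl_compl] at h5
    exact h5.symm

/-- the network with palettes -/
theorem dnet594 (h : Irr U T) (hS : Sec4 T) (hK : ∀ z, Comp T z → OkC U T z)
    (hC : ∀ {w v q w' v' q' m}, EE T w v → EE T w q → T q = (T v)ᶜ → EE T w' v' → EE T w' q' →
      T q' = (T v')ᶜ → w ≠ w' → (∀ i, i ∈ T w ∨ i ∈ T w') → dist m w = 1 → dist m w' = 1 →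
      (T m).ncard ≤ 3) :
    DNet T (EE T) (AA T) (ore T) (inn U T) where
  net := net594 h hS hK
  card_z := fun hv => hv.card_z
  card_v := fun hv => hv.card_v
  card_i := fun hv => hv.card_i'
  cov := fun hv hq hc => cov471 h hS hv hq hc
  ori := fun {z v} _ => ore_or T z v
  inn_mem := fun hv => hv.inn_mem h
  LP1 := fun hv hq hc => lp1_471 h hS hv hq hc
  LP2 := fun hq hv hv' h1 h2 => hq.1.lp2 h hv.1 hv'.1 h1 h2
  LP3 := fun hv hq hc hv' hp hc' hcz hcw => lp3_471 h hS hv hq hc hv' hp hc' hcz hcw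
  arc_ex := by
    rintro z v ⟨hv, q, hq, hc⟩
    exact arc_ex_ok h (hK z ⟨v, q, hv, hq, hc⟩) hv hq hc
  arc_end := EE.fld_end
  arc_pair := EE.fld_pair
  arc_len := by
    rintro z v v' ⟨hv, q, hq, hc⟩ ⟨o, l, hl0, hl, hE, hE', e, -⟩
    refine ⟨l, hl0, hl, ?_⟩
    rw [← sgn594' h hS hv hq hc hE, e, add_sub_cancel_left, cis, Complex.ofReal_neg]
  arc_uniq := by
    rintro z v v' v'' ⟨hv, q, hq, hc⟩ ⟨o, l, hl0, hl, hE, hE', e, harc⟩
      ⟨o', l', hl0', hl', hE1, hE1', e', harc'⟩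
    have ho : o' = o := sgn594 h hS hv hq hc hE1 hE
    subst ho
    have hp := hE.2.2.2.2.1
    have h5 := AA.len_le hE' hl0 e harc' hp
    have h6 := AA.len_le hE1' hl0' e' harc hp
    rw [e, e', le_antisymm h6 h5]
  arc_symm := EE.fld_symm
  arc_ori := by
    rintro z v v' ⟨hv, q, hq, hc⟩ ⟨hv', q', hq', hc'⟩ ⟨o, l, -, -, hE, hE', -, -⟩
    rw [← sgn594' h hS hv hq hc hE, ← sgn594' h hS hv' hq' hc' hE']
  arc_inn := EE.fld_inn h
  auto := fun hv hq hc hm hTm => auto471 h hS hv hq hc hm hTm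
  common := fun e1 e2 e3 e1' e2' e3' hne hcv d d' n s s' =>
    e1.common h e3 e1' e3' hne hcv d d' n s s' (hC e1 e2 e3 e1' e2' e3' hne hcv d d')
  lemX := fun hu' hpu hpr ht hT => hu'.lemX h hpu hpr ht hT

/-- a clean circle is a tie word without special ends -/
theorem okC_of_clean (h3 : ∀ y, dist y z = 1 → (T y).ncard ≤ 3) : OkC U T z where
  word := fun _ _ _ _ _ _ C => C.rawT h3
  ends := fun _ _ _ y hy => h3 y (dist_of_closure hy)

/-- **no complementary ends**, if the circles of their centres are words without special ends, and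
the common points of two such circles have at most three colours -/
theorem no_comp_ok (h : Irr U T) (hS : Sec4 T) (hK : ∀ z, Comp T z → OkC U T z)
    (hC : ∀ w w' m, Comp T w → Comp T w' → w ≠ w' → (∀ i, i ∈ T w ∨ i ∈ T w') → dist m w = 1 →
      dist m w' = 1 → (T m).ncard ≤ 3) (z : ℂ) : ¬ Comp T z := by
  rintro ⟨v, q, hv, hq, hc⟩
  exact (dnet594 h hS hK fun e1 e2 e3 e4 e5 e6 e7 e8 e9 e10 => hC _ _ _ ⟨_, _, e1, e2, e3⟩
    ⟨_, _, e4, e5, e6⟩ e7 e8 e9 e10).false hv hq hc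

/-- **no complementary ends**, if the circles of their centres are clean -/
theorem no_comp_clean (h : Irr U T) (hS : Sec4 T)
    (hcl : ∀ z, Comp T z → ∀ y, dist y z = 1 → (T y).ncard ≤ 3) (z : ℂ) : ¬ Comp T z :=
  no_comp_ok h hS (fun w hw => okC_of_clean (hcl w hw))
    (fun w _ m hw _ _ _ hm _ => hcl w hw m hm) z

end Vale.Agent.P032.H594
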