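import Vale.Agent.P032.H594.JOldW
import Vale.Agent.P032.H594.NCTop
import Vale.Agent.P032.H946.JOf

/-!
# P032: no comp centre with two `J`-partners, from the old word

`jpair594` : the names of the pairs of a `J`-partner.
`noJ2_of_old` : if all comp centres with two `J`-partners have the old word (`OldW`), there are none
of them.
-/

open Set Filter Topology Metric

noncomputable section

namespace Vale.Agent.P032.H594

open Vale.Agent.P032.Six Vale.Agent.P032.S5.H450 Vale.Agent.P032.H471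
  Vale.Agent.P032.S5.H767 Vale.Agent.P032.H695

variable {U : Fin 6 → Set ℂ} {T : ℂ → Set (Fin 6)}

/-- the names of the pairs of a `J`-partner -/
theorem jpair594 (h : Irr U T) {M y : ℂ} {a b c d e f : Fin 6} (hz : DPt T M a b c d)
    (nd : [a, b, c, d, e, f].Nodup) (hTy : T y = T M) {φ : ℝ} (yz : y = pt M φ)
    (wz : ∀ v, dist v M = 1 → (T v).ncard ≤ 3 ∨ T v = T M)
    (wy : ∀ v, dist v y = 1 → (T v).ncard ≤ 3 ∨ T v = T y) :
    JPair U T M y a b c d e f ∨ JPair U T M y a b d c e f := by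
  have hd : dist y M = 1 := by rw [yz]; exact dist_pt M φ
  have nd' : [a, b, d, c, e, f].Nodup := by
    have := nd
    simp only [List.nodup_cons, List.mem_cons, List.not_mem_nil, or_false, not_or,
      List.nodup_nil, and_true, not_false_eq_true] at this ⊢
    obtain ⟨⟨ab, ac, ad, ae, af⟩, ⟨bc, bd, be, bf⟩, ⟨cd, ce, cf⟩, ⟨de, df⟩, ef⟩ := this
    exact ⟨⟨ab, ad, ac, ae, af⟩, ⟨bd, bc, be, bf⟩, ⟨Ne.symm cd, de, df⟩, ⟨ce, cf⟩, ef⟩
  obtain ⟨α, α', γ, γ', hα, hγ, hD, -⟩ := H946.germ946 h hz hTy yz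
  rcases hα with ⟨rfl, rfl⟩ | ⟨rfl, rfl⟩ <;> rcases hγ with ⟨rfl, rfl⟩ | ⟨rfl, rfl⟩
  · exact Or.inl ⟨h, hz, hD, nd, hd, wz, wy⟩
  · exact Or.inr ⟨h, hz.swap34, hD, nd', hd, wz, wy⟩
  · exact Or.inr ⟨h, hz.swap34, hD.swap, nd', hd, wz, wy⟩
  · exact Or.inl ⟨h, hz, hD.swap, nd, hd, wz, wy⟩

/-- different directions -/
theorem pt_ne594 {M : ℂ} {x x' : ℝ} (h1 : x < x') (h2 : x' - x ≤ 3) : pt M x ≠ pt M x' := by
  intro h0
  have hpi := Real.pi_pos
  have h3 : cis (x * (Real.pi / 3)) = cis (x' * (Real.pi / 3)) := by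
    rw [← pt_sub M x, ← pt_sub M x', h0]
  have e1 := congrArg Complex.re h3
  have e2 := congrArg Complex.im h3
  rw [H695.cis_re, H695.cis_re] at e1
  rw [H695.cis_im, H695.cis_im] at e2
  have h4 : Real.cos ((x' - x) * (Real.pi / 3)) = 1 := by
    rw [sub_mul, Real.cos_sub, e1, e2]
    linear_combination Real.sin_sq_add_cos_sq (x' * (Real.pi / 3))
  have h5 : Real.cos ((x' - x) * (Real.pi / 3)) < Real.cos 0 :=
    Real.cos_lt_cos_of_nonneg_of_le_pi le_rfl (by nlinarith)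
      (mul_pos (by linarith) (by positivity))
  rw [h4, Real.cos_zero] at h5
  exact lt_irrefl _ h5

/-- **no comp centre with two `J`-partners**, from the old word at all of them -/
theorem noJ2_of_old (h : Irr U T) (h5 : NoPair5 T) (hT : OnlyJT T) (hS : Sec4 T) (h1 : NoJ1 T)
    (h22 : ∀ {z v v' x x'}, EE T z v → EE T z v' → EE T z x → EE T z x' → T v' = T v →
      T x = (T v)ᶜ → T x' = (T v)ᶜ → v ≠ v' → x ≠ x' → False)
    (HO : ∀ z y y', Comp T z → Jp T z y → Jp T z y' → y ≠ y' →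
      ∃ φ a b c d e f s t u u' w m w', OldW T z φ a b c d e f s t u u' w m w') : NoJ2 T := by
  have hJC : OnlyJC T := hT.onlyJC h h5
  have w0 : ∀ {z : ℂ}, (∃ a b c d, DPt T z a b c d) → ∀ v, dist v z = 1 →
      (T v).ncard ≤ 3 ∨ T v = T z := fun hz v hv => hT.w0 h5 hz hv
  have jp : ∀ {z y : ℂ}, (∃ a b c d, DPt T z a b c d) → Jp T z y → H471.Jp T z y :=
    fun hz hy => ⟨hz, h.dpt_of_eq169 hz hy.1 hy.2, hy.1, hy.2⟩
  have jp' : ∀ {z y : ℂ}, H471.Jp T z y → Jp T z y := fun hy => ⟨hy.2.2.1, hy.2.2.2⟩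
  -- the old word at every comp centre with two `J`-partners
  have old : ∀ {z : ℂ}, H946.Two (H471.Jp T) z → Comp T z →
      ∃ φ a b c d e f s t u u' w m w', OldW T z φ a b c d e f s t u u' w m w' := by
    rintro z ⟨y, y', hne, hy, hy'⟩ hz
    exact HO z y y' hz (jp' hy) (jp' hy') hne
  have pair : ∀ {z : ℂ} {φ a b c d e f s t u u' w m w'},
      OldW T z φ a b c d e f s t u u' w m w' →
      ∃ a b c d e f, OldW T z φ a b c d e f s t u u' w m w' ∧
        JPair U T z (pt z φ) a b c d e f := by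
    intro z φ a b c d e f s t u u' w m w' O
    have hd := dist_pt z φ
    have h6 := w0 (z := z) ⟨_, _, _, _, O.hz⟩
    have h7 := w0 (z := pt z φ) (h.dpt_of_eq169 ⟨_, _, _, _, O.hz⟩ hd O.J)
    rcases jpair594 h O.hz O.nd O.J rfl h6 h7 with k | k
    · exact ⟨_, _, _, _, _, _, O, k⟩
    · exact ⟨_, _, _, _, _, _, O.swap, k⟩
  have N : H946.JNet T (EE T) (H471.Jp T) (Prs T) (ore T) (inn U T) := by
    refine jnet471 h hS ?_ ?_ ?_ ?_ ?_ ?_
    · rintro z m hz hm h4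
      have hD : ∃ a b c d, DPt T z a b c d := by
        rcases hz with hz | ⟨y, hy⟩
        · exact Comp.dpt h hz
        · exact hy.1
      rcases w0 hD m hm with k | k
      · omega
      · exact k
    · intro z y hz hy
      by_contra hcon
      refine h1 z y hz (jp' hy) fun y' hy' => ?_
      by_contra hne
      exact hcon ⟨y, y', Ne.symm hne, hy, jp hy.1 hy'⟩
    · intro z v h2 hz hv
      obtain ⟨φ, a, b, c, d, e, f, s, t, u, u', w, m, w', O⟩ := old h2 hz
      exact O.two_compl h hv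
    · intro z v q h2 hv hq hc
      obtain ⟨φ, a, b, c, d, e, f, s, t, u, u', w, m, w', O⟩ := old h2 ⟨v, q, hv, hq, hc⟩
      exact O.two_ori h hv hq hc
    · intro z v q h2 hv hq hc
      obtain ⟨φ, a, b, c, d, e, f, s, t, u, u', w, m, w', O⟩ := old h2 ⟨v, q, hv, hq, hc⟩
      obtain ⟨a, b, c, d, e, f, O, S⟩ := pair O
      exact O.two_dist h S hv hq hc
    · intro z v v' q h2 hv hv' hTT hne hq hc
      obtain ⟨φ, a, b, c, d, e, f, s, t, u, u', w, m, w', O⟩ := old h2 ⟨v, q, hv, hq, hc⟩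
      obtain ⟨a, b, c, d, e, f, O, S⟩ := pair O
      exact O.two_cone h hS hJC S hv hv' hTT hne hq hc
  intro z y y' hz hy hy' hne
  obtain ⟨φ, a, b, c, d, e, f, s, t, u, u', w, m, w', O⟩ := HO z y y' hz hy hy' hne
  have hD : ∃ a b c d, DPt T z a b c d := ⟨_, _, _, _, O.hz⟩
  obtain ⟨k0, k1, k2, -⟩ := O.ends h
  have nd' : [a, b, c, d, f, e].Nodup := by
    have := O.nd
    simp only [List.nodup_cons, List.mem_cons, List.not_mem_nil, or_false, not_or,
      List.nodup_nil, and_true, not_false_eq_true] at this ⊢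
    obtain ⟨⟨ab, ac, ad, ae, af⟩, ⟨bc, bd, be, bf⟩, ⟨cd, ce, cf⟩, ⟨de, df⟩, ef⟩ := this
    exact ⟨⟨ab, ac, ad, af, ae⟩, ⟨bc, bd, bf, be⟩, ⟨cd, cf, ce⟩, ⟨df, de⟩, Ne.symm ef⟩
  have hJ0 : Jp T z (pt z φ) := ⟨dist_pt z φ, O.J⟩
  have S : H946.JSd U T z (pt z φ) a b c d f e φ s t := by
    refine ⟨nd', O.hz, jp hD hJ0, rfl, O.s0, O.s1.le, O.t0, O.t1.le, fun x hx => ?_,
      fun x hx => ?_, O.e0, O.e0'⟩
    · have := O.A0 (x - φ) (by linarith [hx.1]) (by linarith [hx.2])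
      rwa [show φ + (x - φ) = x by ring] at this
    · have := O.C0 (x - φ) (by linarith [hx.1]) (by linarith [hx.2])
      rwa [show φ + (x - φ) = x by ring] at this
  have u0 := O.u0
  have s0 := O.s0
  have s1 := O.s1
  have h3 : u + s ≤ 3 := by
    obtain ⟨a, b, c, d, e, f, O', S'⟩ := pair O
    exact (O'.pos S').2.2.1
  have hA := S.post h ⟨y, y', hne, jp hD hy, jp hD hy'⟩ k2.1 O.e1
    (pt_ne594 (show φ - s < φ + u by linarith) (by linarith)).symm
  exact H946.jarc_dead h hS N hA fun h1 h2 h3 h4 h5 h6 h7 h8 h9 => h22 h1 h2 h3 h4 h5 h6 h7 h8 h9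

end Vale.Agent.P032.H594
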