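import Vale.Agent.P032.H383.Letters
import Vale.Agent.P032.S5.H824.Two

/-!
# P032: the sign function of two `J`-partners

`z`, `y` two-pair points at distance one with the pairs `ab | cd` and `ac | bd` (so `T z = T y`), free
colours `e, f`; on both circles all points have at most three colours or the palette of the centre.
Angles in units of 60 degrees, the point of the direction `t` of `S(z)` is `pt z t`.

* `Zd`, `Yd` : the (closed) sets of directions of the exact arcs of `S(z)`, `S(y)`;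
* `Pd` : closure of the generic directions with `z_t = e` or `y_t = f`, `Nd` : the same with `e, f`
  exchanged;
* `JPair.cov`, `s1`, `s1'`, `s2`, `s3`, periods : the sign rules of 815 (#16056).
* `JPair.not_N`, ... : reading lemmas.
-/

open Set Filter Topology Metric

noncomputable section

namespace Vale.Agent.P032.H594

open Vale.Agent.P032.Six Vale.Agent.P032.S5.H767 Vale.Agent.P032.S5.H122 Vale.Agent.P032.Sweep

variable {U : Fin 6 → Set ℂ} {T : ℂ → Set (Fin 6)} {z y : ℂ} {a b c d e f : Fin 6}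

/-! ### General facts -/

/-- the exact arcs in the angle coordinate -/
theorem ex_Lc {v : ℝ} {P : Set (Fin 6)} (h : pt z v ∈ Ex T z P) :
    v ∈ Lc T z ∧ T (pt z v) = P := by
  have h1 := ex_self h
  refine ⟨?_, h1⟩
  have h2 := ev_pt z h.2
  show ∀ᶠ w in 𝓝 v, T (pt z w) = T (pt z v)
  rw [h1]
  exact h2

/-- the closure of the exact arcs in the angle coordinate -/
theorem freq_Ex {t : ℝ} {P : Set (Fin 6)} (h : pt z t ∈ closure (Ex T z P)) :
    ∃ᶠ v in 𝓝 t, v ∈ Lc T z ∧ T (pt z v) = P := by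
  intro hcon
  have h1 : ∀ᶠ v in 𝓝 t, pt z v ∉ Ex T z P := hcon.mono fun v hv hE => hv (ex_Lc hE)
  have h2 := ev_circle z (p := fun q => q ∉ Ex T z P) h1
  obtain ⟨V, hV, hVs⟩ := mem_nhdsWithin_iff_exists_mem_nhds_inter.1 h2
  obtain ⟨q, hqV, hqE⟩ := mem_closure_iff_nhds.1 h V hV
  exact hVs ⟨hqV, hqE.1⟩ hqE

/-- at an angle of constant palette, the closure of the exact arcs is read from the palette -/
theorem of_cl_Ex {t : ℝ} {P : Set (Fin 6)} (ht : t ∈ Lc T z) (h : pt z t ∈ closure (Ex T z P)) :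
    T (pt z t) = P := by
  have ht : ∀ᶠ v in 𝓝 t, T (pt z v) = T (pt z t) := ht
  obtain ⟨v, hv, hv'⟩ := ((freq_Ex h).and_eventually ht).exists
  rw [← hv', hv.2]

/-- **two common colours at distance one**, one of them a free colour of two centres with the same
palette around the rhombus -/
theorem two_com (h : Irr U T) (hTT : T y = T z) {p q : ℂ} (hpz : dist p z = 1)
    (hqy : dist q y = 1) (hpq : dist p q = 1) (h3 : (T p).ncard ≤ 3) (h3' : (T q).ncard ≤ 3)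
    (h4 : 4 ≤ (T z).ncard) (hpar : z + q = y + p)
    (hef : ∀ i, i ∉ T z → i = e ∨ i = f) {s t : Fin 6} (hst : s ≠ t) (hs : s ∈ T p) (ht : t ∈ T p)
    (hs' : s ∈ T q) (ht' : t ∈ T q) (hsz : s ∉ T z) : False := by
  have hqp : dist q p = 1 := by rw [dist_comm]; exact hpq
  have k1 : z ≠ q := fun k => by rw [k] at h4; omega
  have k2 : z + q ≠ 2 * p := fun k => by
    have : y = p := by linear_combination k - hpar
    rw [← this, hTT] at h3; omega
  have k3 : y ≠ p := fun k => by rw [← k, hTT] at h3; omega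
  have k4 : y + p ≠ 2 * q := fun k => by
    have : z = q := by linear_combination k + hpar
    exact k1 this
  have key : ∀ {p q z : ℂ} {s t : Fin 6}, dist p z = 1 → dist p q = 1 → (T p).ncard ≤ 3 →
      (T q).ncard ≤ 3 → z ≠ q → z + q ≠ 2 * p → s ≠ t → s ∈ T p → t ∈ T p → s ∈ T q → t ∈ T q →
      ∃ x, x ∉ T z ∧ x ∈ T p ∧ x ∉ T q ∧ x ≠ s := by
    intro p q z s t hpz hpq h3 h3' k1 k2 hst hs ht hs' ht'
    obtain ⟨x, hx, hx'⟩ := h.not_sub' hpq h3'
    have hxs : x ≠ s := fun h1 => hx' (h1 ▸ hs')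
    have hxt : x ≠ t := fun h1 => hx' (h1 ▸ ht')
    have h1 : ({s, t, x} : Set (Fin 6)) ⊆ T p := by
      rintro m (rfl | rfl | rfl)
      · exact hs
      · exact ht
      · exact hx
    have h2 : ({s, t, x} : Set (Fin 6)).ncard = 3 :=
      Set.ncard_eq_three.2 ⟨s, t, x, hst, hxs.symm, hxt.symm, rfl⟩
    have h4 : {s, t, x} = T p := Set.eq_of_subset_of_ncard_le h1 (by omega) (Set.toFinite _)
    have hsub : T p ⊆ insert x (T q) := by
      rw [← h4]
      rintro m (rfl | rfl | rfl)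
      · exact Or.inr hs'
      · exact Or.inr ht'
      · exact Or.inl rfl
    refine ⟨x, fun hxz => ?_, hx, hx', hxs⟩
    rcases h.lemmaX hpq h3' hsub hpz (h.sub z hxz) with h7 | h7
    · exact k1 h7
    · exact k2 h7
  obtain ⟨x, hx1, hx2, hx3, hx4⟩ := key hpz hpq h3 h3' k1 k2 hst hs ht hs' ht'
  obtain ⟨w, hw1, hw2, hw3, hw4⟩ := key hqy hqp h3' h3 k3 k4 hst hs' ht' hs ht
  rw [hTT] at hw1
  have hxw : x ≠ w := fun k => hx3 (k ▸ hw2)
  rcases hef x hx1 with k | k <;> rcases hef w hw1 with k' | k' <;> rcases hef s hsz with k'' | k''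
  all_goals first
    | exact hxw (k.trans k'.symm)
    | exact hx4 (k.trans k''.symm)
    | exact hw4 (k'.trans k''.symm)

/-! ### The pair -/

/-- two `J`-partners -/
structure JPair (U : Fin 6 → Set ℂ) (T : ℂ → Set (Fin 6)) (z y : ℂ) (a b c d e f : Fin 6) :
    Prop where
  irr : Irr U T
  hz : DPt T z a b c d
  hy : DPt T y a c b d
  nd : [a, b, c, d, e, f].Nodup
  dyz : dist y z = 1
  wz : ∀ v, dist v z = 1 → (T v).ncard ≤ 3 ∨ T v = T z
  wy : ∀ v, dist v y = 1 → (T v).ncard ≤ 3 ∨ T v = T y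

/-- the directions of the exact arcs of the pairs `P`, `Q` -/
def Ad (T : ℂ → Set (Fin 6)) (z : ℂ) (P Q : Set (Fin 6)) : Set ℝ :=
  {t | pt z t ∈ closure (Ex T z P) ∨ pt z t ∈ closure (Ex T z Q)}

/-- the generic directions with `e` on `S(z)` or `f` on `S(y)` -/
def Gd (T : ℂ → Set (Fin 6)) (z y : ℂ) (e f : Fin 6) : Set ℝ :=
  {t | (t ∈ Lc T z ∧ t ∈ Lc T y) ∧ (e ∈ T (pt z t) ∨ f ∈ T (pt y t))}

/-- the sign `+` for `e, f`, the sign `-` for `f, e` -/
def Sd (T : ℂ → Set (Fin 6)) (z y : ℂ) (e f : Fin 6) : Set ℝ := closure (Gd T z y e f)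

theorem Sd_swap (e f : Fin 6) : Sd T y z e f = Sd T z y f e := by
  unfold Sd Gd
  congr 1
  ext t
  simp only [mem_ofPred_eq]
  tauto

theorem Ad_swap (P Q : Set (Fin 6)) : Ad T z Q P = Ad T z P Q := by
  unfold Ad; ext t; exact or_comm

theorem Ad_closed (P Q : Set (Fin 6)) : IsClosed (Ad T z P Q) :=
  (isClosed_closure.preimage (continuous_pt z)).union (isClosed_closure.preimage (continuous_pt z))

theorem Ad_per (P Q : Set (Fin 6)) (t : ℝ) : t + 6 ∈ Ad T z P Q ↔ t ∈ Ad T z P Q := by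
  show (pt z (t + 6) ∈ _ ∨ pt z (t + 6) ∈ _) ↔ _
  rw [pt_six]; rfl

theorem Gd_open (e f : Fin 6) : IsOpen (Gd T z y e f) := by
  rw [isOpen_iff_mem_nhds]
  rintro t ⟨⟨h1, h2⟩, h3⟩
  have k1 : ∀ᶠ v in 𝓝 t, T (pt z v) = T (pt z t) := h1
  have k2 : ∀ᶠ v in 𝓝 t, T (pt y v) = T (pt y t) := h2
  filter_upwards [(Lc_open z).mem_nhds h1, (Lc_open y).mem_nhds h2, k1, k2] with v j1 j2 j3 j4
  exact ⟨⟨j1, j2⟩, by rw [j3, j4]; exact h3⟩

theorem Gd_per (e f : Fin 6) (t : ℝ) : t + 6 ∈ Gd T z y e f ↔ t ∈ Gd T z y e f := by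
  unfold Gd
  simp only [mem_ofPred_eq, pt_six, Lc_per]

theorem Sd_per (e f : Fin 6) (t : ℝ) : t + 6 ∈ Sd T z y e f ↔ t ∈ Sd T z y e f := by
  have hpre : (fun v : ℝ => v + 6) ⁻¹' (Gd T z y e f) = Gd T z y e f := by
    ext v; exact Gd_per e f v
  have h1 := (Homeomorph.addRight (6 : ℝ)).preimage_closure (Gd T z y e f)
  have h2 : (⇑(Homeomorph.addRight (6 : ℝ))) = fun v : ℝ => v + 6 := rfl
  rw [h2, hpre] at h1
  unfold Sd
  conv_rhs => rw [← h1]
  exact Iff.rfl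

namespace JPair

theorem swap (S : JPair U T z y a b c d e f) : JPair U T y z a c b d e f where
  irr := S.irr
  hz := S.hy
  hy := S.hz
  nd := by
    have hn := S.nd
    simp only [List.nodup_cons, List.mem_cons, List.not_mem_nil, or_false, not_or, List.nodup_nil,
      and_true, not_false_eq_true] at hn ⊢
    obtain ⟨⟨ab, ac, ad, ae, af⟩, ⟨bc, bd, be, bf⟩, ⟨cd, ce, cf⟩, ⟨de, df⟩, ef⟩ := hn
    exact ⟨⟨ac, ab, ad, ae, af⟩, ⟨Ne.symm bc, cd, ce, cf⟩, ⟨bd, be, bf⟩, ⟨de, df⟩, ef⟩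
  dyz := by rw [dist_comm]; exact S.dyz
  wz := S.wy
  wy := S.wz

theorem ctr (S : JPair U T z y a b c d e f) : Ctr U T z a b c d e f where
  irr := S.irr
  pal := S.hz.pal
  nd := S.nd
  pairs := fun y hy hloc hsub => S.irr.twoPairs S.hz y hy hloc hsub

/-- exchange of the free colours -/
theorem efs (S : JPair U T z y a b c d e f) : JPair U T z y a b c d f e where
  irr := S.irr
  hz := S.hz
  hy := S.hy
  nd := by
    have hn := S.nd
    simp only [List.nodup_cons, List.mem_cons, List.not_mem_nil, or_false, not_or, List.nodup_nil,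
      and_true, not_false_eq_true] at hn ⊢
    obtain ⟨⟨ab, ac, ad, ae, af⟩, ⟨bc, bd, be, bf⟩, ⟨cd, ce, cf⟩, ⟨de, df⟩, ef⟩ := hn
    exact ⟨⟨ab, ac, ad, af, ae⟩, ⟨bc, bd, bf, be⟩, ⟨cd, cf, ce⟩, ⟨df, de⟩, Ne.symm ef⟩
  dyz := S.dyz
  wz := S.wz
  wy := S.wy

theorem Tyz (S : JPair U T z y a b c d e f) : T y = T z := by
  rw [S.hy.pal, S.hz.pal]
  ext i
  simp only [mem_insert_iff, mem_singleton_iff]
  tauto

theorem four (S : JPair U T z y a b c d e f) : 4 ≤ (T z).ncard := by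
  have hn := S.nd
  refine four_le (p := a) (q := b) (r := c) (t := d) ?_ ?_ ?_ ?_ ?_
  · rw [S.hz.pal]; simp
  · rw [S.hz.pal]; simp
  · rw [S.hz.pal]; simp
  · rw [S.hz.pal]; simp
  · simp only [List.nodup_cons, List.mem_cons, List.not_mem_nil, or_false, not_or, List.nodup_nil,
      and_true, not_false_eq_true] at hn ⊢
    tauto

theorem e_not (S : JPair U T z y a b c d e f) : e ∉ T z := by
  have hn := S.nd
  simp only [List.nodup_cons, List.mem_cons, List.not_mem_nil, or_false, not_or, List.nodup_nil,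
    and_true, not_false_eq_true] at hn
  obtain ⟨⟨ab, ac, ad, ae, af⟩, ⟨bc, bd, be, bf⟩, ⟨cd, ce, cf⟩, ⟨de, df⟩, ef⟩ := hn
  rw [S.hz.pal]
  simp only [mem_insert_iff, mem_singleton_iff, not_or]
  exact ⟨Ne.symm ae, Ne.symm be, Ne.symm ce, Ne.symm de⟩

theorem f_not (S : JPair U T z y a b c d e f) : f ∉ T z := S.efs.e_not

theorem e_ne_f (S : JPair U T z y a b c d e f) : e ≠ f := by
  have hn := S.nd
  simp only [List.nodup_cons, List.mem_cons, List.not_mem_nil, or_false, not_or, List.nodup_nil,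
    and_true, not_false_eq_true] at hn
  exact hn.2.2.2.2

theorem miss (S : JPair U T z y a b c d e f) (i : Fin 6) (hi : i ∉ T z) : i = e ∨ i = f :=
  S.ctr.miss hi

/-- the pairs of the two centres meet -/
theorem meet (_ : JPair U T z y a b c d e f) {P Q : Set (Fin 6)} (hP : P = {a, b} ∨ P = {c, d})
    (hQ : Q = {a, c} ∨ Q = {b, d}) : ∃ i, i ∈ P ∧ i ∈ Q := by
  rcases hP with rfl | rfl <;> rcases hQ with rfl | rfl
  · exact ⟨a, by simp, by simp⟩
  · exact ⟨b, by simp, by simp⟩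
  · exact ⟨c, by simp, by simp⟩
  · exact ⟨d, by simp, by simp⟩

/-- the letter at an angle of constant palette -/
theorem letter (S : JPair U T z y a b c d e f) {t : ℝ} (ht : t ∈ Lc T z) :
    e ∈ T (pt z t) ∨ f ∈ T (pt z t) ∨ T (pt z t) = {a, b} ∨ T (pt z t) = {c, d} := by
  by_cases he : e ∈ T (pt z t)
  · exact Or.inl he
  by_cases hf : f ∈ T (pt z t)
  · exact Or.inr (Or.inl hf)
  have hsub : T (pt z t) ⊆ T z := by
    intro i hi
    by_contra hcon
    rcases S.miss i hcon with rfl | rfl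
    · exact he hi
    · exact hf hi
  exact Or.inr (Or.inr (S.ctr.pairs (pt z t) (dist_pt z t) (Lc_circle ht) hsub))

theorem mem_Ad {P Q : Set (Fin 6)} {t : ℝ} (ht : t ∈ Lc T z)
    (h : T (pt z t) = P ∨ T (pt z t) = Q) : t ∈ Ad T z P Q := by
  rcases h with h | h
  · left; apply subset_closure; rw [← h]; exact Lc_Ex ht
  · right; apply subset_closure; rw [← h]; exact Lc_Ex ht

theorem of_Ad {P Q : Set (Fin 6)} {t : ℝ} (ht : t ∈ Lc T z) (h : t ∈ Ad T z P Q) :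
    T (pt z t) = P ∨ T (pt z t) = Q := by
  rcases h with h | h
  · exact Or.inl (of_cl_Ex ht h)
  · exact Or.inr (of_cl_Ex ht h)

/-- off the arcs there is a free letter -/
theorem single (S : JPair U T z y a b c d e f) {t : ℝ} (ht : t ∈ Lc T z)
    (h : t ∉ Ad T z {a, b} {c, d}) : e ∈ T (pt z t) ∨ f ∈ T (pt z t) := by
  rcases S.letter ht with k | k | k
  · exact Or.inl k
  · exact Or.inr k
  · exact absurd (mem_Ad ht k) h

theorem dist_pq (S : JPair U T z y a b c d e f) (t : ℝ) : dist (pt z t) (pt y t) = 1 := by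
  have := S.dyz
  unfold pt
  rw [dist_add_right, dist_comm]; exact this

/-- **product rule** -/
theorem prod (S : JPair U T z y a b c d e f) {t : ℝ} (ht : t ∈ Lc T z) (ht' : t ∈ Lc T y) :
    Disjoint (T (pt z t)) (T (pt y t)) := by
  have gen : ∀ {w : ℂ}, t ∈ Lc T w → T w = T z → T (pt w t) ≠ T w := by
    intro w hw _ hT
    have := (two_out S.irr hw hT.subset).2
    rw [hT, sdiff_self] at this
    simp at this
  refine dj_prod S.irr (by rw [dist_comm]; exact S.dyz) ht ?_ ?_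
  · intro k
    exact gen ht rfl (by rw [k, S.Tyz])
  · intro k
    rw [pt_three] at k
    have k' : pt y t = z := by
      unfold pt at k ⊢
      linear_combination -k
    exact gen ht' S.Tyz (by rw [k', S.Tyz])

/-- not both circles show a pair -/
theorem not_both (S : JPair U T z y a b c d e f) {t : ℝ} (ht : t ∈ Lc T z) (ht' : t ∈ Lc T y)
    (h : T (pt z t) = {a, b} ∨ T (pt z t) = {c, d})
    (h' : T (pt y t) = {a, c} ∨ T (pt y t) = {b, d}) : False := by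
  obtain ⟨i, h1, h2⟩ := S.meet h h'
  exact Set.disjoint_left.1 (S.prod ht ht') h1 h2

theorem dense_G (S : JPair U T z y a b c d e f) : Dense {t : ℝ | t ∈ Lc T z ∧ t ∈ Lc T y} :=
  (Lc_dense S.irr z).inter_of_isOpen_right (Lc_dense S.irr y) (Lc_open y)

theorem open_G (z y : ℂ) : IsOpen {t : ℝ | t ∈ Lc T z ∧ t ∈ Lc T y} :=
  (Lc_open z).inter (Lc_open y)

/-- every generic direction has a sign -/
theorem sgn (S : JPair U T z y a b c d e f) {t : ℝ} (ht : t ∈ Lc T z) (ht' : t ∈ Lc T y) :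
    t ∈ Gd T z y e f ∨ t ∈ Gd T z y f e := by
  rcases S.letter ht with k | k | k
  · exact Or.inl ⟨⟨ht, ht'⟩, Or.inl k⟩
  · exact Or.inr ⟨⟨ht, ht'⟩, Or.inl k⟩
  rcases S.swap.letter ht' with k' | k' | k'
  · exact Or.inr ⟨⟨ht, ht'⟩, Or.inr k'⟩
  · exact Or.inl ⟨⟨ht, ht'⟩, Or.inr k'⟩
  · exact (S.not_both ht ht' k k').elim

/-- **cover** -/
theorem cov (S : JPair U T z y a b c d e f) : Sd T z y e f ∪ Sd T z y f e = univ := by
  have h1 : IsClosed (Sd T z y e f ∪ Sd T z y f e) := isClosed_closure.union isClosed_closure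
  rw [← h1.closure_eq]
  refine (S.dense_G.mono fun t ht => ?_).closure_eq
  rcases S.sgn ht.1 ht.2 with k | k
  · exact Or.inl (subset_closure k)
  · exact Or.inr (subset_closure k)

/-- a point of `interior` and a frequent property at generic points -/
theorem s1_aux (S : JPair U T z y a b c d e f) {t : ℝ} (ht : t ∈ Ad T y {a, c} {b, d}) :
    t ∉ interior (Ad T z {a, b} {c, d}) := by
  intro hint
  have hN := isOpen_interior.mem_nhds hint
  have key : ∀ P : Set (Fin 6), (P = {a, c} ∨ P = {b, d}) → pt y t ∈ closure (Ex T y P) →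
      False := by
    intro P hP h
    obtain ⟨v, hv, hvI⟩ := ((freq_Ex h).and_eventually hN).exists
    have h1 : ∀ᶠ w in 𝓝 v, T (pt y w) = T (pt y v) := hv.1
    have hall : ∀ᶠ w in 𝓝 v, T (pt y w) = T (pt y v) ∧ w ∈ interior (Ad T z {a, b} {c, d}) ∧
        w ∈ Lc T y := by
      filter_upwards [h1, isOpen_interior.mem_nhds hvI, (Lc_open y).mem_nhds hv.1] with w k1 k2 k3
      exact ⟨k1, k2, k3⟩
    obtain ⟨W, hW, hWo, hvW⟩ := _root_.mem_nhds_iff.1 hall
    obtain ⟨w, hwW, hw⟩ := (Lc_dense S.irr z).inter_open_nonempty W hWo ⟨v, hvW⟩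
    obtain ⟨k1, k2, k3⟩ := hW hwW
    refine S.not_both hw k3 (of_Ad hw (interior_subset k2)) ?_
    rw [k1, hv.2]; exact hP
  rcases ht with h | h
  · exact key _ (Or.inl rfl) h
  · exact key _ (Or.inr rfl) h

/-- **(S1)** -/
theorem s1 (S : JPair U T z y a b c d e f) {t : ℝ} (ht : t ∈ Ad T y {a, c} {b, d}) :
    t ∉ interior (Ad T z {a, b} {c, d}) := S.s1_aux ht

theorem s1' (S : JPair U T z y a b c d e f) {t : ℝ} (ht : t ∈ Ad T z {a, b} {c, d}) :
    t ∉ interior (Ad T y {a, c} {b, d}) := S.swap.s1_aux ht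

/-- the rule at one generic direction -/
theorem step (S : JPair U T z y a b c d e f) {s : ℝ} (h1 : s ∈ Lc T z) (h2 : s ∈ Lc T y)
    (h3 : s + 1 ∈ Lc T z) (h4 : s + 1 ∈ Lc T y)
    (hA : s ∉ Ad T z {a, b} {c, d} ∨ s + 1 ∉ Ad T y {a, c} {b, d})
    (hB : s ∉ Ad T y {a, c} {b, d} ∨ s + 1 ∉ Ad T z {a, b} {c, d}) :
    s ∈ Gd T z y e f ↔ s + 1 ∈ Gd T z y f e := by
  have z6 := dj_sixty S.irr h1
  have y6 := dj_sixty S.irr h2
  have p0 := S.prod h1 h2
  have p1 := S.prod h3 h4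
  have c0 := S.sgn h1 h2
  have c1 := S.sgn h3 h4
  rw [Set.disjoint_left] at z6 y6 p0 p1
  have ze := @z6 e
  have zf := @z6 f
  have ye := @y6 e
  have yf := @y6 f
  have p0e := @p0 e
  have p0f := @p0 f
  have p1e := @p1 e
  have p1f := @p1 f
  have hA' : (e ∈ T (pt z s) ∨ f ∈ T (pt z s)) ∨ (e ∈ T (pt y (s + 1)) ∨ f ∈ T (pt y (s + 1))) := by
    rcases hA with k | k
    · exact Or.inl (S.single h1 k)
    · exact Or.inr (S.swap.single h4 k)
  have hB' : (e ∈ T (pt y s) ∨ f ∈ T (pt y s)) ∨ (e ∈ T (pt z (s + 1)) ∨ f ∈ T (pt z (s + 1))) := by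
    rcases hB with k | k
    · exact Or.inl (S.swap.single h2 k)
    · exact Or.inr (S.single h3 k)
  unfold Gd at c0 c1 ⊢
  simp only [mem_ofPred_eq, h1, h2, h3, h4, true_and] at c0 c1 ⊢
  clear hA hB z6 y6 p0 p1
  grind

/-- **(S2)**, one half -/
theorem s2_aux (S : JPair U T z y a b c d e f) {t : ℝ}
    (hA : t ∉ Ad T z {a, b} {c, d} ∨ t + 1 ∉ Ad T y {a, c} {b, d})
    (hB : t ∉ Ad T y {a, c} {b, d} ∨ t + 1 ∉ Ad T z {a, b} {c, d}) :
    t ∈ Sd T z y e f ↔ t + 1 ∈ Sd T z y f e := by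
  have hc1 : Continuous fun s : ℝ => s + 1 := by fun_prop
  have hA' : ∀ᶠ s in 𝓝 t, s ∉ Ad T z {a, b} {c, d} ∨ s + 1 ∉ Ad T y {a, c} {b, d} := by
    rcases hA with k | k
    · filter_upwards [(Ad_closed _ _).isOpen_compl.mem_nhds k] with s hs
      exact Or.inl hs
    · filter_upwards [((Ad_closed _ _).isOpen_compl.preimage hc1).mem_nhds k] with s hs
      exact Or.inr hs
  have hB' : ∀ᶠ s in 𝓝 t, s ∉ Ad T y {a, c} {b, d} ∨ s + 1 ∉ Ad T z {a, b} {c, d} := by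
    rcases hB with k | k
    · filter_upwards [(Ad_closed _ _).isOpen_compl.mem_nhds k] with s hs
      exact Or.inl hs
    · filter_upwards [((Ad_closed _ _).isOpen_compl.preimage hc1).mem_nhds k] with s hs
      exact Or.inr hs
  have hD1 : Dense {s : ℝ | s + 1 ∈ Lc T z ∧ s + 1 ∈ Lc T y} :=
    S.dense_G.preimage (Homeomorph.addRight (1 : ℝ)).isOpenMap
  constructor
  · intro h
    unfold Sd
    rw [mem_closure_iff_nhds]
    intro W hW
    have hW' : ∀ᶠ s in 𝓝 t, s + 1 ∈ W := hc1.continuousAt.eventually hW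
    obtain ⟨O, hO, hOo, htO⟩ := _root_.mem_nhds_iff.1 (hA'.and (hB'.and hW'))
    obtain ⟨v, hvO, hvG⟩ := mem_closure_iff_nhds.1 h O (hOo.mem_nhds htO)
    obtain ⟨s, ⟨hsO, hsG⟩, hs1⟩ := hD1.inter_open_nonempty _ (hOo.inter (Gd_open e f)) ⟨v, hvO, hvG⟩
    obtain ⟨k1, k2, k3⟩ := hO hsO
    exact ⟨s + 1, k3, (S.step hsG.1.1 hsG.1.2 hs1.1 hs1.2 k1 k2).1 hsG⟩
  · intro h
    unfold Sd
    rw [mem_closure_iff_nhds]
    intro W hW
    obtain ⟨O, hO, hOo, htO⟩ := _root_.mem_nhds_iff.1 (hA'.and (hB'.and hW))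
    have hO1 : IsOpen {v : ℝ | v - 1 ∈ O} := hOo.preimage (by fun_prop)
    obtain ⟨v, hvO, hvG⟩ := mem_closure_iff_nhds.1 h {v : ℝ | v - 1 ∈ O}
      (hO1.mem_nhds (by show t + 1 - 1 ∈ O; rw [add_sub_cancel_right]; exact htO))
    have hopen : IsOpen {s : ℝ | s ∈ O ∧ s + 1 ∈ Gd T z y f e} :=
      hOo.inter ((Gd_open f e).preimage hc1)
    obtain ⟨s, ⟨hsO, hsG⟩, hs1⟩ := S.dense_G.inter_open_nonempty _ hopen
      ⟨v - 1, hvO, by show v - 1 + 1 ∈ _; rw [sub_add_cancel]; exact hvG⟩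
    obtain ⟨k1, k2, k3⟩ := hO hsO
    exact ⟨s, k3, (S.step hs1.1 hs1.2 hsG.1.1 hsG.1.2 k1 k2).2 hsG⟩

/-- **(S2)** -/
theorem s2 (S : JPair U T z y a b c d e f) {t : ℝ}
    (hA : t ∉ Ad T z {a, b} {c, d} ∨ t + 1 ∉ Ad T y {a, c} {b, d})
    (hB : t ∉ Ad T y {a, c} {b, d} ∨ t + 1 ∉ Ad T z {a, b} {c, d}) :
    (t ∈ Sd T z y e f ↔ t + 1 ∈ Sd T z y f e) ∧ (t ∈ Sd T z y f e ↔ t + 1 ∈ Sd T z y e f) :=
  ⟨S.s2_aux hA hB, S.efs.s2_aux hA hB⟩

/-- a colour which is frequent near an angle is a colour of the point -/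
theorem mem_of_freq (S : JPair U T z y a b c d e f) {w : ℂ} {i : Fin 6} {t : ℝ} {p : ℝ → Prop}
    (h : ∃ᶠ s in 𝓝 t, p s ∧ i ∈ T (pt w s)) : i ∈ T (pt w t) := by
  have h1 : IsClosed {s : ℝ | i ∈ T (pt w s)} := (S.irr.closed i).preimage (continuous_pt w)
  exact h1.closure_subset (mem_closure_iff_frequently.2 (h.mono fun s hs => hs.2))

theorem mem_Ad_of_freq {w : ℂ} {P Q : Set (Fin 6)} {t : ℝ}
    (h : ∃ᶠ s in 𝓝 t, s ∈ Ad T w P Q) : t ∈ Ad T w P Q :=
  (Ad_closed P Q).closure_subset (mem_closure_iff_frequently.2 h)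

theorem ev_not_Ad {w : ℂ} {P Q : Set (Fin 6)} {t : ℝ} (h : t ∉ Ad T w P Q) :
    ∀ᶠ s in 𝓝 t, s ∉ Ad T w P Q := (Ad_closed P Q).isOpen_compl.mem_nhds h

/-- a point with a free colour has at most three colours -/
theorem three_of (S : JPair U T z y a b c d e f) {v : ℂ} (hv : dist v z = 1) (he : e ∈ T v) :
    (T v).ncard ≤ 3 := by
  rcases S.wz v hv with k | k
  · exact k
  · exact absurd (k ▸ he) S.e_not

/-- the neighbours of an `e|f` change are on exact arcs -/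
theorem nb_mem (S : JPair U T z y a b c d e f) {t t' : ℝ} (he : e ∈ T (pt z t))
    (hf : f ∈ T (pt z t)) (hd : dist (pt z t) (pt z t') = 1) : t' ∈ Ad T z {a, b} {c, d} := by
  have C := S.ctr
  have hy := dist_pt z t
  have hy' := dist_pt z t'
  have h3 := S.three_of hy he
  by_contra hcon
  have hcon : ¬ (pt z t' ∈ closure (Ex T z {a, b}) ∨ pt z t' ∈ closure (Ex T z {c, d})) := hcon
  push Not at hcon
  have hall : ∀ m : Fin 4, m = 0 ∨ m = 1 ∨ m = 2 ∨ m = 3 := by decide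
  have h2 : ∀ m, pt z t' ∈ Lt T z a b c d e f m → m = 0 ∨ m = 1 := by
    intro m hm
    rcases hall m with rfl | rfl | rfl | rfl
    · exact Or.inl rfl
    · exact Or.inr rfl
    · exact absurd hm hcon.1
    · exact absurd hm hcon.2
  have h3' : (T (pt z t')).ncard ≤ 3 := by
    rcases S.wz _ hy' with k | k
    · exact k
    · obtain ⟨l, hl⟩ := C.cover hy'
      rcases h2 l hl with rfl | rfl
      · exact absurd (k ▸ hl.2) S.e_not
      · exact absurd (k ▸ hl.2) S.f_not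
  have hl0 : pt z t ∈ Lt T z a b c d e f 0 := ⟨hy, he⟩
  have hl1 : pt z t ∈ Lt T z a b c d e f 1 := ⟨hy, hf⟩
  have hyy' : dist (pt z t') (pt z t) = 1 := by rw [dist_comm]; exact hd
  by_cases k0 : pt z t' ∈ Lt T z a b c d e f 0
  · by_cases k1 : pt z t' ∈ Lt T z a b c d e f 1
    · exact C.noswap (l := 0) (m := 1) (by decide) hd h3 h3' hl0 hl1 k0 k1
    · refine C.int (l := 0) hy' (fun m hm => ?_) hy hyy' hl0
      rcases h2 m hm with rfl | rfl
      · rfl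
      · exact absurd hm k1
  · refine C.int (l := 1) hy' (fun m hm => ?_) hy hyy' hl1
    rcases h2 m hm with rfl | rfl
    · exact absurd hm k0
    · rfl

/-- the closed directions with a common free colour and a second common colour -/
theorem no_com (S : JPair U T z y a b c d e f) {t : ℝ} {i : Fin 6} (hi : i ≠ e)
    (h1 : e ∈ T (pt z t)) (h2 : e ∈ T (pt y t)) (h3 : i ∈ T (pt z t)) (h4 : i ∈ T (pt y t)) :
    False :=
  two_com S.irr S.Tyz (dist_pt z t) (dist_pt y t) (S.dist_pq t) (S.three_of (dist_pt z t) h1)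
    (S.swap.three_of (dist_pt y t) h2) S.four (by unfold pt; ring) S.miss (Ne.symm hi) h1 h3 h2 h4
    S.e_not

/-- **flip on `S(z)`** -/
theorem flip_z (S : JPair U T z y a b c d e f) {t : ℝ}
    (hE : ∃ᶠ s in 𝓝 t, (s ∈ Lc T z ∧ s ∈ Lc T y) ∧ e ∈ T (pt z s))
    (hF : ∃ᶠ s in 𝓝 t, (s ∈ Lc T z ∧ s ∈ Lc T y) ∧ f ∈ T (pt z s)) :
    t ∈ Ad T y {a, c} {b, d} ∧ t ∉ Ad T z {a, b} {c, d} ∧ t - 1 ∈ Ad T z {a, b} {c, d} ∧
      t + 1 ∈ Ad T z {a, b} {c, d} := by
  have he := S.mem_of_freq hE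
  have hf := S.mem_of_freq hF
  refine ⟨?_, ?_, ?_, ?_⟩
  · by_contra hY
    have hY' := ev_not_Ad hY
    have k1 : f ∈ T (pt y t) := by
      refine S.mem_of_freq (p := fun _ => True) ((hE.and_eventually hY').mono ?_)
      rintro s ⟨⟨⟨j1, j2⟩, j3⟩, j4⟩
      refine ⟨trivial, ?_⟩
      rcases S.swap.single j2 j4 with k | k
      · exact absurd k (Set.disjoint_left.1 (S.prod j1 j2) j3)
      · exact k
    have k2 : e ∈ T (pt y t) := by
      refine S.mem_of_freq (p := fun _ => True) ((hF.and_eventually hY').mono ?_)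
      rintro s ⟨⟨⟨j1, j2⟩, j3⟩, j4⟩
      refine ⟨trivial, ?_⟩
      rcases S.swap.single j2 j4 with k | k
      · exact k
      · exact absurd k (Set.disjoint_left.1 (S.prod j1 j2) j3)
    exact S.no_com (Ne.symm S.e_ne_f) he k2 hf k1
  · intro hZ
    have h3 := S.three_of (dist_pt z t) he
    rcases hZ with k | k
    · rcases S.ctr.noEF h3 he hf (l := 2) k with k' | k' <;> exact absurd k' (by decide)
    · rcases S.ctr.noEF h3 he hf (l := 3) k with k' | k' <;> exact absurd k' (by decide)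
  · refine S.nb_mem he hf ?_
    have := dist_pt_one z (t - 1)
    rw [sub_add_cancel] at this
    rw [dist_comm]; exact this
  · exact S.nb_mem he hf (dist_pt_one z t)

/-- `e` near `t` on both circles -/
theorem flip_zy (S : JPair U T z y a b c d e f) {t : ℝ}
    (hE : ∃ᶠ s in 𝓝 t, (s ∈ Lc T z ∧ s ∈ Lc T y) ∧ e ∈ T (pt z s))
    (hE' : ∃ᶠ s in 𝓝 t, (s ∈ Lc T z ∧ s ∈ Lc T y) ∧ e ∈ T (pt y s)) :
    (∃ᶠ s in 𝓝 t, (s ∈ Lc T z ∧ s ∈ Lc T y) ∧ f ∈ T (pt z s)) ∨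
      ∃ᶠ s in 𝓝 t, (s ∈ Lc T z ∧ s ∈ Lc T y) ∧ f ∈ T (pt y s) := by
  by_contra hcon
  rw [not_or, not_frequently, not_frequently] at hcon
  obtain ⟨hc1, hc2⟩ := hcon
  have k1 : t ∈ Ad T y {a, c} {b, d} := by
    refine mem_Ad_of_freq ((hE.and_eventually hc2).mono ?_)
    rintro s ⟨⟨⟨j1, j2⟩, j3⟩, j4⟩
    by_contra hs
    rcases S.swap.single j2 hs with k | k
    · exact Set.disjoint_left.1 (S.prod j1 j2) j3 k
    · exact j4 ⟨⟨j1, j2⟩, k⟩
  have k2 : t ∈ Ad T z {a, b} {c, d} := by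
    refine mem_Ad_of_freq ((hE'.and_eventually hc1).mono ?_)
    rintro s ⟨⟨⟨j1, j2⟩, j3⟩, j4⟩
    by_contra hs
    rcases S.single j1 hs with k | k
    · exact Set.disjoint_left.1 (S.prod j1 j2) k j3
    · exact j4 ⟨⟨j1, j2⟩, k⟩
  have he := S.mem_of_freq hE
  have he' := S.mem_of_freq hE'
  obtain ⟨P, hP, hP'⟩ : ∃ P : Set (Fin 6), (P = {a, b} ∨ P = {c, d}) ∧ P ⊆ T (pt z t) := by
    rcases k2 with k | k
    · exact ⟨_, Or.inl rfl, sub_of_closure S.irr k⟩
    · exact ⟨_, Or.inr rfl, sub_of_closure S.irr k⟩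
  obtain ⟨Q, hQ, hQ'⟩ : ∃ Q : Set (Fin 6), (Q = {a, c} ∨ Q = {b, d}) ∧ Q ⊆ T (pt y t) := by
    rcases k1 with k | k
    · exact ⟨_, Or.inl rfl, sub_of_closure S.irr k⟩
    · exact ⟨_, Or.inr rfl, sub_of_closure S.irr k⟩
  obtain ⟨i, h1, h2⟩ := S.meet hP hQ
  refine S.no_com (i := i) ?_ he he' (hP' h1) (hQ' h2)
  rintro rfl
  refine S.e_not ?_
  rw [S.hz.pal]
  rcases hP with rfl | rfl
  · rcases h1 with h1 | h1
    · rw [h1]; simp
    · rw [mem_singleton_iff] at h1; rw [h1]; simp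
  · rcases h1 with h1 | h1
    · rw [h1]; simp
    · rw [mem_singleton_iff] at h1; rw [h1]; simp

theorem freq_Sd {t : ℝ} (h : t ∈ Sd T z y e f) :
    (∃ᶠ s in 𝓝 t, (s ∈ Lc T z ∧ s ∈ Lc T y) ∧ e ∈ T (pt z s)) ∨
      ∃ᶠ s in 𝓝 t, (s ∈ Lc T z ∧ s ∈ Lc T y) ∧ f ∈ T (pt y s) := by
  have h1 := mem_closure_iff_frequently.1 h
  rw [← frequently_or_distrib]
  refine h1.mono ?_
  rintro s ⟨h1, h2 | h2⟩
  · exact Or.inl ⟨h1, h2⟩
  · exact Or.inr ⟨h1, h2⟩

theorem sw_freq {t : ℝ} {w : ℂ} {i : Fin 6}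
    (h : ∃ᶠ s in 𝓝 t, (s ∈ Lc T z ∧ s ∈ Lc T y) ∧ i ∈ T (pt w s)) :
    ∃ᶠ s in 𝓝 t, (s ∈ Lc T y ∧ s ∈ Lc T z) ∧ i ∈ T (pt w s) :=
  h.mono fun _ hs => ⟨⟨hs.1.2, hs.1.1⟩, hs.2⟩

/-- **(S3)** -/
theorem s3 (S : JPair U T z y a b c d e f) {t : ℝ} (hP : t ∈ Sd T z y e f)
    (hN : t ∈ Sd T z y f e) :
    (t ∈ Ad T z {a, b} {c, d} ∧ t ∉ Ad T y {a, c} {b, d} ∧ t - 1 ∈ Ad T y {a, c} {b, d} ∧
      t + 1 ∈ Ad T y {a, c} {b, d}) ∨
    (t ∈ Ad T y {a, c} {b, d} ∧ t ∉ Ad T z {a, b} {c, d} ∧ t - 1 ∈ Ad T z {a, b} {c, d} ∧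
      t + 1 ∈ Ad T z {a, b} {c, d}) := by
  rcases freq_Sd hP with h1 | h1 <;> rcases freq_Sd hN with h2 | h2
  · exact Or.inr (S.flip_z h1 h2)
  · rcases S.flip_zy h1 h2 with h3 | h3
    · exact Or.inr (S.flip_z h1 h3)
    · exact Or.inl (S.swap.flip_z (sw_freq h2) (sw_freq h3))
  · rcases S.efs.flip_zy h2 h1 with h3 | h3
    · exact Or.inr (S.flip_z h3 h2)
    · exact Or.inl (S.swap.flip_z (sw_freq h3) (sw_freq h1))
  · exact Or.inl (S.swap.flip_z (sw_freq h2) (sw_freq h1))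

/-! ### Reading -/

/-- off the arcs of `S(z)`, without the colour `f`: the sign is not `-` -/
theorem not_N (S : JPair U T z y a b c d e f) {t : ℝ} (hZ : t ∉ Ad T z {a, b} {c, d})
    (hf : f ∉ T (pt z t)) : t ∉ Sd T z y f e := by
  intro h
  rcases freq_Sd h with h1 | h1
  · exact hf (S.mem_of_freq h1)
  · have h2 : ∀ᶠ s in 𝓝 t, f ∉ T (pt z s) := by
      have := (continuous_pt z).continuousAt.eventually (S.irr.nhd (pt z t))
      filter_upwards [this] with s hs hfs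
      exact hf (hs hfs)
    obtain ⟨s, ⟨⟨⟨j1, j2⟩, j3⟩, j4⟩, j5⟩ :=
      ((h1.and_eventually (ev_not_Ad hZ)).and_eventually h2).exists
    rcases S.single j1 j4 with k | k
    · exact Set.disjoint_left.1 (S.prod j1 j2) k j3
    · exact j5 k

/-- off the arcs of `S(z)`, without the colour `e`: the sign is not `+` -/
theorem not_P (S : JPair U T z y a b c d e f) {t : ℝ} (hZ : t ∉ Ad T z {a, b} {c, d})
    (he : e ∉ T (pt z t)) : t ∉ Sd T z y e f := S.efs.not_N hZ he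

/-- off the arcs of `S(y)`, without the colour `f`: the sign is not `+` -/
theorem not_P' (S : JPair U T z y a b c d e f) {t : ℝ} (hY : t ∉ Ad T y {a, c} {b, d})
    (hf : f ∉ T (pt y t)) : t ∉ Sd T z y e f := by
  have := S.swap.not_N hY hf
  rwa [Sd_swap] at this

/-- off the arcs of `S(y)`, without the colour `e`: the sign is not `-` -/
theorem not_N' (S : JPair U T z y a b c d e f) {t : ℝ} (hY : t ∉ Ad T y {a, c} {b, d})
    (he : e ∉ T (pt y t)) : t ∉ Sd T z y f e := by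
  have := S.swap.not_P hY he
  rwa [Sd_swap] at this

end JPair

end Vale.Agent.P032.H594
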