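import Vale.Agent.P032.H594.CntC
import Vale.Agent.P032.H594.JTwoTop
import Vale.Agent.P032.H546.FFinR
import Vale.Agent.P032.H913.NoJ1

/-!
# P032: exactly one `J`-partner and one network: the class fact `IVc`

`ivS_594`, `ivT_594` : the two words of helper546 (`listS`, `listT`) give `IVc`.
-/

open Set Filter Topology Metric

noncomputable section

namespace Vale.Agent.P032.H594

open Vale.Agent.P032.Six Vale.Agent.P032.S5.H767 Vale.Agent.P032.S5.H122 Vale.Agent.P032.Sweep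
  Vale.Agent.P032.S5.H349 Vale.Agent.P032.S5.H450 Vale.Agent.P032.H471 Vale.Agent.P032.H533
open Vale.Agent.P032.H987 (Cz CzE CzF Zn lbF isOpen_ex isOpen_ncl Fr aftP befP)
open Vale.Agent.P032.H546 (Lst ind ind0_iff ind3_iff ind4_iff)
open Vale.Agent.P032.H913 (IVc N0 no_end_pt913 no_end_pt913' free913 no_JJ913 pt_inj913)

variable {U : Fin 6 → Set ℂ} {T : ℂ → Set (Fin 6)} {z v q : ℂ} {a b c d e f g : Fin 6}
  {p r φ : ℝ}

/-- no end of the pair in an open interval: the status of the pair is constant -/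
theorem const1_594 {P : Set (Fin 6)} {α β : ℝ}
    (h0 : ∀ t ∈ Ioo α β, pt z t ∈ closure (Ex T z P) → pt z t ∈ Ex T z P) :
    (∀ t ∈ Ioo α β, pt z t ∈ Ex T z P) ∨ ∀ t ∈ Ioo α β, pt z t ∉ closure (Ex T z P) := by
  rcases (isPreconnected_Ioo (a := α) (b := β)).subset_or_subset (isOpen_ex (T := T) z P)
    (isOpen_ncl z P) (by
      rw [Set.disjoint_left]
      intro t h1 h2
      exact h2 (subset_closure h1)) (fun t ht => by
      by_cases h1 : pt z t ∈ closure (Ex T z P)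
      · exact Or.inl (h0 t ht h1)
      · exact Or.inr h1) with h1 | h1
  · exact Or.inl fun t ht => h1 ht
  · exact Or.inr fun t ht => h1 ht

theorem lo594 {r : ℝ} {n : ℕ} (hr : 0 ≤ r) (h : n ≤ ⌊r⌋₊) : (n : ℝ) ≤ r :=
  (Nat.le_floor_iff hr).1 h

theorem hi594 {r : ℝ} {n : ℕ} (h : ⌊r⌋₊ ≤ n) : r < (n : ℝ) + 1 := by
  have h1 := Nat.lt_floor_add_one r
  have h2 : ((⌊r⌋₊ : ℕ) : ℝ) ≤ (n : ℝ) := by exact_mod_cast h
  linarith

/-- the list as four directions -/
theorem four594 {g1 g2 : Bool} {l : List (ℝ × ℕ)} {k1 k2 k3 n1 n2 n3 m1 m2 m3 : ℕ}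
    (h : Lst g1 g2 T z a b c d e f φ [[6, k1, k2, k3]] [0, n1, n2, n3] [0, m1, m2, m3] l)
    (hJ : lbF g1 g2 T z a b c d e f (pt z φ) = 6) :
    ∃ r1 r2 r3 : ℝ, (0 < r1 ∧ r1 < r2 ∧ r2 < r3 ∧ r3 < 6) ∧
      ((lbF g1 g2 T z a b c d e f (pt z (φ + r1))).val = k1 ∧
        (lbF g1 g2 T z a b c d e f (pt z (φ + r2))).val = k2 ∧
        (lbF g1 g2 T z a b c d e f (pt z (φ + r3))).val = k3) ∧
      (∀ t, 0 ≤ t → t < 6 → lbF g1 g2 T z a b c d e f (pt z (φ + t)) ≠ 0 →
        t = 0 ∨ t = r1 ∨ t = r2 ∨ t = r3) ∧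
      ((n1 : ℝ) ≤ r1 ∧ r1 < m1 + 1) ∧ ((n2 : ℝ) ≤ r2 ∧ r2 < m2 + 1) ∧
      ((n3 : ℝ) ≤ r3 ∧ r3 < m3 + 1) := by
  obtain ⟨h1, h2, h3, h4, h5, h6⟩ := h
  rw [List.mem_singleton] at h4
  rcases l with _ | ⟨x0, _ | ⟨x1, _ | ⟨x2, _ | ⟨x3, _ | ⟨x4, l⟩⟩⟩⟩⟩ <;>
    simp only [List.map_cons, List.map_nil, List.cons.injEq, reduceCtorEq, and_false,
      and_true] at h4
  obtain ⟨r0, k0'⟩ := x0
  obtain ⟨r1, k1'⟩ := x1
  obtain ⟨r2, k2'⟩ := x2
  obtain ⟨r3, k3'⟩ := x3
  obtain ⟨rfl, rfl, rfl, rfl⟩ := h4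
  simp only [List.map_cons, List.map_nil, List.pairwise_cons, List.mem_cons, List.not_mem_nil,
    or_false, forall_eq_or_imp, forall_eq, List.Pairwise.nil, and_true, IsEmpty.forall_iff,
    implies_true] at h1
  simp only [List.mem_cons, List.not_mem_nil, or_false, forall_eq_or_imp, forall_eq] at h2
  simp only [List.map_cons, List.map_nil, List.forall₂_cons, List.Forall₂.nil, and_true] at h5 h6
  obtain ⟨⟨a01, a02, a03⟩, ⟨a12, -⟩, a23⟩ := h1
  obtain ⟨⟨b0, -, -, -⟩, ⟨b1, -, -, c1⟩, ⟨b2, -, -, c2⟩, ⟨b3, b3', -, c3⟩⟩ := h2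
  obtain ⟨-, d1, d2, d3⟩ := h5
  obtain ⟨-, e1, e2, e3⟩ := h6
  have hno : ∀ t, 0 ≤ t → t < 6 → lbF g1 g2 T z a b c d e f (pt z (φ + t)) ≠ 0 →
      t = r0 ∨ t = r1 ∨ t = r2 ∨ t = r3 := by
    intro t k1 k2 k3
    obtain ⟨x, hx, rfl⟩ := h3 t k1 k2 k3
    simp only [List.mem_cons, List.not_mem_nil, or_false] at hx
    rcases hx with rfl | rfl | rfl | rfl <;> simp
  have hr0 : r0 = 0 := by
    have := hno 0 le_rfl (by norm_num) (by rw [add_zero, hJ]; decide)
    rcases this with h | h | h | h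
    · exact h.symm
    all_goals linarith
  subst hr0
  exact ⟨r1, r2, r3, ⟨a01, a12, a23, b3'⟩, ⟨c1, c2, c3⟩, hno, ⟨lo594 b1 d1, hi594 e1⟩,
    ⟨lo594 b2 d2, hi594 e2⟩, ⟨lo594 b3 d3, hi594 e3⟩⟩

/-- the partner is in the same world -/
theorem wy594 (h : Irr U T) (h5 : NoPair5 T) (hT : OnlyJT T) (hD : DPt T z a b c d)
    (hJ : T (pt z φ) = T z) :
    ∀ v, dist v (pt z φ) = 1 → (T v).ncard ≤ 3 ∨ T v = T (pt z φ) := by
  have hDy : ∃ a b c d, DPt T (pt z φ) a b c d := by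
    rcases h.dpt_cross824 hD (dist_pt z φ) hJ with k | k
    exacts [⟨_, _, _, _, k⟩, ⟨_, _, _, _, k⟩]
  exact fun v hv => hT.w0 h5 hDy hv

/-- no end at 60 degrees from the partner -/
theorem noend594 (h : Irr U T) (h5 : NoPair5 T) (hT : OnlyJT T) (hS : Sec4 T)
    (hD : DPt T z a b c d) (nd : [a, b, c, d, e, f].Nodup) (hJ : T (pt z φ) = T z) {x t : ℝ}
    (hx : (x = φ + 1 ∧ pt z t ≠ pt z (φ + 2)) ∨ (x = φ + 5 ∧ pt z t ≠ pt z (φ + 4)))
    (hX : T (pt z x) = {a, b, e} ∨ T (pt z x) = {c, d, f})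
    (eX : EE T z (pt z x)) (ev : EE T z (pt z t)) (hc : T (pt z t) = (T (pt z x))ᶜ) : False := by
  have wz : ∀ v, dist v z = 1 → (T v).ncard ≤ 3 ∨ T v = T z := fun v hv =>
    hT.w0 h5 ⟨_, _, _, _, hD⟩ hv
  have sw : ∀ i j k : Fin 6, ({i, j, k} : Set (Fin 6)) = {j, i, k} := fun i j k =>
    Set.insert_comm _ _ _
  rcases jpair594 h hD nd hJ rfl wz (wy594 h h5 hT hD hJ) with S | S
  · have hX' : (T (pt z x) = {a, b, e} ∨ T (pt z x) = {c, d, e}) ∨
        T (pt z x) = {a, b, f} ∨ T (pt z x) = {c, d, f} := by tauto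
    rcases hx with ⟨rfl, hne⟩ | ⟨rfl, hne⟩
    · exact no_end_pt913 S hS rfl hX' eX ev hc hne
    · exact no_end_pt913' S hS rfl hX' eX ev hc hne
  · have hX' : (T (pt z x) = {a, b, e} ∨ T (pt z x) = {d, c, e}) ∨
        T (pt z x) = {a, b, f} ∨ T (pt z x) = {d, c, f} := by
      rw [sw d c f]; tauto
    rcases hx with ⟨rfl, hne⟩ | ⟨rfl, hne⟩
    · exact no_end_pt913 S hS rfl hX' eX ev hc hne
    · exact no_end_pt913' S hS rfl hX' eX ev hc hne

/-- the direction `φ + 1` is not in the interior of an arc -/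
theorem noarc594 (h : Irr U T) (h5 : NoPair5 T) (hT : OnlyJT T)
    (hD : DPt T z a b c d) (nd : [a, b, c, d, e, f].Nodup) (hJ : T (pt z φ) = T z) :
    pt z (φ + 1) ∉ Ex T z {a, b} := by
  intro hE
  obtain ⟨⟨ab, ac, ad, ae, af⟩, ⟨bc, bd, be, bf⟩, ⟨cd, ce, cf⟩, ⟨de, df⟩, ef⟩ :=
    S5.H349.nd_ne nd
  have wz : ∀ v, dist v z = 1 → (T v).ncard ≤ 3 ∨ T v = T z := fun v hv =>
    hT.w0 h5 ⟨_, _, _, _, hD⟩ hv
  have hd : dist (pt z (φ + 1)) (pt z φ) = 1 := by
    rw [dist_comm]; exact dist_pt_one z φ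
  have hT1 := (no_JJ913 h h5 hD rfl hJ).1
  have key : e ∈ T (pt z (φ + 1)) ∨ f ∈ T (pt z (φ + 1)) := by
    rcases jpair594 h hD nd hJ rfl wz (wy594 h h5 hT hD hJ) with S | S
    · exact free913 S (dist_pt z _) hd hT1
    · exact free913 S (dist_pt z _) hd hT1
  rw [ex_self hE] at key
  rcases key with (k | k) | (k | k)
  exacts [ae k.symm, be k.symm, af k.symm, bf k.symm]

/-- a direction within one unit of `φ`, from `φ` in `[0, 6)` -/
theorem red594 {t : ℝ} (ht : t ∈ Icc (φ - 1) (φ + 1)) :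
    ∃ s, 0 ≤ s ∧ s < 6 ∧ (s ≤ 1 ∨ 5 ≤ s) ∧ pt z (φ + s) = pt z t := by
  rcases le_or_gt φ t with h1 | h1
  · exact ⟨t - φ, by linarith, by linarith [ht.2], Or.inl (by linarith [ht.2]), by
      rw [show φ + (t - φ) = t by ring]⟩
  · refine ⟨t - φ + 6, by linarith [ht.1], by linarith, Or.inr (by linarith [ht.1]), ?_⟩
    rw [show φ + (t - φ + 6) = t + 6 by ring, pt_six]

/-- **no `{a, b, f}`, one `{a, b, e}`, two `{c, d, f}`** -/
theorem ivS_594 (h : Irr U T) (h5 : NoPair5 T) (hT : OnlyJT T) (hS : Sec4 T)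
    (S : CzF true false U T z a b c d e f) (Z : Zn T z a b c d φ r)
    (hfin : {y | dist y z = 1 ∧ lbF true false T z a b c d e f y ≠ 0}.Finite)
    (nV : {y | dist y z = 1 ∧ T y = {a, b, e}}.ncard = 1)
    (nQ : {y | dist y z = 1 ∧ T y = {c, d, f}}.ncard = 2)
    (nJ : {y | dist y z = 1 ∧ T y = T z}.ncard = 1)
    (hno : ∀ y, dist y z = 1 → T y ≠ {a, b, f})
    (h6 : lbF true false T z a b c d e f (pt z φ) = 6) (hJ : T (pt z φ) = T z)
    (hv : EE T z v) (hq : EE T z q) (Tv : T v = {a, b, e}) (Tq : T q = {c, d, f})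
    (hc : T q = (T v)ᶜ) : IVc T z (pt z φ) := by
  obtain ⟨l, hl⟩ := H546.listS S Z hfin nV nQ nJ hno h6
  obtain ⟨r1, r2, r3, ⟨o1, o2, o3, o4⟩, ⟨l1, l2, l3⟩, hlab, ⟨f1, f1'⟩, ⟨f2, f2'⟩, ⟨f3, f3'⟩⟩ :=
    four594 hl h6
  norm_num at f1 f1' f2 f2' f3 f3'
  have C := S.toCz
  have nd := C.nd
  have h4 := C.four
  have hD := C.dpt
  obtain ⟨⟨ab, ac, ad, ae, af⟩, ⟨bc, bd, be, bf⟩, ⟨cd, ce, cf⟩, ⟨de, df⟩, ef⟩ :=
    S5.H349.nd_ne nd
  obtain ⟨he, hf⟩ := free594 C
  have t1 : T (pt z (φ + r1)) = {a, b, e} :=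
    (ind0_iff h4 (g1 := true) (g2 := false)).1 (by rw [l1]; decide)
  have t2 : T (pt z (φ + r2)) = {c, d, f} :=
    (ind3_iff nd h4 (g1 := true) (g2 := false)).1 (by rw [l2]; decide)
  have t3 : T (pt z (φ + r3)) = {c, d, f} :=
    (ind3_iff nd h4 (g1 := true) (g2 := false)).1 (by rw [l3]; decide)
  have hVQ : ({a, b, e} : Set (Fin 6)) ≠ {c, d, f} := (H546.nd_ne nd).1
  -- the ends in the coordinate
  have nz : ∀ {t : ℝ}, T (pt z (φ + t)) = {a, b, e} →
      lbF true false T z a b c d e f (pt z (φ + t)) ≠ 0 := by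
    intro t ht h0
    have := (ind0_iff h4 (g1 := true) (g2 := false) (c := c) (d := d) (f := f)
      (a := a) (b := b) (e := e) (y := pt z (φ + t))).2 ht
    rw [h0] at this
    exact this (by decide)
  have nz3 : ∀ {t : ℝ}, T (pt z (φ + t)) = {c, d, f} →
      lbF true false T z a b c d e f (pt z (φ + t)) ≠ 0 := by
    intro t ht h0
    have := (ind3_iff nd h4 (g1 := true) (g2 := false) (y := pt z (φ + t))).2 ht
    rw [h0] at this
    exact this (by decide)
  have nz4 : ∀ {t : ℝ}, T (pt z (φ + t)) = T z →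
      lbF true false T z a b c d e f (pt z (φ + t)) ≠ 0 := by
    intro t ht h0
    have := (ind4_iff (T := T) (z := z) (g1 := true) (g2 := false) (a := a) (b := b) (c := c)
      (d := d) (e := e) (f := f) (y := pt z (φ + t))).2 ht
    rw [h0] at this
    exact this (by decide)
  have z0 : T (pt z (φ + 0)) = T z := by rw [add_zero]; exact hJ
  have v3 : ({a, b, e} : Set (Fin 6)) ≠ T z := fun k => he (by rw [← k]; simp)
  have q3 : ({c, d, f} : Set (Fin 6)) ≠ T z := fun k => hf (by rw [← k]; simp)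
  have fA : ∀ t, 0 ≤ t → t < 6 → T (pt z (φ + t)) = {a, b, e} → t = r1 := by
    intro t k1 k2 k3
    rcases hlab t k1 k2 (nz k3) with rfl | rfl | rfl | rfl
    · exact absurd (k3.symm.trans z0) v3
    · rfl
    · exact absurd (k3.symm.trans t2) hVQ
    · exact absurd (k3.symm.trans t3) hVQ
  have fJ : ∀ t, 0 ≤ t → t < 6 → T (pt z (φ + t)) = T z → t = 0 := by
    intro t k1 k2 k3
    rcases hlab t k1 k2 (nz4 k3) with rfl | rfl | rfl | rfl
    · rfl
    · exact absurd (t1.symm.trans k3) v3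
    · exact absurd (t2.symm.trans k3) q3
    · exact absurd (t3.symm.trans k3) q3
  have fQ : ∀ t, 0 ≤ t → t < 6 → T (pt z (φ + t)) = {c, d, f} → t = r2 ∨ t = r3 := by
    intro t k1 k2 k3
    rcases hlab t k1 k2 (nz3 k3) with rfl | rfl | rfl | rfl
    · exact absurd (k3.symm.trans z0) q3
    · exact absurd (t1.symm.trans k3) hVQ
    · exact Or.inl rfl
    · exact Or.inr rfl
  -- no end inside
  have hin : ∀ {x x' : ℝ}, 0 ≤ x → x' ≤ 6 → (x' ≤ r1 ∨ r1 ≤ x) →
      ∀ t ∈ Ioo (φ + x) (φ + x'), pt z t ∈ closure (Ex T z {a, b}) → pt z t ∈ Ex T z {a, b} := by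
    intro x x' k1 k2 k3 t ht hcl
    have e1 : φ + (t - φ) = t := by ring
    rcases C.cl_cases hcl with k | k | k | k
    · exact k
    · rw [← e1] at k
      have := fJ (t - φ) (by linarith [ht.1]) (by linarith [ht.2]) k
      linarith [ht.1]
    · rw [← e1] at k
      have := fA (t - φ) (by linarith [ht.1]) (by linarith [ht.2]) k
      rcases k3 with k3 | k3
      · linarith [ht.2]
      · linarith [ht.1]
    · exact absurd k (hno _ (dist_pt z t))
  -- EE
  have E1 : EE T z (pt z (φ + r1)) := auto471 h hS hv hq hc (dist_pt z _) (t1.trans Tv.symm)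
  have hcq : T v = (T q)ᶜ := by rw [hc, compl_compl]
  have E2 : EE T z (pt z (φ + r2)) := auto471 h hS hq hv hcq (dist_pt z _) (t2.trans Tq.symm)
  have E3 : EE T z (pt z (φ + r3)) := auto471 h hS hq hv hcq (dist_pt z _) (t3.trans Tq.symm)
  have cVQ : ({c, d, f} : Set (Fin 6)) = ({a, b, e} : Set (Fin 6))ᶜ := by rw [← Tv, ← Tq]; exact hc
  have cQV : ({a, b, e} : Set (Fin 6)) = ({c, d, f} : Set (Fin 6))ᶜ := by
    rw [cVQ, compl_compl]
  -- `r1 < 1`
  have m1 : r1 < 1 := by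
    by_contra hcon
    rcases (not_lt.1 hcon).eq_or_lt with k | k
    · refine noend594 h h5 hT hS hD nd hJ (x := φ + 1) (t := φ + r3) (Or.inl ⟨rfl, ?_⟩)
        (Or.inl (by rw [k]; exact t1)) (by rw [k]; exact E1) E3 (by rw [t3, k, t1]; exact cVQ)
      exact (pt_inj913 (by linarith) (by linarith)).symm
    · -- the arc after the partner
      rcases const1_594 (hin (x := 0) (x' := r1) le_rfl (by linarith) (Or.inl le_rfl)) with k1 | k1
      · exact noarc594 h h5 hT hD nd hJ (k1 (φ + 1) ⟨by linarith, by linarith⟩)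
      · obtain ⟨β, hβ, k2⟩ := (S.sides φ).1
        rw [h6] at k2
        obtain ⟨w, w1, w2⟩ := exists_between (lt_min (show φ < φ + r1 by linarith) hβ)
        have k3 : pt z w ∈ Ex T z {a, b} := k2 w ⟨w1, lt_of_lt_of_le w2 (min_le_right _ _)⟩
        exact k1 w ⟨by linarith, lt_of_lt_of_le w2 (min_le_left _ _)⟩ (subset_closure k3)
  -- no arc of the first pair after `r1`
  have m2 : ∀ t ∈ Ioo (φ + r1) (φ + 6), pt z t ∉ closure (Ex T z {a, b}) := by
    rcases const1_594 (hin (x := r1) (x' := 6) o1.le le_rfl (Or.inr le_rfl)) with k1 | k1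
    · exfalso
      obtain ⟨β, hβ, k2⟩ := (S.sides (φ + r1)).1
      rw [show lbF true false T z a b c d e f (pt z (φ + r1)) = 1 from Fin.ext l1] at k2
      obtain ⟨w, w1, w2⟩ := exists_between (lt_min (show φ + r1 < φ + 6 by linarith) hβ)
      have k3 : Fr T z a b c d e f (pt z w) := k2 w ⟨w1, lt_of_lt_of_le w2 (min_le_right _ _)⟩
      exact k3.1.1 (subset_closure (k1 w ⟨w1, lt_of_lt_of_le w2 (min_le_left _ _)⟩))
    · exact k1
  -- `1 < r2`
  have m3 : 1 < r2 := by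
    rcases f2.eq_or_lt with k | k
    · exfalso
      refine noend594 h h5 hT hS hD nd hJ (x := φ + 1) (t := φ + r1) (Or.inl ⟨rfl, ?_⟩)
        (Or.inr (by rw [k]; exact t2)) (by rw [k]; exact E2) E1 (by rw [t1, k, t2]; exact cQV)
      exact pt_inj913 (by linarith) (by linarith)
    · exact k
  refine ⟨a, b, c, d, e, f, φ, nd, hD, rfl, fun t ht => m2 t ⟨by linarith [ht.1],
    by linarith [ht.2]⟩, Or.inr ?_⟩
  intro t ht hft hAd
  have hAd : pt z t ∈ closure (Ex T z {a, b}) ∨ pt z t ∈ closure (Ex T z {c, d}) := hAd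
  have hcdf : T (pt z t) = {c, d, f} := by
    rcases hAd with k | k
    · rcases C.cl_cases k with k | k | k | k
      · rw [ex_self k] at hft
        rcases hft with h1 | h1
        exacts [absurd h1.symm af, absurd h1.symm bf]
      · rw [k] at hft; exact absurd hft hf
      · rw [k] at hft
        rcases hft with h1 | h1 | h1
        exacts [absurd h1.symm af, absurd h1.symm bf, absurd h1.symm ef]
      · exact absurd k (hno _ (dist_pt z t))
    · rcases C.swapP.cl_cases k with k | k | k | k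
      · rw [ex_self k] at hft
        rcases hft with h1 | h1
        exacts [absurd h1.symm cf, absurd h1.symm df]
      · rw [k] at hft; exact absurd hft hf
      · rw [k] at hft
        rcases hft with h1 | h1 | h1
        exacts [absurd h1.symm cf, absurd h1.symm df, absurd h1.symm ef]
      · exact k
  obtain ⟨s, s1, s2, s3, s4⟩ := red594 (z := z) ht
  rw [← s4] at hcdf
  rcases fQ s s1 s2 hcdf with k | k <;> rcases s3 with s3 | s3 <;> linarith

/-- **no `{c, d, e}`, two `{a, b, e}`, one `{c, d, f}`** -/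
theorem ivT_594 (h : Irr U T) (h5 : NoPair5 T) (hT : OnlyJT T) (hS : Sec4 T)
    (S : CzF false true U T z a b c d e f) (Z : Zn T z a b c d φ r)
    (hfin : {y | dist y z = 1 ∧ lbF false true T z a b c d e f y ≠ 0}.Finite)
    (nV : {y | dist y z = 1 ∧ T y = {a, b, e}}.ncard = 2)
    (nQ : {y | dist y z = 1 ∧ T y = {c, d, f}}.ncard = 1)
    (nJ : {y | dist y z = 1 ∧ T y = T z}.ncard = 1)
    (hno : ∀ y, dist y z = 1 → T y ≠ {c, d, e})
    (h6 : lbF false true T z a b c d e f (pt z φ) = 6) (hJ : T (pt z φ) = T z)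
    (hv : EE T z v) (hq : EE T z q) (Tv : T v = {a, b, e}) (Tq : T q = {c, d, f})
    (hc : T q = (T v)ᶜ) : IVc T z (pt z φ) := by
  obtain ⟨l, hl⟩ := H546.listT S Z hfin nV nQ nJ hno h6
  obtain ⟨r1, r2, r3, ⟨o1, o2, o3, o4⟩, ⟨l1, l2, l3⟩, hlab, ⟨f1, f1'⟩, ⟨f2, f2'⟩, ⟨f3, f3'⟩⟩ :=
    four594 hl h6
  norm_num at f1 f1' f2 f2' f3 f3'
  have C := S.toCz
  have nd := C.nd
  have h4 := C.four
  have hD := C.dpt
  obtain ⟨⟨ab, ac, ad, ae, af⟩, ⟨bc, bd, be, bf⟩, ⟨cd, ce, cf⟩, ⟨de, df⟩, ef⟩ :=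
    S5.H349.nd_ne nd
  obtain ⟨he, hf⟩ := free594 C
  have t1 : T (pt z (φ + r1)) = {a, b, e} :=
    (ind0_iff h4 (g1 := false) (g2 := true)).1 (by rw [l1]; decide)
  have t2 : T (pt z (φ + r2)) = {a, b, e} :=
    (ind0_iff h4 (g1 := false) (g2 := true)).1 (by rw [l2]; decide)
  have t3 : T (pt z (φ + r3)) = {c, d, f} :=
    (ind3_iff nd h4 (g1 := false) (g2 := true)).1 (by rw [l3]; decide)
  have hVQ : ({a, b, e} : Set (Fin 6)) ≠ {c, d, f} := (H546.nd_ne nd).1
  -- the ends in the coordinate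
  have nz : ∀ {t : ℝ}, T (pt z (φ + t)) = {a, b, e} →
      lbF false true T z a b c d e f (pt z (φ + t)) ≠ 0 := by
    intro t ht h0
    have := (ind0_iff h4 (g1 := false) (g2 := true) (c := c) (d := d) (f := f)
      (a := a) (b := b) (e := e) (y := pt z (φ + t))).2 ht
    rw [h0] at this
    exact this (by decide)
  have nz3 : ∀ {t : ℝ}, T (pt z (φ + t)) = {c, d, f} →
      lbF false true T z a b c d e f (pt z (φ + t)) ≠ 0 := by
    intro t ht h0
    have := (ind3_iff nd h4 (g1 := false) (g2 := true) (y := pt z (φ + t))).2 ht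
    rw [h0] at this
    exact this (by decide)
  have nz4 : ∀ {t : ℝ}, T (pt z (φ + t)) = T z →
      lbF false true T z a b c d e f (pt z (φ + t)) ≠ 0 := by
    intro t ht h0
    have := (ind4_iff (T := T) (z := z) (g1 := false) (g2 := true) (a := a) (b := b) (c := c)
      (d := d) (e := e) (f := f) (y := pt z (φ + t))).2 ht
    rw [h0] at this
    exact this (by decide)
  have z0 : T (pt z (φ + 0)) = T z := by rw [add_zero]; exact hJ
  have v3 : ({a, b, e} : Set (Fin 6)) ≠ T z := fun k => he (by rw [← k]; simp)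
  have q3 : ({c, d, f} : Set (Fin 6)) ≠ T z := fun k => hf (by rw [← k]; simp)
  have fV : ∀ t, 0 ≤ t → t < 6 → T (pt z (φ + t)) = {a, b, e} → t = r1 ∨ t = r2 := by
    intro t k1 k2 k3
    rcases hlab t k1 k2 (nz k3) with rfl | rfl | rfl | rfl
    · exact absurd (k3.symm.trans z0) v3
    · exact Or.inl rfl
    · exact Or.inr rfl
    · exact absurd (k3.symm.trans t3) hVQ
  have fJ : ∀ t, 0 ≤ t → t < 6 → T (pt z (φ + t)) = T z → t = 0 := by
    intro t k1 k2 k3
    rcases hlab t k1 k2 (nz4 k3) with rfl | rfl | rfl | rfl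
    · rfl
    · exact absurd (t1.symm.trans k3) v3
    · exact absurd (t2.symm.trans k3) v3
    · exact absurd (t3.symm.trans k3) q3
  have fQ : ∀ t, 0 ≤ t → t < 6 → T (pt z (φ + t)) = {c, d, f} → t = r3 := by
    intro t k1 k2 k3
    rcases hlab t k1 k2 (nz3 k3) with rfl | rfl | rfl | rfl
    · exact absurd (k3.symm.trans z0) q3
    · exact absurd (t1.symm.trans k3) hVQ
    · exact absurd (t2.symm.trans k3) hVQ
    · rfl
  -- no end inside
  have hin : ∀ t ∈ Ioo (φ + 0) (φ + r3), pt z t ∈ closure (Ex T z {c, d}) →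
      pt z t ∈ Ex T z {c, d} := by
    intro t ht hcl
    have e1 : φ + (t - φ) = t := by ring
    rcases C.swapP.cl_cases hcl with k | k | k | k
    · exact k
    · rw [← e1] at k
      have := fJ (t - φ) (by linarith [ht.1]) (by linarith [ht.2]) k
      linarith [ht.1]
    · exact absurd k (hno _ (dist_pt z t))
    · rw [← e1] at k
      have := fQ (t - φ) (by linarith [ht.1]) (by linarith [ht.2]) k
      linarith [ht.2]
  -- EE
  have E1 : EE T z (pt z (φ + r1)) := auto471 h hS hv hq hc (dist_pt z _) (t1.trans Tv.symm)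
  have hcq : T v = (T q)ᶜ := by rw [hc, compl_compl]
  have E3 : EE T z (pt z (φ + r3)) := auto471 h hS hq hv hcq (dist_pt z _) (t3.trans Tq.symm)
  have cVQ : ({c, d, f} : Set (Fin 6)) = ({a, b, e} : Set (Fin 6))ᶜ := by rw [← Tv, ← Tq]; exact hc
  have cQV : ({a, b, e} : Set (Fin 6)) = ({c, d, f} : Set (Fin 6))ᶜ := by
    rw [cVQ, compl_compl]
  -- no arc of the second pair before `r3`
  have m2 : ∀ t ∈ Ioo (φ + 0) (φ + r3), pt z t ∉ closure (Ex T z {c, d}) := by
    rcases const1_594 hin with k1 | k1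
    · exfalso
      obtain ⟨α, hα, k2⟩ := (S.sides (φ + r3)).2
      rw [show lbF false true T z a b c d e f (pt z (φ + r3)) = 4 from Fin.ext l3] at k2
      obtain ⟨w, w1, w2⟩ := exists_between (max_lt (show φ + 0 < φ + r3 by linarith) hα)
      have k3 : Fr T z a b c d f e (pt z w) := k2 w ⟨lt_of_le_of_lt (le_max_right _ _) w1, w2⟩
      exact k3.1.2 (subset_closure (k1 w ⟨lt_of_le_of_lt (le_max_left _ _) w1, w2⟩))
    · exact k1
  -- `5 < r3`
  have m1 : 5 < r3 := by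
    rcases f3.eq_or_lt with k | k
    · exfalso
      refine noend594 h h5 hT hS hD nd hJ (x := φ + 5) (t := φ + r1) (Or.inr ⟨rfl, ?_⟩)
        (Or.inr (by rw [k]; exact t3)) (by rw [k]; exact E3) E1 (by rw [t1, k, t3]; exact cQV)
      exact pt_inj913 (by linarith) (by linarith)
    · exact k
  -- `1 < r1`
  have m3 : 1 < r1 := by
    rcases f1.eq_or_lt with k | k
    · exfalso
      refine noend594 h h5 hT hS hD nd hJ (x := φ + 1) (t := φ + r3) (Or.inl ⟨rfl, ?_⟩)
        (Or.inl (by rw [k]; exact t1)) (by rw [k]; exact E1) E3 (by rw [t3, k, t1]; exact cVQ)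
      exact (pt_inj913 (by linarith) (by linarith)).symm
    · exact k
  refine ⟨c, d, a, b, e, f, φ, C.swapP.nd, hD.swap, rfl, fun t ht => m2 t ⟨by linarith [ht.1],
    by linarith [ht.2]⟩, Or.inl ?_⟩
  intro t ht hft hAd
  have hAd : pt z t ∈ closure (Ex T z {c, d}) ∨ pt z t ∈ closure (Ex T z {a, b}) := hAd
  have habe : T (pt z t) = {a, b, e} := by
    rcases hAd with k | k
    · rcases C.swapP.cl_cases k with k | k | k | k
      · rw [ex_self k] at hft
        rcases hft with h1 | h1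
        exacts [absurd h1.symm ce, absurd h1.symm de]
      · rw [k] at hft; exact absurd hft he
      · exact absurd k (hno _ (dist_pt z t))
      · rw [k] at hft
        rcases hft with h1 | h1 | h1
        exacts [absurd h1.symm ce, absurd h1.symm de, absurd h1 ef]
    · rcases C.cl_cases k with k | k | k | k
      · rw [ex_self k] at hft
        rcases hft with h1 | h1
        exacts [absurd h1.symm ae, absurd h1.symm be]
      · rw [k] at hft; exact absurd hft he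
      · exact k
      · rw [k] at hft
        rcases hft with h1 | h1 | h1
        exacts [absurd h1.symm ae, absurd h1.symm be, absurd h1 ef]
  obtain ⟨s, s1, s2, s3, s4⟩ := red594 (z := z) ht
  rw [← s4] at habe
  rcases fV s s1 s2 habe with k | k <;> rcases s3 with s3 | s3 <;> linarith

end Vale.Agent.P032.H594
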