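import Vale.Agent.P032.H946.JDead
import Vale.Agent.P032.H695.TwoSq3
import Vale.Agent.P032.H594.JCone

/-!
# P032: the old word at a comp centre with two `J`-partners

`OldW T M φ a b c d e f s t u u' w m w'` : the circle `S(M)` has three blocks `[-s, t]`, `[u, u']`,
`[w, w']` of exact arcs (angles in units of 60 degrees, from the direction `φ`), with the letters
`f|A J C|e`, `f|A|e`, `f|C J' A|e`, `A = {a, b}`, `C = {c, d}`.
The word facts `two_compl`, `two_ori`, `two_dist`, `two_cone` of 946 at such a centre.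
-/

open Set Filter Topology Metric

noncomputable section

namespace Vale.Agent.P032.H594

open Vale.Agent.P032.Six Vale.Agent.P032.S5.H450 Vale.Agent.P032.H471
  Vale.Agent.P032.S5.H767 Vale.Agent.P032.H695

variable {U : Fin 6 → Set ℂ} {T : ℂ → Set (Fin 6)}

/-- the old word -/
structure OldW (T : ℂ → Set (Fin 6)) (M : ℂ) (φ : ℝ) (a b c d e f : Fin 6)
    (s t u u' w m w' : ℝ) : Prop where
  hz : DPt T M a b c d
  nd : [a, b, c, d, e, f].Nodup
  s0 : 0 < s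
  s1 : s < 1
  t0 : 0 < t
  t1 : t < 1
  u0 : 1 ≤ u
  uu : u < u'
  u3 : u' < 3
  w3 : 3 < w
  wm : w < m
  mw : m < w'
  gap : w' + s ≤ 5
  j0 : w' - m < 1
  j0' : m - w < 1
  j1 : u' + 1 ≤ m
  j3 : m < u + 3
  j4 : t + 3 < m
  J : T (pt M φ) = T M
  J' : T (pt M (φ + m)) = T M
  A0 : ∀ x, -s < x → x < 0 → T (pt M (φ + x)) = {a, b}
  C0 : ∀ x, 0 < x → x < t → T (pt M (φ + x)) = {c, d}
  A1 : ∀ x, u < x → x < u' → T (pt M (φ + x)) = {a, b}
  C2 : ∀ x, w < x → x < m → T (pt M (φ + x)) = {c, d}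
  A2 : ∀ x, m < x → x < w' → T (pt M (φ + x)) = {a, b}
  e0 : T (pt M (φ - s)) = {a, b, f}
  e0' : T (pt M (φ + t)) = {c, d, e}
  e1 : T (pt M (φ + u)) = {a, b, f}
  e1' : T (pt M (φ + u')) = {a, b, e}
  e2 : T (pt M (φ + w)) = {c, d, f}
  e2' : T (pt M (φ + w')) = {a, b, e}
  cl : ∀ x, -s ≤ x → x < 6 - s → φ + x ∈ Ad T M {a, b} {c, d} →
    x ≤ t ∨ (u ≤ x ∧ x ≤ u') ∨ (w ≤ x ∧ x ≤ w')

/-- every point of the circle has a direction in a given period -/
theorem exists_dir {M v : ℂ} (hv : dist v M = 1) (φ r : ℝ) :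
    ∃ x, r ≤ x ∧ x < r + 6 ∧ v = pt M (φ + x) := by
  have hpi := Real.pi_pos
  obtain ⟨θ, hθ⟩ := exists_cis (u := v - M) (by rw [← dist_eq_norm]; exact hv)
  set x0 : ℝ := θ / (Real.pi / 3) - φ with hx0
  have h0 : v = pt M (φ + x0) := by
    unfold pt
    rw [hx0, show (φ + (θ / (Real.pi / 3) - φ)) * (Real.pi / 3) = θ by field_simp; ring, ← hθ]
    ring
  obtain ⟨n, hn, -⟩ := existsUnique_add_zsmul_mem_Ico (show (0 : ℝ) < 6 by norm_num) x0 r
  refine ⟨x0 + n • (6 : ℝ), hn.1, hn.2, ?_⟩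
  rw [h0]
  have key : ∀ k : ℤ, ∀ y : ℝ, pt M (y + k • (6 : ℝ)) = pt M y := by
    intro k y
    unfold pt
    rw [show (y + k • (6 : ℝ)) * (Real.pi / 3) = y * (Real.pi / 3) + k * (2 * Real.pi) by
      rw [zsmul_eq_mul]; ring]
    congr 1
    unfold cis
    push_cast
    rw [show ((y : ℂ) * (Real.pi / 3) + k * (2 * Real.pi)) * Complex.I =
      (y * (Real.pi / 3)) * Complex.I + k * (2 * Real.pi * Complex.I) by ring]
    exact Complex.exp_periodic.int_mul k _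
  rw [← add_assoc, key]

/-- the distance of the second centre -/
theorem dist_sum {M : ℂ} {x x' : ℝ} (h0 : |x - x'| ≤ 2) :
    1 ≤ dist (pt M x + pt M x' - M) M := by
  have hpi := Real.pi_pos
  have e1 : pt M x + pt M x' - M - M =
      cis (x * (Real.pi / 3)) + cis (x' * (Real.pi / 3)) := by unfold pt; ring
  have hc : -(1 / 2) ≤ Real.cos ((x - x') * (Real.pi / 3)) := by
    rw [← Real.cos_abs, abs_mul, abs_of_pos (show 0 < Real.pi / 3 by positivity)]
    have h3 : Real.cos (2 * Real.pi / 3) = -(1 / 2) := by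
      rw [show 2 * Real.pi / 3 = Real.pi - Real.pi / 3 by ring, Real.cos_pi_sub,
        Real.cos_pi_div_three]
    rw [← h3]
    exact Real.cos_le_cos_of_nonneg_of_le_pi (by positivity) (by linarith) (by nlinarith)
  have h1 : dist (pt M x + pt M x' - M) M ^ 2 =
      2 + 2 * Real.cos ((x - x') * (Real.pi / 3)) := by
    rw [dist_eq_norm, e1, Complex.sq_norm, Complex.normSq_apply]
    simp only [Complex.add_re, Complex.add_im, H695.cis_re, H695.cis_im]
    rw [sub_mul, Real.cos_sub]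
    linear_combination Real.sin_sq_add_cos_sq (x * (Real.pi / 3)) +
      Real.sin_sq_add_cos_sq (x' * (Real.pi / 3))
  have h2 := dist_nonneg (x := pt M x + pt M x' - M) (y := M)
  nlinarith

/-- a direction in the cone of two directions -/
theorem cone_pt {M : ℂ} {x y x' : ℝ} (h1 : x < y) (h2 : y < x') (h3 : x' - x < 3) :
    ∃ α β : ℝ, 0 < α ∧ 0 < β ∧
      pt M y - M = (α : ℂ) * (pt M x - M) + (β : ℂ) * (pt M x' - M) := by
  have hpi := Real.pi_pos
  have hs : 0 < Real.sin ((x' - x) * (Real.pi / 3)) :=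
    Real.sin_pos_of_pos_of_lt_pi (by nlinarith) (by nlinarith)
  have hs1 : 0 < Real.sin ((x' - y) * (Real.pi / 3)) :=
    Real.sin_pos_of_pos_of_lt_pi (by nlinarith) (by nlinarith)
  have hs2 : 0 < Real.sin ((y - x) * (Real.pi / 3)) :=
    Real.sin_pos_of_pos_of_lt_pi (by nlinarith) (by nlinarith)
  refine ⟨_, _, div_pos hs1 hs, div_pos hs2 hs, ?_⟩
  have k1 := Real.sin_sub (x' * (Real.pi / 3)) (x * (Real.pi / 3))
  have k2 := Real.sin_sub (x' * (Real.pi / 3)) (y * (Real.pi / 3))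
  have k3 := Real.sin_sub (y * (Real.pi / 3)) (x * (Real.pi / 3))
  rw [← sub_mul] at k1 k2 k3
  rw [pt_sub, pt_sub, pt_sub]
  rw [Complex.ext_iff]
  simp only [Complex.add_re, Complex.add_im, Complex.re_ofReal_mul, Complex.im_ofReal_mul,
    H695.cis_re, H695.cis_im]
  constructor
  · rw [div_mul_eq_mul_div, div_mul_eq_mul_div, ← add_div, eq_div_iff hs.ne', k1, k2, k3]
    ring
  · rw [div_mul_eq_mul_div, div_mul_eq_mul_div, ← add_div, eq_div_iff hs.ne', k1, k2, k3]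
    ring

namespace OldW

variable {M y : ℂ} {φ : ℝ} {a b c d e f : Fin 6} {s t u u' w m w' : ℝ}

theorem eT (O : OldW T M φ a b c d e f s t u u' w m w') : e ∉ T M ∧ f ∉ T M := by
  obtain ⟨⟨ab, ac, ad, ae, af⟩, ⟨bc, bd, be, bf⟩, ⟨cd, ce, cf⟩, ⟨de, df⟩, ef⟩ :=
    S5.H349.nd_ne O.nd
  rw [O.hz.pal]
  simp only [mem_insert_iff, mem_singleton_iff, not_or]
  exact ⟨⟨ae.symm, be.symm, ce.symm, de.symm⟩, ⟨af.symm, bf.symm, cf.symm, df.symm⟩⟩

/-- the same word with the colours `c`, `d` exchanged -/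
theorem swap (O : OldW T M φ a b c d e f s t u u' w m w') :
    OldW T M φ a b d c e f s t u u' w m w' where
  hz := O.hz.swap34
  nd := by
    have := O.nd
    simp only [List.nodup_cons, List.mem_cons, List.not_mem_nil, or_false, not_or,
      List.nodup_nil, and_true, not_false_eq_true] at this ⊢
    obtain ⟨⟨ab, ac, ad, ae, af⟩, ⟨bc, bd, be, bf⟩, ⟨cd, ce, cf⟩, ⟨de, df⟩, ef⟩ := this
    exact ⟨⟨ab, ad, ac, ae, af⟩, ⟨bd, bc, be, bf⟩, ⟨Ne.symm cd, de, df⟩, ⟨ce, cf⟩, ef⟩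
  s0 := O.s0
  s1 := O.s1
  t0 := O.t0
  t1 := O.t1
  u0 := O.u0
  uu := O.uu
  u3 := O.u3
  w3 := O.w3
  wm := O.wm
  mw := O.mw
  gap := O.gap
  j0 := O.j0
  j0' := O.j0'
  j1 := O.j1
  j3 := O.j3
  j4 := O.j4
  J := O.J
  J' := O.J'
  A0 := O.A0
  C0 := fun x h1 h2 => by rw [O.C0 x h1 h2, pair_comm]
  A1 := O.A1
  C2 := fun x h1 h2 => by rw [O.C2 x h1 h2, pair_comm]
  A2 := O.A2
  e0 := O.e0
  e0' := by rw [O.e0', Set.insert_comm]
  e1 := O.e1
  e1' := O.e1'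
  e2 := by rw [O.e2, Set.insert_comm]
  e2' := O.e2'
  cl := fun x h1 h2 h3 => O.cl x h1 h2 (by rwa [pair_comm c d])

/-- no exact arcs in the gaps -/
theorem out (O : OldW T M φ a b c d e f s t u u' w m w') {x : ℝ} (h1 : w' - 6 < x)
    (h2 : x < 6 - s) (h3 : x < -s ∨ (t < x ∧ x < u) ∨ (u' < x ∧ x < w) ∨ w' < x) :
    φ + x ∉ Ad T M {a, b} {c, d} := by
  intro h4
  have t0 := O.t0
  have s0 := O.s0
  have u0 := O.u0
  have t1 := O.t1
  have uu := O.uu
  have u3 := O.u3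
  have w3 := O.w3
  have wm := O.wm
  have mw := O.mw
  have gap := O.gap
  by_cases h5 : -s ≤ x
  · rcases O.cl x h5 h2 h4 with k | k | k <;> rcases h3 with h3 | h3 | h3 | h3 <;> linarith
  · push Not at h5
    have h6 : φ + (x + 6) ∈ Ad T M {a, b} {c, d} := by
      rw [← add_assoc]; exact (Ad_per _ _ _).2 h4
    rcases O.cl (x + 6) (by linarith) (by linarith) h6 with k | k | k <;> linarith

end OldW

/-- the relative form of the sign rules -/
theorem JPair.sgr {z y : ℂ} {a b c d e f : Fin 6} (S : JPair U T z y a b c d e f) (φ : ℝ) :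
    SG {x | φ + x ∈ Sd T z y e f} {x | φ + x ∈ Sd T z y f e}
      {x | φ + x ∈ Ad T z {a, b} {c, d}} {x | φ + x ∈ Ad T y {a, c} {b, d}} := by
  have := S.sg.shift φ
  simpa only [add_comm _ φ] using this

theorem ev_lt {A : Set ℝ} {φ x l : ℝ} (h : ∀ r, l < r → r < x → φ + r ∉ A) (hl : l < x) :
    ∀ᶠ r in 𝓝[<] (φ + x), r ∉ A := by
  filter_upwards [Ioo_mem_nhdsLT (show φ + l < φ + x by linarith)] with r hr
  have := h (r - φ) (by linarith [hr.1]) (by linarith [hr.2])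
  rwa [show φ + (r - φ) = r by ring] at this

theorem ev_gt {A : Set ℝ} {φ x l : ℝ} (h : ∀ r, x < r → r < l → φ + r ∉ A) (hl : x < l) :
    ∀ᶠ r in 𝓝[>] (φ + x), r ∉ A := by
  filter_upwards [Ioo_mem_nhdsGT (show φ + x < φ + l by linarith)] with r hr
  have := h (r - φ) (by linarith [hr.1]) (by linarith [hr.2])
  rwa [show φ + (r - φ) = r by ring] at this

theorem Bf.rel {A : Set ℝ} {φ x : ℝ} (h : Bf A (φ + x)) : Bf {r | φ + r ∈ A} x := by
  obtain ⟨δ, hδ, h1⟩ := h.exists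
  exact bf_of hδ fun r h2 h3 => h1 _ (by linarith) (by linarith)

theorem Af.rel {A : Set ℝ} {φ x : ℝ} (h : Af A (φ + x)) : Af {r | φ + r ∈ A} x := by
  obtain ⟨δ, hδ, h1⟩ := h.exists
  exact af_of hδ fun r h2 h3 => h1 _ (by linarith) (by linarith)

namespace OldW

variable {M y : ℂ} {φ : ℝ} {a b c d e f : Fin 6} {s t u u' w m w' : ℝ}

/-- the gaps and the cones, up to equality -/
theorem pos (O : OldW T M φ a b c d e f s t u u' w m w') (S : JPair U T M y a b c d e f) :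
    u - t ≤ 2 ∧ w - u' ≤ 2 ∧ u + s ≤ 3 ∧ w' - u' ≤ 3 := by
  obtain ⟨⟨ab, ac, ad, ae, af⟩, ⟨bc, bd, be, bf⟩, ⟨cd, ce, cf⟩, ⟨de, df⟩, ef⟩ :=
    S5.H349.nd_ne O.nd
  have t0 := O.t0
  have s0 := O.s0
  have s1 := O.s1
  have u0 := O.u0
  have t1 := O.t1
  have uu := O.uu
  have u3 := O.u3
  have w3 := O.w3
  have wm := O.wm
  have mw := O.mw
  have gap := O.gap
  have R := S.sgr φ
  have eA : ∀ i, i ≠ a → i ≠ b → i ≠ e → i ∉ ({a, b, e} : Set (Fin 6)) := by
    rintro i h1 h2 h3 (k | k | k)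
    exacts [h1 k, h2 k, h3 k]
  have b0 : Bf {x | φ + x ∈ Sd T M y e f} (-s) := by
    refine Bf.rel (S.bz' (ev_lt (l := w' - 6) (fun r h1 h2 => O.out h1 (by linarith)
      (Or.inl h2)) (by linarith)) ?_)
    rw [← sub_eq_add_neg, O.e0]
    rintro (k | k | k)
    exacts [ae.symm k, be.symm k, ef k]
  have b1 : Bf {x | φ + x ∈ Sd T M y e f} u := by
    refine Bf.rel (S.bz' (ev_lt (l := t) (fun r h1 h2 => O.out (by linarith) (by linarith)
      (Or.inr (Or.inl ⟨h1, h2⟩))) (by linarith)) ?_)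
    rw [O.e1]
    rintro (k | k | k)
    exacts [ae.symm k, be.symm k, ef k]
  have b2 : Bf {x | φ + x ∈ Sd T M y e f} w := by
    refine Bf.rel (S.bz' (ev_lt (l := u') (fun r h1 h2 => O.out (by linarith) (by linarith)
      (Or.inr (Or.inr (Or.inl ⟨h1, h2⟩)))) (by linarith)) ?_)
    rw [O.e2]
    rintro (k | k | k)
    exacts [ce.symm k, de.symm k, ef k]
  have a0 : Af {x | φ + x ∈ Sd T M y f e} t := by
    refine Af.rel (S.az (ev_gt (l := u) (fun r h1 h2 => O.out (by linarith) (by linarith)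
      (Or.inr (Or.inl ⟨h1, h2⟩))) (by linarith)) ?_)
    rw [O.e0']
    rintro (k | k | k)
    exacts [cf.symm k, df.symm k, ef.symm k]
  have a1 : Af {x | φ + x ∈ Sd T M y f e} u' := by
    refine Af.rel (S.az (ev_gt (l := w) (fun r h1 h2 => O.out (by linarith) (by linarith)
      (Or.inr (Or.inr (Or.inl ⟨h1, h2⟩)))) (by linarith)) ?_)
    rw [O.e1']
    rintro (k | k | k)
    exacts [af.symm k, bf.symm k, ef.symm k]
  have a2 : Af {x | φ + x ∈ Sd T M y f e} w' := by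
    refine Af.rel (S.az (ev_gt (l := 6 - s) (fun r h1 h2 => O.out (by linarith) h2
      (Or.inr (Or.inr (Or.inr h1)))) (by linarith)) ?_)
    rw [O.e2']
    rintro (k | k | k)
    exacts [af.symm k, bf.symm k, ef.symm k]
  refine ⟨R.gap_len (by linarith) a0 b1 fun r h1 h2 =>
    O.out (by linarith) (by linarith) (Or.inr (Or.inl ⟨h1, h2⟩)),
    R.gap_len (by linarith) a1 b2 fun r h1 h2 =>
    O.out (by linarith) (by linarith) (Or.inr (Or.inr (Or.inl ⟨h1, h2⟩))),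
    R.cone s0 s1 t0 t1 (by linarith) uu u3 w3 (by linarith) gap O.cl b0 b1 b2 a1 a2,
    R.cone' s0 t0 (by linarith) uu gap wm mw O.j0 O.j0' O.j1 O.j3 O.j4 O.cl b0 b1 a0 a1 a2⟩

end OldW

/-- an end after which the arc starts -/
theorem start594 (h : Irr U T) {z : ℂ} {a b c d g : Fin 6} (hz : DPt T z a b c d) (hg : g ∉ T z)
    {φ x l r : ℝ} (hT : T (pt z (φ + x)) = {a, b, g}) (hl : l < x)
    (hout : ∀ y, l < y → y < x → φ + y ∉ Ad T z {a, b} {c, d}) (hr : x < r)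
    (harc : ∀ y, x < y → y < r → T (pt z (φ + y)) = {a, b}) :
    EE T z (pt z (φ + x)) ∧ ore T z (pt z (φ + x)) = -1 := by
  refine ⟨ee_arc hz hg hT (oend_arc hz hg (o := -1) (Or.inr rfl) hT (ε := r - x) (by linarith)
    fun q h1 h2 => ?_), ore_neg (not_oend hz hg hT ?_)⟩
  · rw [show φ + x - -1 * q = φ + (x + q) by ring]
    exact harc _ (by linarith) (by linarith)
  · refine Filter.Eventually.frequently ?_
    filter_upwards [ev_lt hout hl] with q hq hT'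
    exact hq (Or.inl (subset_closure (ex_pair h hz (dist_pt z q) hT')))

/-- an end before which the arc stops -/
theorem stop594 {z : ℂ} {a b c d g : Fin 6} (hz : DPt T z a b c d) (hg : g ∉ T z)
    {φ x l : ℝ} (hT : T (pt z (φ + x)) = {a, b, g}) (hl : l < x)
    (harc : ∀ y, l < y → y < x → T (pt z (φ + y)) = {a, b}) :
    EE T z (pt z (φ + x)) ∧ ore T z (pt z (φ + x)) = 1 := by
  have O := oend_arc hz hg (o := 1) (Or.inl rfl) hT (ε := x - l) (by linarith)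
    fun q h1 h2 => by
      rw [show φ + x - 1 * q = φ + (x - q) by ring]
      exact harc _ (by linarith) (by linarith)
  exact ⟨ee_arc hz hg hT O, ore_pos O⟩

namespace OldW

variable {M y : ℂ} {φ : ℝ} {a b c d e f : Fin 6} {s t u u' w m w' : ℝ}

/-- the six ends -/
theorem ends (h : Irr U T) (O : OldW T M φ a b c d e f s t u u' w m w') :
    (EE T M (pt M (φ + -s)) ∧ ore T M (pt M (φ + -s)) = -1) ∧
    (EE T M (pt M (φ + t)) ∧ ore T M (pt M (φ + t)) = 1) ∧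
    (EE T M (pt M (φ + u)) ∧ ore T M (pt M (φ + u)) = -1) ∧
    (EE T M (pt M (φ + u')) ∧ ore T M (pt M (φ + u')) = 1) ∧
    (EE T M (pt M (φ + w)) ∧ ore T M (pt M (φ + w)) = -1) ∧
    (EE T M (pt M (φ + w')) ∧ ore T M (pt M (φ + w')) = 1) := by
  obtain ⟨he, hf⟩ := O.eT
  have hz := O.hz
  have t0 := O.t0
  have s0 := O.s0
  have s1 := O.s1
  have u0 := O.u0
  have t1 := O.t1
  have uu := O.uu
  have u3 := O.u3
  have w3 := O.w3
  have wm := O.wm
  have mw := O.mw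
  have gap := O.gap
  refine ⟨start594 h hz hf (by rw [← sub_eq_add_neg]; exact O.e0) (l := w' - 6) (by linarith)
      (fun r h1 h2 => O.out h1 (by linarith) (Or.inl h2)) (r := 0) (by linarith) O.A0,
    stop594 hz.swap he O.e0' (l := 0) t0 O.C0,
    start594 h hz hf O.e1 (l := t) (by linarith)
      (fun r h1 h2 => O.out (by linarith) (by linarith) (Or.inr (Or.inl ⟨h1, h2⟩))) uu O.A1,
    stop594 hz he O.e1' uu O.A1,
    start594 h hz.swap hf O.e2 (l := u') (by linarith)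
      (fun r h1 h2 => ?_) wm O.C2,
    stop594 hz he O.e2' mw O.A2⟩
  rw [Ad_swap]
  exact O.out (by linarith) (by linarith) (Or.inr (Or.inr (Or.inl ⟨h1, h2⟩)))

/-- there are no other ends -/
theorem six (h : Irr U T) (O : OldW T M φ a b c d e f s t u u' w m w') {v : ℂ}
    (hv : EE T M v) :
    v = pt M (φ + -s) ∨ v = pt M (φ + t) ∨ v = pt M (φ + u) ∨ v = pt M (φ + u') ∨
      v = pt M (φ + w) ∨ v = pt M (φ + w') := by
  have hz := O.hz
  have h3 := hv.card_v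
  have h4 := hv.card_z
  obtain ⟨x, h1, h2, h5⟩ := exists_dir hv.dist φ (-s)
  have hA : φ + x ∈ Ad T M {a, b} {c, d} := by
    obtain ⟨⟨o, ho, hd, -, -, hc, ε, hε, hg⟩, -⟩ := id hv
    obtain ⟨i, j, hij, hp⟩ := Set.ncard_eq_two.1 hc
    have hT := hg (ε / 2) ⟨by linarith, by linarith⟩
    rw [hp] at hT
    have hi : i ∈ T M := by
      have : i ∈ T M ∩ T v := by rw [hp]; exact Or.inl rfl
      exact this.1
    have hj : j ∈ T M := by
      have : j ∈ T M ∩ T v := by rw [hp]; exact Or.inr rfl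
      exact this.1
    have hq : dist (M + (v - M) * cis (-(o * (ε / 2)))) M = 1 := by
      rw [dist_eq_norm, add_sub_cancel_left, norm_mul, ← dist_eq_norm, hd, one_mul, norm_cis]
    show pt M (φ + x) ∈ _ ∨ pt M (φ + x) ∈ _
    rw [← h5]
    rcases h.pair_eq492 hz hq hij hi hj hT with k | k
    · left; exact cl_ee h hz hv (by rw [hp, ← hT, k])
    · right; exact cl_ee h hz.swap hv (by rw [hp, ← hT, k])
  have c2 : ∀ {p q : Fin 6}, T (pt M (φ + x)) = {p, q} → False := by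
    intro p q k
    rw [h5, k] at h3
    have := Set.ncard_insert_le p {q}
    rw [Set.ncard_singleton] at this
    omega
  subst h5
  rcases O.cl x h1 (by linarith) hA with k | k | k
  · rcases h1.lt_or_eq with k1 | k1
    · rcases lt_trichotomy x 0 with k2 | k2 | k2
      · exact (c2 (O.A0 x k1 k2)).elim
      · rw [k2, add_zero, O.J] at h3
        omega
      · rcases k.lt_or_eq with k3 | k3
        · exact (c2 (O.C0 x k2 k3)).elim
        · right; left; rw [k3]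
    · left; rw [← k1]
  · rcases k.1.lt_or_eq with k1 | k1
    · rcases k.2.lt_or_eq with k3 | k3
      · exact (c2 (O.A1 x k1 k3)).elim
      · right; right; right; left; rw [k3]
    · right; right; left; rw [k1]
  · rcases k.1.lt_or_eq with k1 | k1
    · rcases lt_trichotomy x m with k2 | k2 | k2
      · exact (c2 (O.C2 x k1 k2)).elim
      · rw [k2, O.J'] at h3
        omega
      · rcases k.2.lt_or_eq with k3 | k3
        · exact (c2 (O.A2 x k2 k3)).elim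
        · right; right; right; right; right; rw [k3]
    · right; right; right; right; left; rw [k1]

/-- the four types of ends are different -/
theorem nes (O : OldW T M φ a b c d e f s t u u' w m w') :
    (({a, b, f} : Set (Fin 6)) ≠ {c, d, e}) ∧ (({a, b, f} : Set (Fin 6)) ≠ {a, b, e}) ∧
    (({a, b, f} : Set (Fin 6)) ≠ {c, d, f}) ∧ (({c, d, e} : Set (Fin 6)) ≠ {a, b, e}) ∧
    (({c, d, e} : Set (Fin 6)) ≠ {c, d, f}) ∧ (({a, b, e} : Set (Fin 6)) ≠ {c, d, f}) := by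
  obtain ⟨⟨ab, ac, ad, ae, af⟩, ⟨bc, bd, be, bf⟩, ⟨cd, ce, cf⟩, ⟨de, df⟩, ef⟩ :=
    S5.H349.nd_ne O.nd
  have key : ∀ {i : Fin 6} {X Y : Set (Fin 6)}, i ∈ X → i ∉ Y → X ≠ Y := fun h1 h2 h3 =>
    h2 (h3 ▸ h1)
  refine ⟨key (i := a) (by simp) ?_, key (i := f) (by simp) ?_, key (i := a) (by simp) ?_,
    key (i := c) (by simp) ?_, key (i := e) (by simp) ?_, key (i := a) (by simp) ?_⟩ <;>
    simp only [mem_insert_iff, mem_singleton_iff, not_or]
  · exact ⟨ac, ad, ae⟩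
  · exact ⟨af.symm, bf.symm, ef.symm⟩
  · exact ⟨ac, ad, af⟩
  · exact ⟨ac.symm, bc.symm, ce⟩
  · exact ⟨ce.symm, de.symm, ef⟩
  · exact ⟨ac, ad, af⟩

/-- the type of an end -/
theorem typ (h : Irr U T) (O : OldW T M φ a b c d e f s t u u' w m w') {v : ℂ}
    (hv : EE T M v) :
    (T v = {a, b, f} ∧ ore T M v = -1 ∧ (v = pt M (φ + -s) ∨ v = pt M (φ + u))) ∨
    (T v = {c, d, e} ∧ ore T M v = 1 ∧ v = pt M (φ + t)) ∨
    (T v = {a, b, e} ∧ ore T M v = 1 ∧ (v = pt M (φ + u') ∨ v = pt M (φ + w'))) ∨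
    (T v = {c, d, f} ∧ ore T M v = -1 ∧ v = pt M (φ + w)) := by
  obtain ⟨h0, h1, h2, h3, h4, h5⟩ := O.ends h
  rcases O.six h hv with rfl | rfl | rfl | rfl | rfl | rfl
  · exact Or.inl ⟨by rw [← sub_eq_add_neg]; exact O.e0, h0.2, Or.inl rfl⟩
  · exact Or.inr (Or.inl ⟨O.e0', h1.2, rfl⟩)
  · exact Or.inl ⟨O.e1, h2.2, Or.inr rfl⟩
  · exact Or.inr (Or.inr (Or.inl ⟨O.e1', h3.2, Or.inl rfl⟩))
  · exact Or.inr (Or.inr (Or.inr ⟨O.e2, h4.2, rfl⟩))
  · exact Or.inr (Or.inr (Or.inl ⟨O.e2', h5.2, Or.inr rfl⟩))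

theorem compls (O : OldW T M φ a b c d e f s t u u' w m w') :
    (({a, b, f} : Set (Fin 6))ᶜ = {c, d, e}) ∧ (({a, b, e} : Set (Fin 6))ᶜ = {c, d, f}) := by
  obtain ⟨⟨ab, ac, ad, ae, af⟩, ⟨bc, bd, be, bf⟩, ⟨cd, ce, cf⟩, ⟨de, df⟩, ef⟩ :=
    S5.H349.nd_ne O.nd
  constructor
  · refine compl_of_nodup ?_
    simp only [List.nodup_cons, List.mem_cons, List.not_mem_nil, or_false, not_or, List.nodup_nil,
      and_true, not_false_eq_true]
    exact ⟨⟨ab, af, ac, ad, ae⟩, ⟨bf, bc, bd, be⟩, ⟨cf.symm, df.symm, ef.symm⟩, ⟨cd, ce⟩, de⟩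
  · refine compl_of_nodup ?_
    simp only [List.nodup_cons, List.mem_cons, List.not_mem_nil, or_false, not_or, List.nodup_nil,
      and_true, not_false_eq_true]
    exact ⟨⟨ab, ae, ac, ad, af⟩, ⟨be, bc, bd, bf⟩, ⟨ce.symm, de.symm, ef⟩, ⟨cd, cf⟩, df⟩

/-- two complementary ends -/
theorem partner (h : Irr U T) (O : OldW T M φ a b c d e f s t u u' w m w') {v q : ℂ}
    (hv : EE T M v) (hq : EE T M q) (hc : T q = (T v)ᶜ) :
    (T v = {a, b, f} ∧ ore T M v = -1 ∧ ore T M q = 1 ∧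
      (v = pt M (φ + -s) ∨ v = pt M (φ + u)) ∧ q = pt M (φ + t)) ∨
    (T v = {c, d, e} ∧ ore T M v = 1 ∧ ore T M q = -1 ∧ v = pt M (φ + t) ∧
      (q = pt M (φ + -s) ∨ q = pt M (φ + u))) ∨
    (T v = {a, b, e} ∧ ore T M v = 1 ∧ ore T M q = -1 ∧
      (v = pt M (φ + u') ∨ v = pt M (φ + w')) ∧ q = pt M (φ + w)) ∨
    (T v = {c, d, f} ∧ ore T M v = -1 ∧ ore T M q = 1 ∧ v = pt M (φ + w) ∧
      (q = pt M (φ + u') ∨ q = pt M (φ + w'))) := by
  obtain ⟨n1, n2, n3, n4, n5, n6⟩ := O.nes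
  obtain ⟨c1, c2⟩ := O.compls
  have c3 : ({c, d, e} : Set (Fin 6))ᶜ = {a, b, f} := by rw [← c1, compl_compl]
  have c4 : ({c, d, f} : Set (Fin 6))ᶜ = {a, b, e} := by rw [← c2, compl_compl]
  rcases O.typ h hv with ⟨k1, k2, k3⟩ | ⟨k1, k2, k3⟩ | ⟨k1, k2, k3⟩ | ⟨k1, k2, k3⟩ <;>
    rw [k1] at hc
  · rw [c1] at hc
    rcases O.typ h hq with ⟨j1, j2, j3⟩ | ⟨j1, j2, j3⟩ | ⟨j1, j2, j3⟩ | ⟨j1, j2, j3⟩
    · exact absurd (j1.symm.trans hc) n1
    · exact Or.inl ⟨k1, k2, j2, k3, j3⟩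
    · exact absurd (hc.symm.trans j1) n4
    · exact absurd (hc.symm.trans j1) n5
  · rw [c3] at hc
    rcases O.typ h hq with ⟨j1, j2, j3⟩ | ⟨j1, j2, j3⟩ | ⟨j1, j2, j3⟩ | ⟨j1, j2, j3⟩
    · exact Or.inr (Or.inl ⟨k1, k2, j2, k3, j3⟩)
    · exact absurd (hc.symm.trans j1) n1
    · exact absurd (hc.symm.trans j1) n2
    · exact absurd (hc.symm.trans j1) n3
  · rw [c2] at hc
    rcases O.typ h hq with ⟨j1, j2, j3⟩ | ⟨j1, j2, j3⟩ | ⟨j1, j2, j3⟩ | ⟨j1, j2, j3⟩
    · exact absurd (j1.symm.trans hc) n3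
    · exact absurd (j1.symm.trans hc) n5
    · exact absurd (j1.symm.trans hc) n6
    · exact Or.inr (Or.inr (Or.inl ⟨k1, k2, j2, k3, j3⟩))
  · rw [c4] at hc
    rcases O.typ h hq with ⟨j1, j2, j3⟩ | ⟨j1, j2, j3⟩ | ⟨j1, j2, j3⟩ | ⟨j1, j2, j3⟩
    · exact absurd (j1.symm.trans hc) n2
    · exact absurd (j1.symm.trans hc) n4
    · exact Or.inr (Or.inr (Or.inr ⟨k1, k2, j2, k3, j3⟩))
    · exact absurd (hc.symm.trans j1) n6

theorem two_compl (h : Irr U T) (O : OldW T M φ a b c d e f s t u u' w m w') {v : ℂ}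
    (hv : EE T M v) : ∃ q, EE T M q ∧ T q = (T v)ᶜ := by
  obtain ⟨h0, h1, h2, h3, h4, h5⟩ := O.ends h
  obtain ⟨c1, c2⟩ := O.compls
  have c3 : ({c, d, e} : Set (Fin 6))ᶜ = {a, b, f} := by rw [← c1, compl_compl]
  have c4 : ({c, d, f} : Set (Fin 6))ᶜ = {a, b, e} := by rw [← c2, compl_compl]
  rcases O.typ h hv with ⟨k1, -⟩ | ⟨k1, -⟩ | ⟨k1, -⟩ | ⟨k1, -⟩
  · exact ⟨_, h1.1, by rw [k1, c1, O.e0']⟩
  · exact ⟨_, h2.1, by rw [k1, c3, O.e1]⟩
  · exact ⟨_, h4.1, by rw [k1, c2, O.e2]⟩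
  · exact ⟨_, h3.1, by rw [k1, c4, O.e1']⟩

theorem two_ori (h : Irr U T) (O : OldW T M φ a b c d e f s t u u' w m w') {v q : ℂ}
    (hv : EE T M v) (hq : EE T M q) (hc : T q = (T v)ᶜ) : ore T M q = - ore T M v := by
  rcases O.partner h hv hq hc with ⟨-, k1, k2, -⟩ | ⟨-, k1, k2, -⟩ | ⟨-, k1, k2, -⟩ |
    ⟨-, k1, k2, -⟩ <;> rw [k1, k2] <;> norm_num

theorem two_dist (h : Irr U T) (O : OldW T M φ a b c d e f s t u u' w m w')
    (S : JPair U T M y a b c d e f) {v q : ℂ}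
    (hv : EE T M v) (hq : EE T M q) (hc : T q = (T v)ᶜ) : 1 ≤ dist (v + q - M) M := by
  obtain ⟨g1, g2, -, -⟩ := O.pos S
  have t0 := O.t0
  have s0 := O.s0
  have s1 := O.s1
  have u0 := O.u0
  have t1 := O.t1
  have uu := O.uu
  have u3 := O.u3
  have w3 := O.w3
  have wm := O.wm
  have mw := O.mw
  have j0 := O.j0
  have j0' := O.j0'
  rcases O.partner h hv hq hc with ⟨-, -, -, rfl | rfl, rfl⟩ | ⟨-, -, -, rfl, rfl | rfl⟩ |
    ⟨-, -, -, rfl | rfl, rfl⟩ | ⟨-, -, -, rfl, rfl | rfl⟩ <;>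
  · refine dist_sum ?_
    rw [abs_le]
    constructor <;> linarith

/-- `y` is in the open cone, from angles -/
theorem two_cone (h : Irr U T) (hS : Sec4 T) (hJ : OnlyJC T)
    (O : OldW T M φ a b c d e f s t u u' w m w') (S : JPair U T M y a b c d e f) {v v' q : ℂ}
    (hv : EE T M v) (hv' : EE T M v') (hT : T v' = T v) (hne : v ≠ v') (hq : EE T M q)
    (hc : T q = (T v)ᶜ) :
    ∃ α β : ℝ, 0 < α ∧ 0 < β ∧ q - M = (α : ℂ) * (v - M) + (β : ℂ) * (v' - M) := by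
  obtain ⟨-, -, g3, g4⟩ := O.pos S
  obtain ⟨n1, n2, n3, n4, n5, n6⟩ := O.nes
  have t0 := O.t0
  have s0 := O.s0
  have u0 := O.u0
  have t1 := O.t1
  have uu := O.uu
  have u3 := O.u3
  have w3 := O.w3
  have wm := O.wm
  have mw := O.mw
  have hd := (cnet h hS hJ).dt_ne_same hq hv hv' (by rw [hc, compl_compl])
    (by rw [hT, hc, compl_compl]) hne
  have hdt : ∀ x x' : ℝ, Net.H672.dt (pt M (φ + x) - M) (pt M (φ + x') - M) =
      Real.sin ((x' - x) * (Real.pi / 3)) := by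
    intro x x'
    rw [show x' - x = φ + x' - (φ + x) by ring]
    exact cr_pt M _ _
  have key : ∀ {x y x' : ℝ}, x < y → y < x' → x' - x ≤ 3 →
      Net.H672.dt (pt M (φ + x) - M) (pt M (φ + x') - M) ≠ 0 →
      ∃ α β : ℝ, 0 < α ∧ 0 < β ∧ pt M (φ + y) - M =
        (α : ℂ) * (pt M (φ + x) - M) + (β : ℂ) * (pt M (φ + x') - M) := by
    intro x y x' h1 h2 h3 h4
    refine cone_pt (by linarith) (by linarith) ?_
    rcases h3.lt_or_eq with h5 | h5
    · linarith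
    · exfalso
      apply h4
      rw [hdt, h5, show (3 : ℝ) * (Real.pi / 3) = Real.pi by ring, Real.sin_pi]
  have key' : ∀ {x y x' : ℝ}, x < y → y < x' → x' - x ≤ 3 →
      Net.H672.dt (pt M (φ + x') - M) (pt M (φ + x) - M) ≠ 0 →
      ∃ α β : ℝ, 0 < α ∧ 0 < β ∧ pt M (φ + y) - M =
        (α : ℂ) * (pt M (φ + x') - M) + (β : ℂ) * (pt M (φ + x) - M) := by
    intro x y x' h1 h2 h3 h4
    rw [Net.H672.dt_comm] at h4
    obtain ⟨α, β, h5, h6, h7⟩ := key h1 h2 h3 (fun h8 => h4 (by rw [h8, neg_zero]))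
    exact ⟨β, α, h6, h5, by rw [h7]; ring⟩
  have hc' : T q = (T v')ᶜ := by rw [hT, hc]
  rcases O.partner h hv hq hc with ⟨k1, -, -, k2, k3⟩ | ⟨k1, -, -, k2, k3⟩ |
    ⟨k1, -, -, k2, k3⟩ | ⟨k1, -, -, k2, k3⟩ <;>
  rcases O.partner h hv' hq hc' with ⟨j1, -, -, j2, j3⟩ | ⟨j1, -, -, j2, j3⟩ |
    ⟨j1, -, -, j2, j3⟩ | ⟨j1, -, -, j2, j3⟩ <;> rw [hT, k1] at j1
  · subst k3
    rcases k2 with rfl | rfl <;> rcases j2 with rfl | rfl
    · exact absurd rfl hne
    · exact key (by linarith) (by linarith) (by linarith) hd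
    · exact key' (by linarith) (by linarith) (by linarith) hd
    · exact absurd rfl hne
  · exact absurd j1 n1
  · exact absurd j1 n2
  · exact absurd j1 n3
  · exact absurd j1.symm n1
  · exact absurd (k2.trans j2.symm) hne
  · exact absurd j1 n4
  · exact absurd j1 n5
  · exact absurd j1.symm n2
  · exact absurd j1.symm n4
  · subst k3
    rcases k2 with rfl | rfl <;> rcases j2 with rfl | rfl
    · exact absurd rfl hne
    · exact key (by linarith) (by linarith) (by linarith) hd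
    · exact key' (by linarith) (by linarith) (by linarith) hd
    · exact absurd rfl hne
  · exact absurd j1 n6
  · exact absurd j1.symm n3
  · exact absurd j1.symm n5
  · exact absurd j1.symm n6
  · exact absurd (k2.trans j2.symm) hne

end OldW

end Vale.Agent.P032.H594
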