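import Mathlib.Topology.Connected.PathConnected
import Mathlib.Topology.Instances.Real.Lemmas
import Mathlib.Tactic.Linarith
import Mathlib.Tactic.Push

/-!
# P032: the sign function of two `J`-partners, abstract part (815 #16056)

`SG P N Z Y` : the sign rules.  `P`, `N` closed sets of the directions with sign `+`, `-`; `Z`, `Y`
closed sets of the directions of the exact arcs of the two circles.

* `SG.const`, `SG.flip` : the sign only changes at points of `P ∩ N`;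
* `SG.eq_block` : a block with equal signs before and after has length one and meets `Y` at both
  ends;
* `SG.diff_block` : a block with different signs contains a flip;
* `SG.j1j1` : the order of the blocks and the coincidences, if the blocks `B0`, `Y0` have equal signs
  and the other four have different signs.
-/

open Set Filter Topology Metric

namespace Vale.Agent.P032.H594

/-- the sign rules -/
structure SG (P N Z Y : Set ℝ) : Prop where
  cP : IsClosed P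
  cN : IsClosed N
  cZ : IsClosed Z
  cY : IsClosed Y
  cov : ∀ t, t ∈ P ∨ t ∈ N
  s1 : ∀ t, t ∈ Y → t ∉ interior Z
  s1' : ∀ t, t ∈ Z → t ∉ interior Y
  s2 : ∀ t, (t ∉ Z ∨ t + 1 ∉ Y) → (t ∉ Y ∨ t + 1 ∉ Z) →
    (t ∈ P ↔ t + 1 ∈ N) ∧ (t ∈ N ↔ t + 1 ∈ P)
  s3 : ∀ t, t ∈ P → t ∈ N → (t ∈ Z ∧ t ∉ Y ∧ t - 1 ∈ Y ∧ t + 1 ∈ Y) ∨
    (t ∈ Y ∧ t ∉ Z ∧ t - 1 ∈ Z ∧ t + 1 ∈ Z)
  pP : ∀ t, t + 6 ∈ P ↔ t ∈ P
  pN : ∀ t, t + 6 ∈ N ↔ t ∈ N
  pZ : ∀ t, t + 6 ∈ Z ↔ t ∈ Z
  pY : ∀ t, t + 6 ∈ Y ↔ t ∈ Y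

variable {P N Z Y : Set ℝ}

/-- the sign before `x` is the sign of the set whose complement is `N` -/
def Bf (N : Set ℝ) (x : ℝ) : Prop := ∀ᶠ t in 𝓝[<] x, t ∉ N

/-- the sign after `x` -/
def Af (N : Set ℝ) (x : ℝ) : Prop := ∀ᶠ t in 𝓝[>] x, t ∉ N

namespace SG

/-- exchange of the signs -/
theorem neg (S : SG P N Z Y) : SG N P Z Y where
  cP := S.cN
  cN := S.cP
  cZ := S.cZ
  cY := S.cY
  cov := fun t => (S.cov t).symm
  s1 := S.s1
  s1' := S.s1'
  s2 := fun t h1 h2 => (S.s2 t h1 h2).symm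
  s3 := fun t h1 h2 => S.s3 t h2 h1
  pP := S.pN
  pN := S.pP
  pZ := S.pZ
  pY := S.pY

/-- exchange of the circles -/
theorem swap (S : SG P N Z Y) : SG P N Y Z where
  cP := S.cP
  cN := S.cN
  cZ := S.cY
  cY := S.cZ
  cov := S.cov
  s1 := S.s1'
  s1' := S.s1
  s2 := fun t h1 h2 => S.s2 t h2 h1
  s3 := fun t h1 h2 => (S.s3 t h1 h2).symm
  pP := S.pP
  pN := S.pN
  pZ := S.pY
  pY := S.pZ

/-- **flip between different signs** -/
theorem flip (S : SG P N Z Y) {x x' : ℝ} (hx : x ≤ x') (h1 : x ∉ N) (h2 : x' ∉ P) :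
    ∃ t ∈ Icc x x', t ∈ P ∧ t ∈ N := by
  have hc := isPreconnected_closed_iff.1 (isPreconnected_Icc (a := x) (b := x')) P N S.cP S.cN
    (fun t _ => S.cov t) ⟨x, left_mem_Icc.2 hx, (S.cov x).resolve_right h1⟩
    ⟨x', right_mem_Icc.2 hx, (S.cov x').resolve_left h2⟩
  obtain ⟨t, ht, k1, k2⟩ := hc
  exact ⟨t, ht, k1, k2⟩

theorem P_of (S : SG P N Z Y) {x : ℝ} (h : x ∉ N) : x ∈ P := (S.cov x).resolve_right h

/-- without flips the sign is constant -/
theorem const (S : SG P N Z Y) {x x' : ℝ} (hx : x ≤ x') (h1 : x ∉ N)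
    (hf : ∀ t ∈ Icc x x', t ∈ P → t ∉ N) : x' ∉ N := by
  intro h2
  have h3 : x' ∉ P := fun h3 => hf x' (right_mem_Icc.2 hx) h3 h2
  obtain ⟨t, ht, k1, k2⟩ := S.flip hx h1 h3
  exact hf t ht k1 k2

theorem const' (S : SG P N Z Y) {x x' : ℝ} (hx : x ≤ x') (h1 : x' ∉ N)
    (hf : ∀ t ∈ Icc x x', t ∈ P → t ∉ N) : x ∉ N := by
  intro h2
  have h3 : x ∉ P := fun h3 => hf x (left_mem_Icc.2 hx) h3 h2
  obtain ⟨t, ht, k1, k2⟩ := S.neg.flip hx h3 h1
  exact hf t ht k2 k1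

theorem not_both_bf (S : SG P N Z Y) {x : ℝ} (h1 : Bf N x) (h2 : Bf P x) : False := by
  obtain ⟨t, k1, k2⟩ := (h1.and h2).exists
  rcases S.cov t with k | k
  · exact k2 k
  · exact k1 k

theorem not_both_af (S : SG P N Z Y) {x : ℝ} (h1 : Af N x) (h2 : Af P x) : False := by
  obtain ⟨t, k1, k2⟩ := (h1.and h2).exists
  rcases S.cov t with k | k
  · exact k2 k
  · exact k1 k

end SG

/-- points before `x` -/
theorem Bf.exists {N : Set ℝ} {x : ℝ} (h : Bf N x) : ∃ δ > 0, ∀ t, x - δ < t → t < x → t ∉ N := by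
  obtain ⟨l, hl, hs⟩ := (mem_nhdsLT_iff_exists_Ioo_subset (a := x)).1 h
  exact ⟨x - l, sub_pos.2 hl, fun t h1 h2 => hs ⟨by linarith, h2⟩⟩

/-- points after `x` -/
theorem Af.exists {N : Set ℝ} {x : ℝ} (h : Af N x) : ∃ δ > 0, ∀ t, x < t → t < x + δ → t ∉ N := by
  obtain ⟨l, hl, hs⟩ := (mem_nhdsGT_iff_exists_Ioo_subset (a := x)).1 h
  exact ⟨l - x, sub_pos.2 hl, fun t h1 h2 => hs ⟨h1, by linarith⟩⟩

theorem bf_of {N : Set ℝ} {x δ : ℝ} (hδ : 0 < δ) (h : ∀ t, x - δ < t → t < x → t ∉ N) : Bf N x :=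
  (mem_nhdsLT_iff_exists_Ioo_subset (a := x)).2
    ⟨x - δ, by show x - δ < x; linarith, fun t ht => h t ht.1 ht.2⟩

theorem af_of {N : Set ℝ} {x δ : ℝ} (hδ : 0 < δ) (h : ∀ t, x < t → t < x + δ → t ∉ N) : Af N x :=
  (mem_nhdsGT_iff_exists_Ioo_subset (a := x)).2
    ⟨x + δ, by show x < x + δ; linarith, fun t ht => h t ht.1 ht.2⟩

namespace SG

/-- a point which is no flip has the same sign before and after -/
theorem af_of_bf (S : SG P N Z Y) {x : ℝ} (h : Bf N x) (hx : ¬ (x ∈ P ∧ x ∈ N)) : Af N x := by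
  obtain ⟨δ, hδ, h1⟩ := h.exists
  have h2 : ∀ᶠ t in 𝓝 x, ¬ (t ∈ P ∧ t ∈ N) :=
    (S.cP.inter S.cN).isOpen_compl.mem_nhds (fun k => hx ⟨k.1, k.2⟩)
  obtain ⟨ε, hε, h3⟩ := Metric.eventually_nhds_iff.1 h2
  refine af_of hε fun t ht ht' => ?_
  set m := min δ ε / 2 with hm
  have hm0 : 0 < m := by rw [hm]; have := lt_min hδ hε; linarith
  have hmd : m < δ := by rw [hm]; have := min_le_left δ ε; have := lt_min hδ hε; linarith
  have hme : m < ε := by rw [hm]; have := min_le_right δ ε; have := lt_min hδ hε; linarith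
  refine S.const (x := x - m) (by linarith) (h1 _ (by linarith) (by linarith)) ?_
  intro s hs k1 k2
  refine h3 (y := s) ?_ ⟨k1, k2⟩
  rw [Real.dist_eq, abs_lt]
  exact ⟨by linarith [hs.1], by linarith [hs.2]⟩

theorem bf_of_af (S : SG P N Z Y) {x : ℝ} (h : Af N x) (hx : ¬ (x ∈ P ∧ x ∈ N)) : Bf N x := by
  obtain ⟨δ, hδ, h1⟩ := h.exists
  have h2 : ∀ᶠ t in 𝓝 x, ¬ (t ∈ P ∧ t ∈ N) :=
    (S.cP.inter S.cN).isOpen_compl.mem_nhds (fun k => hx ⟨k.1, k.2⟩)
  obtain ⟨ε, hε, h3⟩ := Metric.eventually_nhds_iff.1 h2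
  refine bf_of hε fun t ht ht' => ?_
  set m := min δ ε / 2 with hm
  have hm0 : 0 < m := by rw [hm]; have := lt_min hδ hε; linarith
  have hmd : m < δ := by rw [hm]; have := min_le_left δ ε; have := lt_min hδ hε; linarith
  have hme : m < ε := by rw [hm]; have := min_le_right δ ε; have := lt_min hδ hε; linarith
  refine S.const' (x' := x + m) (by linarith) (h1 _ (by linarith) (by linarith)) ?_
  intro s hs k1 k2
  refine h3 (y := s) ?_ ⟨k1, k2⟩
  rw [Real.dist_eq, abs_lt]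
  exact ⟨by linarith [hs.1], by linarith [hs.2]⟩

/-- **the sign is constant in a gap** -/
theorem gap (S : SG P N Z Y) {x x' : ℝ} (hx : x ≤ x') (h1 : Af N x)
    (hg : ∀ t ∈ Ioo x x', t ∉ Z ∧ t ∉ Y) (he : x = x' → x ∈ Z ∧ x ∈ Y) : Bf N x' := by
  rcases hx.lt_or_eq with hlt | heq
  · obtain ⟨δ, hδ, h2⟩ := h1.exists
    refine bf_of (δ := x' - x) (sub_pos.2 hlt) fun t ht ht' => ?_
    set m := min (δ / 2) ((t - x) / 2) with hm
    have hm0 : 0 < m := lt_min (by linarith) (by linarith)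
    have hmd : m < δ := lt_of_le_of_lt (min_le_left _ _) (by linarith)
    have hmt : m < t - x := lt_of_le_of_lt (min_le_right _ _) (by linarith)
    refine S.const (x := x + m) (by linarith) (h2 _ (by linarith) (by linarith)) ?_
    intro s hs k1 k2
    obtain ⟨g1, g2⟩ := hg s ⟨by linarith [hs.1], by linarith [hs.2]⟩
    rcases S.s3 s k1 k2 with k | k
    · exact g1 k.1
    · exact g2 k.1
  · subst heq
    obtain ⟨e1, e2⟩ := he rfl
    refine S.bf_of_af h1 ?_
    rintro ⟨k1, k2⟩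
    rcases S.s3 x k1 k2 with k | k
    · exact k.2.1 e2
    · exact k.2.1 e1

/-- **a block with different signs contains a flip** -/
theorem diff_block (S : SG P N Z Y) {b b' : ℝ} (hb : b ≤ b') (hB : Icc b b' ⊆ Z)
    (h1 : Bf N b) (h2 : Af P b') : ∃ t ∈ Icc b b', t ∉ Y ∧ t - 1 ∈ Y ∧ t + 1 ∈ Y := by
  obtain ⟨δ, hδ, k1⟩ := h1.exists
  obtain ⟨ε, hε, k2⟩ := h2.exists
  obtain ⟨t, ht, j1, j2⟩ := S.flip (x := b - δ / 2) (x' := b' + ε / 2) (by linarith)
    (k1 _ (by linarith) (by linarith)) (k2 _ (by linarith) (by linarith))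
  have ht1 : b ≤ t := by
    by_contra hcon
    push Not at hcon
    exact k1 t (by linarith [ht.1]) hcon j2
  have ht2 : t ≤ b' := by
    by_contra hcon
    push Not at hcon
    exact k2 t hcon (by linarith [ht.2]) j1
  refine ⟨t, ⟨ht1, ht2⟩, ?_⟩
  rcases S.s3 t j1 j2 with k | k
  · exact k.2
  · exact absurd (hB ⟨ht1, ht2⟩) k.2.1

theorem diff_block' (S : SG P N Z Y) {b b' : ℝ} (hb : b ≤ b') (hB : Icc b b' ⊆ Z)
    (h : (Bf N b ∧ Af P b') ∨ (Bf P b ∧ Af N b')) :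
    ∃ t ∈ Icc b b', t ∉ Y ∧ t - 1 ∈ Y ∧ t + 1 ∈ Y := by
  rcases h with h | h
  · exact S.diff_block hb hB h.1 h.2
  · exact S.neg.diff_block hb hB h.1 h.2

theorem not_Y (S : SG P N Z Y) {b b' t : ℝ} (hB : Icc b b' ⊆ Z) (h1 : b < t) (h2 : t < b') :
    t ∉ Y := fun ht => S.s1 t ht
  (mem_interior.2 ⟨Ioo b b', Ioo_subset_Icc_self.trans hB, isOpen_Ioo, h1, h2⟩)

/-- **a block with equal signs before and after** (EQ) -/
theorem eq_block (S : SG P N Z Y) {b b' : ℝ} (hb : b ≤ b') (hB : Icc b b' ⊆ Z)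
    (g1 : ∀ t, b' - 1 < t → t < b → t ∉ Z) (g2 : ∀ t, b' < t → t < b + 1 → t ∉ Z)
    (h0 : ∀ᶠ t in 𝓝[<] b, t ∉ Z) (h0' : ∀ᶠ t in 𝓝[>] b', t ∉ Z)
    (h1 : Bf N b) (h2 : Af N b') : b' = b + 1 ∧ b ∈ Y ∧ b' ∈ Y := by
  obtain ⟨δ, hδ, k1⟩ := h1.exists
  obtain ⟨ε, hε, k2⟩ := h2.exists
  obtain ⟨δ', hδ', k1'⟩ := Bf.exists (N := Z) h0
  obtain ⟨ε', hε', k2'⟩ := Af.exists (N := Z) h0'
  -- `|B| ≥ 1`
  have A1 : b + 1 ≤ b' := by
    by_contra hcon
    push Not at hcon
    -- a point `t` just before `b`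
    set m := min (min δ δ') (b + 1 - b') / 2 with hm
    have hmm : 0 < min (min δ δ') (b + 1 - b') := lt_min (lt_min hδ hδ') (by linarith)
    have hm0 : 0 < m := by rw [hm]; linarith
    have hm1 : m < δ := by
      rw [hm]
      have := (min_le_left (min δ δ') (b + 1 - b')).trans (min_le_left _ _)
      linarith
    have hm2 : m < δ' := by
      rw [hm]
      have := (min_le_left (min δ δ') (b + 1 - b')).trans (min_le_right _ _)
      linarith
    have hm3 : m < b + 1 - b' := by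
      rw [hm]
      have := min_le_right (min δ δ') (b + 1 - b')
      linarith
    have e1 := k1 (b - m) (by linarith) (by linarith)
    have e2 := k1' (b - m) (by linarith) (by linarith)
    have e3 := g2 (b - m + 1) (by linarith) (by linarith)
    have e4 := (S.s2 (b - m) (Or.inl e2) (Or.inr e3)).2
    have e5 : b - m + 1 ∉ P := fun k => e1 (e4.2 k)
    -- a flip between `b'` and `b - m + 1`
    set n := min (ε / 2) ((b - m + 1 - b') / 2) with hn
    have hn0 : 0 < n := lt_min (by linarith) (by linarith)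
    have hn1 : n < ε := lt_of_le_of_lt (min_le_left _ _) (by linarith)
    have hn2 : n < b - m + 1 - b' := lt_of_le_of_lt (min_le_right _ _) (by linarith)
    obtain ⟨t, ht, j1, j2⟩ := S.flip (x := b' + n) (x' := b - m + 1) (by linarith)
      (k2 _ (by linarith) (by linarith)) e5
    rcases S.s3 t j1 j2 with k | k
    · exact g2 t (by linarith [ht.1]) (by linarith [ht.2]) k.1
    · exact g1 (t - 1) (by linarith [ht.1]) (by linarith [ht.2]) k.2.2.1
  -- `|B| ≤ 1`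
  have A2 : b' ≤ b + 1 := by
    by_contra hcon
    push Not at hcon
    -- no flips in `(b + 1, b']` and in `[b, b' - 1)`
    have n1 : ∀ t, b + 1 < t → t ≤ b' → t ∈ P → t ∉ N := by
      intro t h3 h4 h5 h6
      rcases S.s3 t h5 h6 with k | k
      · exact S.not_Y hB (t := t - 1) (by linarith) (by linarith) k.2.2.1
      · exact k.2.1 (hB ⟨by linarith, h4⟩)
    have n2 : ∀ t, b ≤ t → t < b' - 1 → t ∈ P → t ∉ N := by
      intro t h3 h4 h5 h6
      rcases S.s3 t h5 h6 with k | k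
      · exact S.not_Y hB (t := t + 1) (by linarith) (by linarith) k.2.2.2
      · exact k.2.1 (hB ⟨h3, by linarith⟩)
    set m := (b' - 1 - b) / 2 with hm
    have hm0 : 0 < m := by rw [hm]; linarith
    have e1 : b' - m ∉ N := by
      refine S.const' (x' := b' + ε / 2) (by linarith) (k2 _ (by linarith) (by linarith)) ?_
      intro t ht j1 j2
      rcases le_or_gt t b' with h3 | h3
      · exact n1 t (by linarith [ht.1]) h3 j1 j2
      · exact k2 t h3 (by linarith [ht.2]) j2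
    have e2 : b' - m - 1 ∉ N := by
      refine S.const (x := b - δ / 2) (by linarith) (k1 _ (by linarith) (by linarith)) ?_
      intro t ht j1 j2
      rcases lt_or_ge t b with h3 | h3
      · exact k1 t (by linarith [ht.1]) h3 j2
      · exact n2 t h3 (by linarith [ht.2]) j1 j2
    have e3 := (S.s2 (b' - m - 1)
      (Or.inr (by rw [sub_add_cancel]; exact S.not_Y hB (by linarith) (by linarith)))
      (Or.inl (S.not_Y hB (by linarith) (by linarith)))).1
    rw [sub_add_cancel] at e3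
    exact e1 (e3.1 (S.P_of e2))
  have A3 : b' = b + 1 := le_antisymm A2 A1
  refine ⟨A3, ?_, ?_⟩
  · by_contra hbY
    have h3 : ∀ᶠ t in 𝓝 b, t ∉ Y := S.cY.isOpen_compl.mem_nhds hbY
    -- the sign before `b'` is `-`
    obtain ⟨ρ, hρ, h4⟩ := Metric.eventually_nhds_iff.1 h3
    have h5 : Bf P b' := by
      refine bf_of (δ := min (min δ δ') ρ) (lt_min (lt_min hδ hδ') hρ) fun t ht ht' => ?_
      have q1 := (min_le_left (min δ δ') ρ).trans (min_le_left _ _)
      have q2 := (min_le_left (min δ δ') ρ).trans (min_le_right _ _)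
      have q3 := min_le_right (min δ δ') ρ
      have e1 := k1 (t - 1) (by linarith) (by linarith)
      have e2 := k1' (t - 1) (by linarith) (by linarith)
      have e3 : t - 1 ∉ Y := h4 (by rw [Real.dist_eq, abs_lt]; constructor <;> linarith)
      have e4 := (S.s2 (t - 1) (Or.inl e2) (Or.inl e3)).2
      rw [sub_add_cancel] at e4
      exact fun k => e1 (e4.2 k)
    have h6 : b' ∈ P ∧ b' ∈ N := by
      by_contra hcon
      exact S.not_both_af h2 (S.neg.af_of_bf h5 fun k => hcon ⟨k.2, k.1⟩)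
    rcases S.s3 b' h6.1 h6.2 with k | k
    · refine hbY ?_
      have := k.2.2.1
      rwa [A3, add_sub_cancel_right] at this
    · exact k.2.1 (hB ⟨hb, le_rfl⟩)
  · by_contra hbY
    have h3 : ∀ᶠ t in 𝓝 b', t ∉ Y := S.cY.isOpen_compl.mem_nhds hbY
    obtain ⟨ρ, hρ, h4⟩ := Metric.eventually_nhds_iff.1 h3
    have h5 : Af P b := by
      refine af_of (δ := min (min ε ε') ρ) (lt_min (lt_min hε hε') hρ) fun t ht ht' => ?_
      have q1 := (min_le_left (min ε ε') ρ).trans (min_le_left _ _)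
      have q2 := (min_le_left (min ε ε') ρ).trans (min_le_right _ _)
      have q3 := min_le_right (min ε ε') ρ
      have e1 := k2 (t + 1) (by linarith) (by linarith)
      have e2 := k2' (t + 1) (by linarith) (by linarith)
      have e3 : t + 1 ∉ Y := h4 (by rw [Real.dist_eq, abs_lt]; constructor <;> linarith)
      have e4 := (S.s2 t (Or.inr e3) (Or.inr e2)).1
      exact fun k => e1 (e4.1 k)
    have h6 : b ∈ P ∧ b ∈ N := by
      by_contra hcon
      exact S.not_both_bf h1 (S.neg.bf_of_af h5 fun k => hcon ⟨k.2, k.1⟩)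
    rcases S.s3 b h6.1 h6.2 with k | k
    · refine hbY ?_
      have := k.2.2.2
      rwa [A3]
    · exact k.2.1 (hB ⟨le_rfl, hb⟩)

/-- (EQ), both signs -/
theorem eq_block' (S : SG P N Z Y) {b b' : ℝ} (hb : b ≤ b') (hB : Icc b b' ⊆ Z)
    (g1 : ∀ t, b' - 1 < t → t < b → t ∉ Z) (g2 : ∀ t, b' < t → t < b + 1 → t ∉ Z)
    (h0 : ∀ᶠ t in 𝓝[<] b, t ∉ Z) (h0' : ∀ᶠ t in 𝓝[>] b', t ∉ Z)
    (h : (Bf N b ∧ Af N b') ∨ (Bf P b ∧ Af P b')) : b' = b + 1 ∧ b ∈ Y ∧ b' ∈ Y := by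
  rcases h with h | h
  · exact S.eq_block hb hB g1 g2 h0 h0' h.1 h.2
  · exact S.neg.eq_block hb hB g1 g2 h0 h0' h.1 h.2

end SG

/-! ### Three blocks on each circle -/

/-- the three blocks of a circle, seen from a `J`-partner in the direction `c` -/
structure Blk (Z : Set ℝ) (c x0 x0' x1 x1' x2 x2' : ℝ) : Prop where
  a0 : c - 1 < x0
  b0 : x0 < c
  c0 : c < x0'
  d0 : x0' < c + 1
  a1 : c + 1 ≤ x1
  b1 : x1 < x1'
  c1 : x1' < c + 3
  a2 : c + 3 < x2
  b2 : x2 < x2'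
  c2 : x2' ≤ c + 5
  mem : ∀ t, c - 1 < t → t ≤ c + 5 →
    (t ∈ Z ↔ (x0 ≤ t ∧ t ≤ x0') ∨ (x1 ≤ t ∧ t ≤ x1') ∨ (x2 ≤ t ∧ t ≤ x2'))

/-- equal signs before `b` and after `b'` -/
def Eqs (P N : Set ℝ) (b b' : ℝ) : Prop := (Bf N b ∧ Af N b') ∨ (Bf P b ∧ Af P b')

/-- different signs before `b` and after `b'` -/
def Dif (P N : Set ℝ) (b b' : ℝ) : Prop := (Bf N b ∧ Af P b') ∨ (Bf P b ∧ Af N b')

theorem Eqs.neg {b b' : ℝ} (h : Eqs P N b b') : Eqs N P b b' := Or.symm h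

theorem Dif.neg {b b' : ℝ} (h : Dif P N b b') : Dif N P b b' := Or.symm h

namespace SG

theorem nper (S : SG P N Z Y) (t : ℝ) : t - 6 ∈ N ↔ t ∈ N := by
  have := S.pN (t - 6)
  rw [sub_add_cancel] at this
  exact this.symm

theorem bf_shift (S : SG P N Z Y) {x : ℝ} : Bf N (x - 6) ↔ Bf N x := by
  constructor
  · intro h
    obtain ⟨δ, hδ, h1⟩ := h.exists
    exact bf_of hδ fun t k1 k2 k3 => h1 (t - 6) (by linarith) (by linarith) ((S.nper t).2 k3)
  · intro h
    obtain ⟨δ, hδ, h1⟩ := h.exists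
    exact bf_of hδ fun t k1 k2 k3 => h1 (t + 6) (by linarith) (by linarith) ((S.pN t).2 k3)

theorem af_shift (S : SG P N Z Y) {x : ℝ} : Af N (x - 6) ↔ Af N x := by
  constructor
  · intro h
    obtain ⟨δ, hδ, h1⟩ := h.exists
    exact af_of hδ fun t k1 k2 k3 => h1 (t - 6) (by linarith) (by linarith) ((S.nper t).2 k3)
  · intro h
    obtain ⟨δ, hδ, h1⟩ := h.exists
    exact af_of hδ fun t k1 k2 k3 => h1 (t + 6) (by linarith) (by linarith) ((S.pN t).2 k3)

/-- after a sign `+` the difference -/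
theorem dif_af (S : SG P N Z Y) {b b' : ℝ} (h : Dif P N b b') (h1 : Bf N b) : Af P b' := by
  rcases h with h | h
  · exact h.2
  · exact (S.not_both_bf h1 h.1).elim

theorem eqs_af (S : SG P N Z Y) {b b' : ℝ} (h : Eqs P N b b') (h1 : Bf N b) : Af N b' := by
  rcases h with h | h
  · exact h.2
  · exact (S.not_both_bf h1 h.1).elim

variable {z0 z0' z1 z1' z2 z2' y0 y0' y1 y1' y2 y2' : ℝ}

/-- an interval of `Z` and an interval of `Y` have disjoint interiors -/
theorem sep (S : SG P N Z Y) {b b' r r' t : ℝ} (hB : ∀ s, b ≤ s → s ≤ b' → s ∈ Z)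
    (hR : ∀ s, r ≤ s → s ≤ r' → s ∈ Y) (_ : b ≤ t) (h2 : t ≤ b') (h3 : r ≤ r') (h4 : r' < t) :
    r' ≤ b := by
  by_contra hcon
  push Not at hcon
  exact S.not_Y (b := b) (b' := b') (fun s hs => hB s hs.1 hs.2) hcon (by linarith)
    (hR r' h3 le_rfl)

theorem sep' (S : SG P N Z Y) {b b' r r' t : ℝ} (hB : ∀ s, b ≤ s → s ≤ b' → s ∈ Z)
    (hR : ∀ s, r ≤ s → s ≤ r' → s ∈ Y) (h1 : b ≤ t) (_ : t ≤ b') (h3 : r ≤ r') (h4 : t < r) :
    b' ≤ r := by
  by_contra hcon
  push Not at hcon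
  exact S.not_Y (b := b) (b' := b') (fun s hs => hB s hs.1 hs.2) (by linarith) hcon
    (hR r le_rfl h3)

theorem yper (S : SG P N Z Y) (t : ℝ) : t - 6 ∈ Y ↔ t ∈ Y := by
  have := S.pY (t - 6)
  rw [sub_add_cancel] at this
  exact this.symm

theorem zper (S : SG P N Z Y) (t : ℝ) : t - 6 ∈ Z ↔ t ∈ Z := S.swap.yper t

/-- **order around a block of `Z` in `(1, 3)`** -/
theorem ord1 (S : SG P N Z Y) (BZ : Blk Z 0 z0 z0' z1 z1' z2 z2')
    (BY : Blk Y 3 y0 y0' y1 y1' y2 y2') (d : Dif P N z1 z1') : y2' - 6 ≤ z1 ∧ z1' ≤ y0 := by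
  have Za := BZ.a0; have Zb := BZ.b0; have Zc := BZ.c0; have Zd := BZ.d0; have Ze := BZ.a1
  have Zf := BZ.b1; have Zg := BZ.c1; have Zh := BZ.a2; have Zi := BZ.b2; have Zj := BZ.c2
  have Ya := BY.a0; have Yb := BY.b0; have Yc := BY.c0; have Yd := BY.d0; have Ye := BY.a1
  have Yf := BY.b1; have Yg := BY.c1; have Yh := BY.a2; have Yi := BY.b2; have Yj := BY.c2
  have hB : ∀ s, z1 ≤ s → s ≤ z1' → s ∈ Z := fun s h1 h2 =>
    (BZ.mem s (by linarith) (by linarith)).2 (Or.inr (Or.inl ⟨h1, h2⟩))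
  have hR0 : ∀ s, y0 ≤ s → s ≤ y0' → s ∈ Y := fun s h1 h2 =>
    (BY.mem s (by linarith) (by linarith)).2 (Or.inl ⟨h1, h2⟩)
  have hR2 : ∀ s, y2 - 6 ≤ s → s ≤ y2' - 6 → s ∈ Y := fun s h1 h2 => by
    rw [← S.pY s]
    exact (BY.mem (s + 6) (by linarith) (by linarith)).2 (Or.inr (Or.inr ⟨by linarith, by linarith⟩))
  obtain ⟨t, ⟨ht1, ht2⟩, k1, k2, k3⟩ := S.diff_block' Zf.le (fun s hs => hB s hs.1 hs.2) d
  have k2' : t - 1 + 6 ∈ Y := (S.pY _).2 k2
  rw [BY.mem (t - 1 + 6) (by linarith) (by linarith)] at k2'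
  have k2a : y2 - 6 ≤ t - 1 ∧ t - 1 ≤ y2' - 6 := by
    rcases k2' with k | k | k
    · exfalso; linarith [k.2]
    · exfalso; linarith [k.2]
    · exact ⟨by linarith [k.1], by linarith [k.2]⟩
  rw [BY.mem (t + 1) (by linarith [k2a.1]) (by linarith)] at k3
  have k3a : y0 ≤ t + 1 ∧ t + 1 ≤ y0' := by
    rcases k3 with k | k | k
    · exact k
    · exfalso; linarith [k.1]
    · exfalso; linarith [k.1]
  refine ⟨?_, ?_⟩
  · refine S.sep hB hR2 ht1 ht2 (by linarith) ?_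
    by_contra hcon
    push Not at hcon
    exact k1 (hR2 t (by linarith) hcon)
  · refine S.sep' hB hR0 ht1 ht2 (by linarith) ?_
    by_contra hcon
    push Not at hcon
    exact k1 (hR0 t hcon (by linarith))

/-- **order around a block of `Z` in `(3, 5)`** -/
theorem ord2 (S : SG P N Z Y) (BZ : Blk Z 0 z0 z0' z1 z1' z2 z2')
    (BY : Blk Y 3 y0 y0' y1 y1' y2 y2') (d : Dif P N z2 z2') : y0' ≤ z2 ∧ z2' ≤ y1 := by
  have Za := BZ.a0; have Zb := BZ.b0; have Zc := BZ.c0; have Zd := BZ.d0; have Ze := BZ.a1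
  have Zf := BZ.b1; have Zg := BZ.c1; have Zh := BZ.a2; have Zi := BZ.b2; have Zj := BZ.c2
  have Ya := BY.a0; have Yb := BY.b0; have Yc := BY.c0; have Yd := BY.d0; have Ye := BY.a1
  have Yf := BY.b1; have Yg := BY.c1; have Yh := BY.a2; have Yi := BY.b2; have Yj := BY.c2
  have hB : ∀ s, z2 ≤ s → s ≤ z2' → s ∈ Z := fun s h1 h2 =>
    (BZ.mem s (by linarith) (by linarith)).2 (Or.inr (Or.inr ⟨h1, h2⟩))
  have hR0 : ∀ s, y0 ≤ s → s ≤ y0' → s ∈ Y := fun s h1 h2 =>
    (BY.mem s (by linarith) (by linarith)).2 (Or.inl ⟨h1, h2⟩)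
  have hR1 : ∀ s, y1 ≤ s → s ≤ y1' → s ∈ Y := fun s h1 h2 =>
    (BY.mem s (by linarith) (by linarith)).2 (Or.inr (Or.inl ⟨h1, h2⟩))
  obtain ⟨t, ⟨ht1, ht2⟩, k1, k2, k3⟩ := S.diff_block' Zi.le (fun s hs => hB s hs.1 hs.2) d
  rw [BY.mem (t - 1) (by linarith) (by linarith)] at k2
  rw [BY.mem (t + 1) (by linarith) (by linarith)] at k3
  have k3a : y1 ≤ t + 1 ∧ t + 1 ≤ y1' := by
    rcases k3 with k | k | k
    · exfalso; linarith [k.2]
    · exact k
    · exfalso; linarith [k.1]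
  have k2a : y0 ≤ t - 1 ∧ t - 1 ≤ y0' := by
    rcases k2 with k | k | k
    · exact k
    · exfalso; linarith [k.1, k3a.2]
    · exfalso; linarith [k.1]
  refine ⟨?_, ?_⟩
  · refine S.sep hB hR0 ht1 ht2 (by linarith) ?_
    by_contra hcon
    push Not at hcon
    exact k1 (hR0 t (by linarith) hcon)
  · refine S.sep' hB hR1 ht1 ht2 (by linarith) ?_
    by_contra hcon
    push Not at hcon
    exact k1 (hR1 t hcon (by linarith))

/-- **order around the block of `Z` at `0`** -/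
theorem ord0 (S : SG P N Z Y) (BZ : Blk Z 0 z0 z0' z1 z1' z2 z2')
    (BY : Blk Y 3 y0 y0' y1 y1' y2 y2') (d : Dif P N z0 z0') : y1' - 6 ≤ z0 ∧ z0' ≤ y2 - 6 := by
  have Za := BZ.a0; have Zb := BZ.b0; have Zc := BZ.c0; have Zd := BZ.d0; have Ze := BZ.a1
  have Zf := BZ.b1; have Zg := BZ.c1; have Zh := BZ.a2; have Zi := BZ.b2; have Zj := BZ.c2
  have Ya := BY.a0; have Yb := BY.b0; have Yc := BY.c0; have Yd := BY.d0; have Ye := BY.a1
  have Yf := BY.b1; have Yg := BY.c1; have Yh := BY.a2; have Yi := BY.b2; have Yj := BY.c2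
  have hB : ∀ s, z0 ≤ s → s ≤ z0' → s ∈ Z := fun s h1 h2 =>
    (BZ.mem s (by linarith) (by linarith)).2 (Or.inl ⟨h1, h2⟩)
  have hR1 : ∀ s, y1 - 6 ≤ s → s ≤ y1' - 6 → s ∈ Y := fun s h1 h2 => by
    rw [← S.pY s]
    exact (BY.mem (s + 6) (by linarith) (by linarith)).2 (Or.inr (Or.inl ⟨by linarith, by linarith⟩))
  have hR2 : ∀ s, y2 - 6 ≤ s → s ≤ y2' - 6 → s ∈ Y := fun s h1 h2 => by
    rw [← S.pY s]
    exact (BY.mem (s + 6) (by linarith) (by linarith)).2 (Or.inr (Or.inr ⟨by linarith, by linarith⟩))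
  obtain ⟨t, ⟨ht1, ht2⟩, k1, k2, k3⟩ :=
    S.diff_block' (by linarith : z0 ≤ z0') (fun s hs => hB s hs.1 hs.2) d
  have k2' : t - 1 + 6 ∈ Y := (S.pY _).2 k2
  have k3' : t + 1 + 6 ∈ Y := (S.pY _).2 k3
  rw [BY.mem (t - 1 + 6) (by linarith) (by linarith)] at k2'
  rw [BY.mem (t + 1 + 6) (by linarith) (by linarith)] at k3'
  have k2a : y1 - 6 ≤ t - 1 ∧ t - 1 ≤ y1' - 6 := by
    rcases k2' with k | k | k
    · exfalso; linarith [k.2]
    · exact ⟨by linarith [k.1], by linarith [k.2]⟩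
    · exfalso; linarith [k.1]
  have k3a : y2 - 6 ≤ t + 1 ∧ t + 1 ≤ y2' - 6 := by
    rcases k3' with k | k | k
    · exfalso; linarith [k.2]
    · exfalso; linarith [k.2]
    · exact ⟨by linarith [k.1], by linarith [k.2]⟩
  refine ⟨?_, ?_⟩
  · refine S.sep hB hR1 ht1 ht2 (by linarith) ?_
    by_contra hcon
    push Not at hcon
    exact k1 (hR1 t (by linarith) hcon)
  · refine S.sep' hB hR2 ht1 ht2 (by linarith) ?_
    by_contra hcon
    push Not at hcon
    exact k1 (hR2 t hcon (by linarith))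

/-! ### The always valid part of the order -/

/-- the block of `Y` at `3` separates the blocks of `Z` in `(1, 3)` and `(3, 5)` -/
theorem oY (S : SG P N Z Y) (BZ : Blk Z 0 z0 z0' z1 z1' z2 z2')
    (BY : Blk Y 3 y0 y0' y1 y1' y2 y2') : z1' ≤ y0 ∧ y0' ≤ z2 := by
  have Za := BZ.a0; have Zb := BZ.b0; have Zc := BZ.c0; have Zd := BZ.d0; have Ze := BZ.a1
  have Zf := BZ.b1; have Zg := BZ.c1; have Zh := BZ.a2; have Zi := BZ.b2; have Zj := BZ.c2
  have Ya := BY.a0; have Yb := BY.b0; have Yc := BY.c0; have Yd := BY.d0; have Ye := BY.a1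
  have Yf := BY.b1; have Yg := BY.c1; have Yh := BY.a2; have Yi := BY.b2; have Yj := BY.c2
  have hR0 : ∀ s, y0 ≤ s → s ≤ y0' → s ∈ Y := fun s h1 h2 =>
    (BY.mem s (by linarith) (by linarith)).2 (Or.inl ⟨h1, h2⟩)
  constructor
  · by_contra hcon
    push Not at hcon
    exact S.swap.not_Y (b := y0) (b' := y0') (fun s hs => hR0 s hs.1 hs.2) hcon (by linarith)
      ((BZ.mem z1' (by linarith) (by linarith)).2 (Or.inr (Or.inl ⟨by linarith, le_rfl⟩)))
  · by_contra hcon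
    push Not at hcon
    exact S.swap.not_Y (b := y0) (b' := y0') (fun s hs => hR0 s hs.1 hs.2) (by linarith) hcon
      ((BZ.mem z2 (by linarith) (by linarith)).2 (Or.inr (Or.inr ⟨le_rfl, by linarith⟩)))

/-- the block of `Z` at `0` separates the blocks of `Y` -/
theorem oZ (S : SG P N Z Y) (BZ : Blk Z 0 z0 z0' z1 z1' z2 z2')
    (BY : Blk Y 3 y0 y0' y1 y1' y2 y2') : y1' - 6 ≤ z0 ∧ z0' ≤ y2 - 6 := by
  have Za := BZ.a0; have Zb := BZ.b0; have Zc := BZ.c0; have Zd := BZ.d0; have Ze := BZ.a1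
  have Zf := BZ.b1; have Zg := BZ.c1; have Zh := BZ.a2; have Zi := BZ.b2; have Zj := BZ.c2
  have Ya := BY.a0; have Yb := BY.b0; have Yc := BY.c0; have Yd := BY.d0; have Ye := BY.a1
  have Yf := BY.b1; have Yg := BY.c1; have Yh := BY.a2; have Yi := BY.b2; have Yj := BY.c2
  have hB : ∀ s, z0 ≤ s → s ≤ z0' → s ∈ Z := fun s h1 h2 =>
    (BZ.mem s (by linarith) (by linarith)).2 (Or.inl ⟨h1, h2⟩)
  constructor
  · by_contra hcon
    push Not at hcon
    refine S.not_Y (b := z0) (b' := z0') (fun s hs => hB s hs.1 hs.2) hcon (by linarith) ?_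
    rw [S.yper]
    exact (BY.mem y1' (by linarith) (by linarith)).2 (Or.inr (Or.inl ⟨by linarith, le_rfl⟩))
  · by_contra hcon
    push Not at hcon
    refine S.not_Y (b := z0) (b' := z0') (fun s hs => hB s hs.1 hs.2) (by linarith) hcon ?_
    rw [S.yper]
    exact (BY.mem y2 (by linarith) (by linarith)).2 (Or.inr (Or.inr ⟨le_rfl, by linarith⟩))

end SG

/-- rotation of the directions -/
theorem SG.shift (S : SG P N Z Y) (c : ℝ) :
    SG {t | t + c ∈ P} {t | t + c ∈ N} {t | t + c ∈ Z} {t | t + c ∈ Y} where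
  cP := S.cP.preimage (by fun_prop)
  cN := S.cN.preimage (by fun_prop)
  cZ := S.cZ.preimage (by fun_prop)
  cY := S.cY.preimage (by fun_prop)
  cov := fun t => S.cov (t + c)
  s1 := fun t ht h => S.s1 (t + c) ht (by
    have h1 := (Homeomorph.addRight c).preimage_interior Z
    have h2 : t ∈ (Homeomorph.addRight c) ⁻¹' interior Z := by rw [h1]; exact h
    exact h2)
  s1' := fun t ht h => S.s1' (t + c) ht (by
    have h1 := (Homeomorph.addRight c).preimage_interior Y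
    have h2 : t ∈ (Homeomorph.addRight c) ⁻¹' interior Y := by rw [h1]; exact h
    exact h2)
  s2 := fun t h1 h2 => by
    have e : t + 1 + c = t + c + 1 := by ring
    simp only [mem_ofPred_eq, e] at h1 h2 ⊢
    exact S.s2 (t + c) h1 h2
  s3 := fun t h1 h2 => by
    have e : t + 1 + c = t + c + 1 := by ring
    have e' : t - 1 + c = t + c - 1 := by ring
    simp only [mem_ofPred_eq, e, e'] at h1 h2 ⊢
    exact S.s3 (t + c) h1 h2
  pP := fun t => by
    show t + 6 + c ∈ P ↔ t + c ∈ P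
    rw [show t + 6 + c = t + c + 6 by ring]; exact S.pP _
  pN := fun t => by
    show t + 6 + c ∈ N ↔ t + c ∈ N
    rw [show t + 6 + c = t + c + 6 by ring]; exact S.pN _
  pZ := fun t => by
    show t + 6 + c ∈ Z ↔ t + c ∈ Z
    rw [show t + 6 + c = t + c + 6 by ring]; exact S.pZ _
  pY := fun t => by
    show t + 6 + c ∈ Y ↔ t + c ∈ Y
    rw [show t + 6 + c = t + c + 6 by ring]; exact S.pY _

theorem bf_sh {x c : ℝ} (h : Bf N x) : Bf {t | t + c ∈ N} (x - c) := by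
  obtain ⟨δ, hδ, h1⟩ := h.exists
  exact bf_of hδ fun t k1 k2 k3 => h1 (t + c) (by linarith) (by linarith) k3

theorem af_sh {x c : ℝ} (h : Af N x) : Af {t | t + c ∈ N} (x - c) := by
  obtain ⟨δ, hδ, h1⟩ := h.exists
  exact af_of hδ fun t k1 k2 k3 => h1 (t + c) (by linarith) (by linarith) k3

theorem Dif.sh {b b' c : ℝ} (h : Dif P N b b') :
    Dif {t | t + c ∈ P} {t | t + c ∈ N} (b - c) (b' - c) := by
  rcases h with h | h
  · exact Or.inl ⟨bf_sh h.1, af_sh h.2⟩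
  · exact Or.inr ⟨bf_sh h.1, af_sh h.2⟩

variable {z0 z0' z1 z1' z2 z2' y0 y0' y1 y1' y2 y2' : ℝ}

/-- the blocks after the rotation by a half turn, first circle -/
theorem Blk.half (B : Blk Y 3 y0 y0' y1 y1' y2 y2') :
    Blk {t | t + 3 ∈ Y} 0 (y0 - 3) (y0' - 3) (y1 - 3) (y1' - 3) (y2 - 3) (y2' - 3) where
  a0 := by have := B.a0; linarith
  b0 := by have := B.b0; linarith
  c0 := by have := B.c0; linarith
  d0 := by have := B.d0; linarith
  a1 := by have := B.a1; linarith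
  b1 := by have := B.b1; linarith
  c1 := by have := B.c1; linarith
  a2 := by have := B.a2; linarith
  b2 := by have := B.b2; linarith
  c2 := by have := B.c2; linarith
  mem := fun t h1 h2 => by
    show t + 3 ∈ Y ↔ _
    rw [B.mem (t + 3) (by linarith) (by linarith)]
    simp only [sub_le_iff_le_add, le_sub_iff_add_le]

/-- the blocks after the rotation by a half turn, second circle -/
theorem Blk.half' (B : Blk Z 0 z0 z0' z1 z1' z2 z2') (hp : ∀ t, t + 6 ∈ Z ↔ t ∈ Z) :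
    Blk {t | t + 3 ∈ Z} 3 (z0 + 3) (z0' + 3) (z1 + 3) (z1' + 3) (z2 + 3) (z2' + 3) where
  a0 := by have := B.a0; linarith
  b0 := by have := B.b0; linarith
  c0 := by have := B.c0; linarith
  d0 := by have := B.d0; linarith
  a1 := by have := B.a1; linarith
  b1 := by have := B.b1; linarith
  c1 := by have := B.c1; linarith
  a2 := by have := B.a2; linarith
  b2 := by have := B.b2; linarith
  c2 := by have := B.c2; linarith
  mem := fun t h1 h2 => by
    show t + 3 ∈ Z ↔ _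
    rw [show t + 3 = t - 3 + 6 by ring, hp, B.mem (t - 3) (by linarith) (by linarith)]
    simp only [sub_le_iff_le_add, le_sub_iff_add_le]

namespace SG

/-- **order around a block of `Y` in `(4, 6)`** -/
theorem ord1' (S : SG P N Z Y) (BZ : Blk Z 0 z0 z0' z1 z1' z2 z2')
    (BY : Blk Y 3 y0 y0' y1 y1' y2 y2') (d : Dif P N y1 y1') : z2' ≤ y1 ∧ y1' - 6 ≤ z0 := by
  have h := (S.swap.shift 3).ord1 BY.half (BZ.half' S.pZ) d.sh
  exact ⟨by linarith [h.1], by linarith [h.2]⟩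

/-- **order around a block of `Y` in `(6, 8)`** -/
theorem ord2' (S : SG P N Z Y) (BZ : Blk Z 0 z0 z0' z1 z1' z2 z2')
    (BY : Blk Y 3 y0 y0' y1 y1' y2 y2') (d : Dif P N y2 y2') : z0' ≤ y2 - 6 ∧ y2' - 6 ≤ z1 := by
  have h := (S.swap.shift 3).ord2 BY.half (BZ.half' S.pZ) d.sh
  exact ⟨by linarith [h.1], by linarith [h.2]⟩

/-! ### The signs along the alternating order -/

section links

/-- the links, with the sign `+` -/
theorem links (S : SG P N Z Y) (BZ : Blk Z 0 z0 z0' z1 z1' z2 z2')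
    (BY : Blk Y 3 y0 y0' y1 y1' y2 y2') (o1 : y2' - 6 ≤ z1) (o2 : z2' ≤ y1) :
    (Af N z0' → Bf N y2) ∧ (Af N y2' → Bf N z1) ∧ (Af N z1' → Bf N y0) ∧ (Af N y0' → Bf N z2) ∧
      (Af N z2' → Bf N y1) ∧ (Af N y1' → Bf N z0) := by
  obtain ⟨o3, o4⟩ := S.oY BZ BY
  obtain ⟨o5, o6⟩ := S.oZ BZ BY
  have Za := BZ.a0; have Zb := BZ.b0; have Zc := BZ.c0; have Zd := BZ.d0; have Ze := BZ.a1
  have Zf := BZ.b1; have Zg := BZ.c1; have Zh := BZ.a2; have Zi := BZ.b2; have Zj := BZ.c2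
  have Ya := BY.a0; have Yb := BY.b0; have Yc := BY.c0; have Yd := BY.d0; have Ye := BY.a1
  have Yf := BY.b1; have Yg := BY.c1; have Yh := BY.a2; have Yi := BY.b2; have Yj := BY.c2
  -- membership of `Y` before `2`
  have mY : ∀ t, -4 < t → t ≤ 2 → (t ∈ Y ↔ (y0 ≤ t + 6 ∧ t + 6 ≤ y0') ∨
      (y1 ≤ t + 6 ∧ t + 6 ≤ y1') ∨ (y2 ≤ t + 6 ∧ t + 6 ≤ y2')) := fun t h1 h2 => by
    rw [← S.pY t]; exact BY.mem (t + 6) (by linarith) (by linarith)
  have mY' : ∀ t, 2 < t → t ≤ 8 → (t ∈ Y ↔ (y0 ≤ t ∧ t ≤ y0') ∨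
      (y1 ≤ t ∧ t ≤ y1') ∨ (y2 ≤ t ∧ t ≤ y2')) := fun t h1 h2 =>
    BY.mem t (by linarith) (by linarith)
  have mZ : ∀ t, -1 < t → t ≤ 5 → (t ∈ Z ↔ (z0 ≤ t ∧ t ≤ z0') ∨
      (z1 ≤ t ∧ t ≤ z1') ∨ (z2 ≤ t ∧ t ≤ z2')) := fun t h1 h2 =>
    BZ.mem t (by linarith) (by linarith)
  refine ⟨fun h => ?_, fun h => ?_, fun h => ?_, fun h => ?_, fun h => ?_, fun h => ?_⟩
  · rw [← S.bf_shift]
    refine S.gap o6 h (fun t ht => ?_) fun he => ?_
    · obtain ⟨h1, h2⟩ := ht
      rw [mZ t (by linarith) (by linarith), mY t (by linarith) (by linarith)]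
      refine ⟨?_, ?_⟩
      · rintro (k | k | k)
        · linarith [k.2]
        · linarith [k.1]
        · linarith [k.1]
      · rintro (k | k | k)
        · linarith [k.2]
        · linarith [k.2]
        · linarith [k.1]
    · refine ⟨(mZ _ (by linarith) (by linarith)).2 (Or.inl ⟨by linarith, by linarith⟩), ?_⟩
      exact (mY _ (by linarith) (by linarith)).2 (Or.inr (Or.inr ⟨by linarith, by linarith⟩))
  · rw [← S.af_shift] at h
    refine S.gap o1 h (fun t ht => ?_) fun he => ?_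
    · obtain ⟨h1, h2⟩ := ht
      rw [mZ t (by linarith) (by linarith)]
      refine ⟨?_, ?_⟩
      · rintro (k | k | k)
        · linarith [k.2]
        · linarith [k.1]
        · linarith [k.1]
      · rcases le_or_gt t 2 with h3 | h3
        · rw [mY t (by linarith) h3]
          rintro (k | k | k)
          · linarith [k.2]
          · linarith [k.2]
          · linarith [k.2]
        · rw [mY' t h3 (by linarith)]
          rintro (k | k | k)
          · linarith [k.1]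
          · linarith [k.1]
          · linarith [k.1]
    · refine ⟨(mZ _ (by linarith) (by linarith)).2 (Or.inr (Or.inl ⟨by linarith, by linarith⟩)), ?_⟩
      exact (mY _ (by linarith) (by linarith)).2 (Or.inr (Or.inr ⟨by linarith, by linarith⟩))
  · refine S.gap o3 h (fun t ht => ?_) fun he => ?_
    · obtain ⟨h1, h2⟩ := ht
      rw [mZ t (by linarith) (by linarith)]
      refine ⟨?_, ?_⟩
      · rintro (k | k | k)
        · linarith [k.2]
        · linarith [k.2]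
        · linarith [k.1]
      · rcases le_or_gt t 2 with h3 | h3
        · rw [mY t (by linarith) h3]
          rintro (k | k | k)
          · linarith [k.2]
          · linarith [k.2]
          · linarith [k.2]
        · rw [mY' t h3 (by linarith)]
          rintro (k | k | k)
          · linarith [k.1]
          · linarith [k.1]
          · linarith [k.1]
    · refine ⟨(mZ _ (by linarith) (by linarith)).2 (Or.inr (Or.inl ⟨by linarith, by linarith⟩)), ?_⟩
      exact (mY' _ (by linarith) (by linarith)).2 (Or.inl ⟨by linarith, by linarith⟩)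
  · refine S.gap o4 h (fun t ht => ?_) fun he => ?_
    · obtain ⟨h1, h2⟩ := ht
      rw [mZ t (by linarith) (by linarith), mY' t (by linarith) (by linarith)]
      refine ⟨?_, ?_⟩
      · rintro (k | k | k)
        · linarith [k.2]
        · linarith [k.2]
        · linarith [k.1]
      · rintro (k | k | k)
        · linarith [k.2]
        · linarith [k.1]
        · linarith [k.1]
    · refine ⟨(mZ _ (by linarith) (by linarith)).2 (Or.inr (Or.inr ⟨by linarith, by linarith⟩)), ?_⟩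
      exact (mY' _ (by linarith) (by linarith)).2 (Or.inl ⟨by linarith, by linarith⟩)
  · refine S.gap o2 h (fun t ht => ?_) fun he => ?_
    · obtain ⟨h1, h2⟩ := ht
      refine ⟨?_, ?_⟩
      · rcases le_or_gt t 5 with h3 | h3
        · rw [mZ t (by linarith) h3]
          rintro (k | k | k)
          · linarith [k.2]
          · linarith [k.2]
          · linarith [k.2]
        · rw [← S.zper, mZ (t - 6) (by linarith) (by linarith)]
          rintro (k | k | k)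
          · linarith [k.1]
          · linarith [k.1]
          · linarith [k.1]
      · rw [mY' t (by linarith) (by linarith)]
        rintro (k | k | k)
        · linarith [k.2]
        · linarith [k.1]
        · linarith [k.1]
    · refine ⟨(mZ _ (by linarith) (by linarith)).2 (Or.inr (Or.inr ⟨by linarith, by linarith⟩)), ?_⟩
      exact (mY' _ (by linarith) (by linarith)).2 (Or.inr (Or.inl ⟨by linarith, by linarith⟩))
  · rw [← S.af_shift] at h
    refine S.gap o5 h (fun t ht => ?_) fun he => ?_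
    · obtain ⟨h1, h2⟩ := ht
      refine ⟨?_, ?_⟩
      · rcases lt_or_ge (-1) t with h3 | h3
        · rw [mZ t h3 (by linarith)]
          rintro (k | k | k)
          · linarith [k.1]
          · linarith [k.1]
          · linarith [k.1]
        · rw [← S.pZ, mZ (t + 6) (by linarith) (by linarith)]
          rintro (k | k | k)
          · linarith [k.2]
          · linarith [k.2]
          · linarith [k.2]
      · rw [mY t (by linarith) (by linarith)]
        rintro (k | k | k)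
        · linarith [k.2]
        · linarith [k.2]
        · linarith [k.1]
    · refine ⟨(mZ _ (by linarith) (by linarith)).2 (Or.inl ⟨by linarith, by linarith⟩), ?_⟩
      exact (mY _ (by linarith) (by linarith)).2 (Or.inr (Or.inl ⟨by linarith, by linarith⟩))

end links

/-! ### One partner on both sides -/

/-- the block of `Z` at `0` with equal signs -/
theorem eqZ (S : SG P N Z Y) (BZ : Blk Z 0 z0 z0' z1 z1' z2 z2')
    (BY : Blk Y 3 y0 y0' y1 y1' y2 y2') (e0 : Eqs P N z0 z0') :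
    z0' = z0 + 1 ∧ y1' = z0 + 6 ∧ y2 = z0' + 6 := by
  obtain ⟨o5, o6⟩ := S.oZ BZ BY
  have Za := BZ.a0; have Zb := BZ.b0; have Zc := BZ.c0; have Zd := BZ.d0; have Ze := BZ.a1
  have Zf := BZ.b1; have Zg := BZ.c1; have Zh := BZ.a2; have Zi := BZ.b2; have Zj := BZ.c2
  have Ya := BY.a0; have Yb := BY.b0; have Yc := BY.c0; have Yd := BY.d0; have Ye := BY.a1
  have Yf := BY.b1; have Yg := BY.c1; have Yh := BY.a2; have Yi := BY.b2; have Yj := BY.c2
  have hB : ∀ s, z0 ≤ s → s ≤ z0' → s ∈ Z := fun s h1 h2 =>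
    (BZ.mem s (by linarith) (by linarith)).2 (Or.inl ⟨h1, h2⟩)
  have hl : ∀ t, -1 < t → t < z0 → t ∉ Z := fun t h1 h2 => by
    rw [BZ.mem t (by linarith) (by linarith)]
    rintro (k | k | k)
    · linarith [k.1]
    · linarith [k.1]
    · linarith [k.1]
  have hr : ∀ t, z0' < t → t < 1 → t ∉ Z := fun t h1 h2 => by
    rw [BZ.mem t (by linarith) (by linarith)]
    rintro (k | k | k)
    · linarith [k.2]
    · linarith [k.1]
    · linarith [k.1]
  obtain ⟨h1, h2, h3⟩ := S.eq_block' (by linarith : z0 ≤ z0') (fun s hs => hB s hs.1 hs.2)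
    (fun t h1 h2 => hl t (by linarith) h2) (fun t h1 h2 => hr t h1 (by linarith))
    (bf_of (δ := z0 + 1) (by linarith) fun t h1 h2 => hl t (by linarith) h2)
    (af_of (δ := 1 - z0') (by linarith) fun t h1 h2 => hr t h1 (by linarith)) e0
  refine ⟨h1, ?_, ?_⟩
  · rw [← S.pY, BY.mem _ (by linarith) (by linarith)] at h2
    rcases h2 with k | k | k
    · exfalso; linarith [k.2]
    · linarith [k.2]
    · exfalso; linarith [k.1]
  · rw [← S.pY, BY.mem _ (by linarith) (by linarith)] at h3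
    rcases h3 with k | k | k
    · exfalso; linarith [k.2]
    · exfalso; linarith [k.2]
    · linarith [k.1]

/-- the block of `Y` at `3` with equal signs -/
theorem eqY (S : SG P N Z Y) (BZ : Blk Z 0 z0 z0' z1 z1' z2 z2')
    (BY : Blk Y 3 y0 y0' y1 y1' y2 y2') (e0 : Eqs P N y0 y0') :
    y0' = y0 + 1 ∧ z1' = y0 ∧ z2 = y0' := by
  have e0' : Eqs {t | t + 3 ∈ P} {t | t + 3 ∈ N} (y0 - 3) (y0' - 3) := by
    rcases e0 with h | h
    · exact Or.inl ⟨bf_sh h.1, af_sh h.2⟩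
    · exact Or.inr ⟨bf_sh h.1, af_sh h.2⟩
  obtain ⟨h1, h2, h3⟩ := (S.swap.shift 3).eqZ BY.half (BZ.half' S.pZ) e0'
  exact ⟨by linarith, by linarith, by linarith⟩

/-- the signs before and after the six blocks of the two-square word -/
structure Sq (P N : Set ℝ) (z0 z0' z1 z1' z2 z2' y0 y0' y1 y1' y2 y2' : ℝ) : Prop where
  z0 : Bf N z0
  z0' : Af N z0'
  y2 : Bf N y2
  y2' : Af P y2'
  z1 : Bf P z1
  z1' : Af N z1'
  y0 : Bf N y0
  y0' : Af N y0'
  z2 : Bf N z2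
  z2' : Af P z2'
  y1 : Bf P y1
  y1' : Af N y1'

theorem sq_of (S : SG P N Z Y) (BZ : Blk Z 0 z0 z0' z1 z1' z2 z2')
    (BY : Blk Y 3 y0 y0' y1 y1' y2 y2') (e0 : Bf N z0) (e0' : Af N z0')
    (d1 : Dif P N z1 z1') (d2 : Dif P N z2 z2') (f0 : Eqs P N y0 y0')
    (g1 : Dif P N y1 y1') (g2 : Dif P N y2 y2') :
    Sq P N z0 z0' z1 z1' z2 z2' y0 y0' y1 y1' y2 y2' := by
  have o1 := (S.ord1 BZ BY d1).1
  have o2 := (S.ord2 BZ BY d2).2
  obtain ⟨l1, l2, l3, l4, l5, l6⟩ := S.links BZ BY o1 o2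
  obtain ⟨m1, m2, m3, m4, m5, m6⟩ := S.neg.links BZ BY o1 o2
  have a1 := l1 e0'
  have a2 := S.dif_af g2 a1
  have a3 := m2 a2
  have a4 := S.neg.dif_af d1.neg a3
  have a5 := l3 a4
  have a6 := S.eqs_af f0 a5
  have a7 := l4 a6
  have a8 := S.dif_af d2 a7
  have a9 := m5 a8
  have a10 := S.neg.dif_af g1.neg a9
  exact ⟨e0, e0', a1, a2, a3, a4, a5, a6, a7, a8, a9, a10⟩

/-- **`J1-J1` is the two-square word** -/
theorem j1j1 (S : SG P N Z Y) (BZ : Blk Z 0 z0 z0' z1 z1' z2 z2')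
    (BY : Blk Y 3 y0 y0' y1 y1' y2 y2') (e0 : Eqs P N z0 z0')
    (d1 : Dif P N z1 z1') (d2 : Dif P N z2 z2') (f0 : Eqs P N y0 y0')
    (g1 : Dif P N y1 y1') (g2 : Dif P N y2 y2') :
    z0' = z0 + 1 ∧ y1' = z0 + 6 ∧ y2 = z0' + 6 ∧ y0' = y0 + 1 ∧ z1' = y0 ∧ z2 = y0' ∧
      y2' - 6 ≤ z1 ∧ z2' ≤ y1 ∧
      (Sq P N z0 z0' z1 z1' z2 z2' y0 y0' y1 y1' y2 y2' ∨
        Sq N P z0 z0' z1 z1' z2 z2' y0 y0' y1 y1' y2 y2') := by
  obtain ⟨h1, h2, h3⟩ := S.eqZ BZ BY e0
  obtain ⟨h4, h5, h6⟩ := S.eqY BZ BY f0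
  refine ⟨h1, h2, h3, h4, h5, h6, (S.ord1 BZ BY d1).1, (S.ord2 BZ BY d2).2, ?_⟩
  rcases e0 with h | h
  · exact Or.inl (S.sq_of BZ BY h.1 h.2 d1 d2 f0 g1 g2)
  · exact Or.inr (S.neg.sq_of BZ BY h.1 h.2 d1.neg d2.neg f0.neg g1.neg g2.neg)

/-! ### Parity -/

/-- a block with equal (`k = false`) or different (`k = true`) signs -/
def Kd (P N : Set ℝ) (k : Bool) (b b' : ℝ) : Prop := cond k (Dif P N b b') (Eqs P N b b')

theorem kd_af (S : SG P N Z Y) {k : Bool} {b b' : ℝ} (h : Kd P N k b b') (h1 : Bf N b) :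
    cond k (Af P b') (Af N b') := by
  cases k
  · exact S.eqs_af h h1
  · exact S.dif_af h h1

/-- the sign `σ` (`true` = the sign `+`) -/
def BfS (P N : Set ℝ) (σ : Bool) (x : ℝ) : Prop := cond σ (Bf N x) (Bf P x)

/-- the sign `σ` after `x` -/
def AfS (P N : Set ℝ) (σ : Bool) (x : ℝ) : Prop := cond σ (Af N x) (Af P x)

theorem kd_afS (S : SG P N Z Y) {k σ : Bool} {b b' : ℝ} (h : Kd P N k b b') (h1 : BfS P N σ b) :
    AfS P N (xor σ k) b' := by
  cases σ <;> cases k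
  · exact S.neg.eqs_af (Or.symm h) h1
  · exact S.neg.dif_af (Or.symm h) h1
  · exact S.eqs_af h h1
  · exact S.dif_af h h1

/-- **parity**: in the alternating order the number of blocks with different signs is even -/
theorem parity (S : SG P N Z Y) (BZ : Blk Z 0 z0 z0' z1 z1' z2 z2')
    (BY : Blk Y 3 y0 y0' y1 y1' y2 y2') (o1 : y2' - 6 ≤ z1) (o2 : z2' ≤ y1)
    {k0 k1 k2 l0 l1 l2 : Bool} (a0 : Kd P N k0 z0 z0') (a1 : Kd P N k1 z1 z1')
    (a2 : Kd P N k2 z2 z2') (b0 : Kd P N l0 y0 y0') (b1 : Kd P N l1 y1 y1')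
    (b2 : Kd P N l2 y2 y2') : xor (xor (xor (xor (xor k0 l2) k1) l0) k2) l1 = false := by
  have L := S.links BZ BY o1 o2
  have M := S.neg.links BZ BY o1 o2
  have t1 : ∀ σ, AfS P N σ z0' → BfS P N σ y2 := fun σ h => by
    cases σ
    · exact M.1 h
    · exact L.1 h
  have t2 : ∀ σ, AfS P N σ y2' → BfS P N σ z1 := fun σ h => by
    cases σ
    · exact M.2.1 h
    · exact L.2.1 h
  have t3 : ∀ σ, AfS P N σ z1' → BfS P N σ y0 := fun σ h => by
    cases σ
    · exact M.2.2.1 h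
    · exact L.2.2.1 h
  have t4 : ∀ σ, AfS P N σ y0' → BfS P N σ z2 := fun σ h => by
    cases σ
    · exact M.2.2.2.1 h
    · exact L.2.2.2.1 h
  have t5 : ∀ σ, AfS P N σ z2' → BfS P N σ y1 := fun σ h => by
    cases σ
    · exact M.2.2.2.2.1 h
    · exact L.2.2.2.2.1 h
  have t6 : ∀ σ, AfS P N σ y1' → BfS P N σ z0 := fun σ h => by
    cases σ
    · exact M.2.2.2.2.2 h
    · exact L.2.2.2.2.2 h
  have key : ∀ σ, BfS P N σ z0 →
      BfS P N (xor (xor (xor (xor (xor (xor σ k0) l2) k1) l0) k2) l1) z0 := fun σ h =>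
    t6 _ (S.kd_afS b1 (t5 _ (S.kd_afS a2 (t4 _ (S.kd_afS b0 (t3 _ (S.kd_afS a1
      (t2 _ (S.kd_afS b2 (t1 _ (S.kd_afS a0 h)))))))))))
  have hex : ∃ σ, BfS P N σ z0 := by
    cases k0
    · rcases a0 with h | h
      · exact ⟨true, h.1⟩
      · exact ⟨false, h.1⟩
    · rcases a0 with h | h
      · exact ⟨true, h.1⟩
      · exact ⟨false, h.1⟩
  obtain ⟨σ, hσ⟩ := hex
  have h1 := key σ hσ
  by_contra hcon
  rw [Bool.not_eq_false] at hcon
  have e : xor (xor (xor (xor (xor (xor σ k0) l2) k1) l0) k2) l1 =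
      xor σ (xor (xor (xor (xor (xor k0 l2) k1) l0) k2) l1) := by
    simp only [Bool.xor_assoc]
  rw [e, hcon] at h1
  cases σ
  · exact S.not_both_bf h1 hσ
  · exact S.not_both_bf hσ h1

/-- **`J1` stands next to no centre with an odd number of blocks with different signs** -/
theorem j1_odd (S : SG P N Z Y) (BZ : Blk Z 0 z0 z0' z1 z1' z2 z2')
    (BY : Blk Y 3 y0 y0' y1 y1' y2 y2') (e0 : Eqs P N z0 z0') (d1 : Dif P N z1 z1')
    (d2 : Dif P N z2 z2') {l0 l1 l2 : Bool} (b0 : Kd P N l0 y0 y0') (b1 : Kd P N l1 y1 y1')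
    (b2 : Kd P N l2 y2 y2') (hl : xor (xor l0 l1) l2 = true) : False := by
  have h := S.parity BZ BY (S.ord1 BZ BY d1).1 (S.ord2 BZ BY d2).2 (k0 := false) (k1 := true)
    (k2 := true) e0 d1 d2 b0 b1 b2
  revert h hl
  cases l0 <;> cases l1 <;> cases l2 <;> decide

end SG

end Vale.Agent.P032.H594
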