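import Vale.Agent.P032.H594.JOldW

/-!
# P032: the old word from the arcs seen from a `J`-partner of type `C|A`

`oldW_mk594` : `OldW` from the exact arcs, the palettes of the ends and the gaps.
-/

open Set Filter Topology Metric

noncomputable section

namespace Vale.Agent.P032.H594

open Vale.Agent.P032.Six Vale.Agent.P032.S5.H450 Vale.Agent.P032.H471
  Vale.Agent.P032.S5.H767 Vale.Agent.P032.H695

variable {U : Fin 6 → Set ℂ} {T : ℂ → Set (Fin 6)}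

theorem nd_swap_ef {a b c d e f : Fin 6} (nd : [a, b, c, d, e, f].Nodup) :
    [a, b, c, d, f, e].Nodup := by
  simp only [List.nodup_cons, List.mem_cons, List.not_mem_nil, or_false, not_or,
    List.nodup_nil, and_true, not_false_eq_true] at nd ⊢
  obtain ⟨⟨ab, ac, ad, ae, af⟩, ⟨bc, bd, be, bf⟩, ⟨cd, ce, cf⟩, ⟨de, df⟩, ef⟩ := nd
  exact ⟨⟨ab, ac, ad, af, ae⟩, ⟨bc, bd, bf, be⟩, ⟨cd, cf, ce⟩, ⟨df, de⟩, Ne.symm ef⟩

theorem nd_swap_pairs {a b c d e f : Fin 6} (nd : [a, b, c, d, e, f].Nodup) :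
    [c, d, a, b, e, f].Nodup := by
  simp only [List.nodup_cons, List.mem_cons, List.not_mem_nil, or_false, not_or,
    List.nodup_nil, and_true, not_false_eq_true] at nd ⊢
  obtain ⟨⟨ab, ac, ad, ae, af⟩, ⟨bc, bd, be, bf⟩, ⟨cd, ce, cf⟩, ⟨de, df⟩, ef⟩ := nd
  exact ⟨⟨cd, Ne.symm ac, Ne.symm bc, ce, cf⟩, ⟨Ne.symm ad, Ne.symm bd, de, df⟩, ⟨ab, ae, af⟩,
    ⟨be, bf⟩, ef⟩

/-- the old word from the arcs -/
theorem oldW_mk594 {z : ℂ} {a b c d e f : Fin 6} {φ x0 x0' x1 x1' x2 j x2' : ℝ}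
    (hz : DPt T z a b c d) (nd : [a, b, c, d, e, f].Nodup)
    (J : T (pt z φ) = T z) (J' : T (pt z (φ + j)) = T z)
    (p0 : T (pt z (φ + x0)) = {c, d, f}) (p0' : T (pt z (φ + x0')) = {a, b, e})
    (p1 : T (pt z (φ + x1)) = {c, d, f}) (p1' : T (pt z (φ + x1')) = {c, d, e})
    (p2 : T (pt z (φ + x2)) = {a, b, f}) (p2' : T (pt z (φ + x2')) = {c, d, e})
    (m0 : ∀ t ∈ Ioo x0 0, pt z (φ + t) ∈ Ex T z {c, d})
    (m0' : ∀ t ∈ Ioo 0 x0', pt z (φ + t) ∈ Ex T z {a, b})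
    (m1 : ∀ t ∈ Ioo x1 x1', pt z (φ + t) ∈ Ex T z {c, d})
    (m2 : ∀ t ∈ Ioo x2 j, pt z (φ + t) ∈ Ex T z {a, b})
    (m2' : ∀ t ∈ Ioo j x2', pt z (φ + t) ∈ Ex T z {c, d})
    (g0 : ∀ t ∈ Ioo x0' x1, pt z (φ + t) ∉ closure (Ex T z {a, b}) ∧
      pt z (φ + t) ∉ closure (Ex T z {c, d}))
    (g1 : ∀ t ∈ Ioo x1' x2, pt z (φ + t) ∉ closure (Ex T z {a, b}) ∧
      pt z (φ + t) ∉ closure (Ex T z {c, d}))
    (g2 : ∀ t ∈ Ioo x2' (x0 + 6), pt z (φ + t) ∉ closure (Ex T z {a, b}) ∧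
      pt z (φ + t) ∉ closure (Ex T z {c, d}))
    (a0 : -1 < x0) (b0 : x0 < 0) (c0 : 0 < x0') (d0 : x0' < 1) (a1 : 1 ≤ x1) (b1 : x1 < x1')
    (c1 : x1' < 3) (a2 : 3 < x2) (b2 : x2 < j) (b2' : j < x2') (gap : x2' + 1 ≤ x0 + 6)
    (j0 : x2' - j < 1) (j0' : j - x2 < 1) (j1 : x1' + 1 ≤ j) (j3 : j < x1 + 3)
    (j4 : x0' + 3 < j) : OldW T z φ c d a b e f (-x0) x0' x1 x1' x2 j x2' where
  hz := hz.swap
  nd := nd_swap_pairs nd
  s0 := by linarith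
  s1 := by linarith
  t0 := c0
  t1 := d0
  u0 := a1
  uu := b1
  u3 := c1
  w3 := a2
  wm := b2
  mw := b2'
  gap := by linarith
  j0 := j0
  j0' := j0'
  j1 := j1
  j3 := j3
  j4 := j4
  J := J
  J' := J'
  A0 := fun x h1 h2 => ex_self (m0 x ⟨by linarith, h2⟩)
  C0 := fun x h1 h2 => ex_self (m0' x ⟨h1, h2⟩)
  A1 := fun x h1 h2 => ex_self (m1 x ⟨h1, h2⟩)
  C2 := fun x h1 h2 => ex_self (m2 x ⟨h1, h2⟩)
  A2 := fun x h1 h2 => ex_self (m2' x ⟨h1, h2⟩)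
  e0 := by rw [sub_neg_eq_add]; exact p0
  e0' := p0'
  e1 := p1
  e1' := p1'
  e2 := p2
  e2' := p2'
  cl := fun x h1 h2 h3 => by
    have h3' : pt z (φ + x) ∈ closure (Ex T z {c, d}) ∨ pt z (φ + x) ∈ closure (Ex T z {a, b}) := h3
    by_contra hcon
    push Not at hcon
    obtain ⟨k1, k2, k3⟩ := hcon
    rcases lt_or_ge x x1 with h4 | h4
    · have := g0 x ⟨k1, h4⟩
      rcases h3' with h5 | h5
      exacts [this.2 h5, this.1 h5]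
    have h5 := k2 h4
    rcases lt_or_ge x x2 with h6 | h6
    · have := g1 x ⟨h5, h6⟩
      rcases h3' with h5 | h5
      exacts [this.2 h5, this.1 h5]
    have h7 := k3 h6
    have := g2 x ⟨h7, by linarith⟩
    rcases h3' with h5 | h5
    exacts [this.2 h5, this.1 h5]

end Vale.Agent.P032.H594
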