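import Vale.Agent.P032.H594.JSign
import Vale.Agent.P032.H594.JOrder

/-!
# P032: the sign rules of a pair of `J`-partners

`JPair.sg` : the rules `SG` hold for `JPair`.
`JPair.bz_e`, ... : the signs before and after a block are read from the third colour of the end.
-/

open Set Filter Topology Metric

noncomputable section

namespace Vale.Agent.P032.H594

open Vale.Agent.P032.Six Vale.Agent.P032.S5.H767 Vale.Agent.P032.S5.H122 Vale.Agent.P032.Sweep

variable {U : Fin 6 → Set ℂ} {T : ℂ → Set (Fin 6)} {z y : ℂ} {a b c d e f : Fin 6} {x : ℝ}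

namespace JPair

/-- **the sign rules** -/
theorem sg (S : JPair U T z y a b c d e f) :
    SG (Sd T z y e f) (Sd T z y f e) (Ad T z {a, b} {c, d}) (Ad T y {a, c} {b, d}) where
  cP := isClosed_closure
  cN := isClosed_closure
  cZ := Ad_closed _ _
  cY := Ad_closed _ _
  cov := fun t => by
    have h : t ∈ Sd T z y e f ∪ Sd T z y f e := by rw [S.cov]; trivial
    exact h
  s1 := fun _ h => S.s1 h
  s1' := fun _ h => S.s1' h
  s2 := fun _ h1 h2 => S.s2 h1 h2
  s3 := fun _ h1 h2 => S.s3 h1 h2
  pP := Sd_per e f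
  pN := Sd_per f e
  pZ := Ad_per _ _
  pY := Ad_per _ _

theorem ev_sub (S : JPair U T z y a b c d e f) (w : ℂ) {i : Fin 6} (hi : i ∉ T (pt w x)) :
    ∀ᶠ t in 𝓝 x, i ∉ T (pt w t) := by
  have := (continuous_pt w).continuousAt.eventually (S.irr.nhd (pt w x))
  filter_upwards [this] with t ht hit
  exact hi (ht hit)

/-- before a block of `S(z)` whose end has not the colour `f`: the sign is `+` -/
theorem bz (S : JPair U T z y a b c d e f) (hZ : ∀ᶠ t in 𝓝[<] x, t ∉ Ad T z {a, b} {c, d})
    (hf : f ∉ T (pt z x)) : Bf (Sd T z y f e) x := by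
  filter_upwards [hZ, (S.ev_sub z hf).filter_mono nhdsWithin_le_nhds] with t h1 h2
  exact S.not_N h1 h2

/-- before a block of `S(z)` whose end has not the colour `e`: the sign is `-` -/
theorem bz' (S : JPair U T z y a b c d e f) (hZ : ∀ᶠ t in 𝓝[<] x, t ∉ Ad T z {a, b} {c, d})
    (he : e ∉ T (pt z x)) : Bf (Sd T z y e f) x := S.efs.bz hZ he

/-- after a block of `S(z)` whose end has not the colour `f`: the sign is `+` -/
theorem az (S : JPair U T z y a b c d e f) (hZ : ∀ᶠ t in 𝓝[>] x, t ∉ Ad T z {a, b} {c, d})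
    (hf : f ∉ T (pt z x)) : Af (Sd T z y f e) x := by
  filter_upwards [hZ, (S.ev_sub z hf).filter_mono nhdsWithin_le_nhds] with t h1 h2
  exact S.not_N h1 h2

/-- after a block of `S(z)` whose end has not the colour `e`: the sign is `-` -/
theorem az' (S : JPair U T z y a b c d e f) (hZ : ∀ᶠ t in 𝓝[>] x, t ∉ Ad T z {a, b} {c, d})
    (he : e ∉ T (pt z x)) : Af (Sd T z y e f) x := S.efs.az hZ he

/-- before a block of `S(y)` whose end has not the colour `f`: the sign is `-` -/
theorem by_ (S : JPair U T z y a b c d e f) (hY : ∀ᶠ t in 𝓝[<] x, t ∉ Ad T y {a, c} {b, d})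
    (hf : f ∉ T (pt y x)) : Bf (Sd T z y e f) x := by
  have := S.swap.bz hY hf
  rwa [Sd_swap] at this

/-- before a block of `S(y)` whose end has not the colour `e`: the sign is `+` -/
theorem by' (S : JPair U T z y a b c d e f) (hY : ∀ᶠ t in 𝓝[<] x, t ∉ Ad T y {a, c} {b, d})
    (he : e ∉ T (pt y x)) : Bf (Sd T z y f e) x := by
  have := S.swap.bz' hY he
  rwa [Sd_swap] at this

/-- after a block of `S(y)` whose end has not the colour `f`: the sign is `-` -/
theorem ay (S : JPair U T z y a b c d e f) (hY : ∀ᶠ t in 𝓝[>] x, t ∉ Ad T y {a, c} {b, d})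
    (hf : f ∉ T (pt y x)) : Af (Sd T z y e f) x := by
  have := S.swap.az hY hf
  rwa [Sd_swap] at this

/-- after a block of `S(y)` whose end has not the colour `e`: the sign is `+` -/
theorem ay' (S : JPair U T z y a b c d e f) (hY : ∀ᶠ t in 𝓝[>] x, t ∉ Ad T y {a, c} {b, d})
    (he : e ∉ T (pt y x)) : Af (Sd T z y f e) x := by
  have := S.swap.az' hY he
  rwa [Sd_swap] at this

end JPair

end Vale.Agent.P032.H594
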